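import Vale.Agent.Lib.P202.Core

/-!
# P202: independence does not depend on the minimal generating family
-/

namespace Vale.Agent.P202

open IsLocalRing

/-- **Subtask E1.** -/
theorem indep_of_span_eq {S : Type*} [CommRing S] [IsLocalRing S] {r : ℕ} (a b : Fin r → S)
    (I : Ideal S) (hI : I ≤ maximalIdeal S) (ha : Ideal.span (Set.range a) = I)
    (hb : Ideal.span (Set.range b) = I)
    (hind : ∀ z : Fin r → S, ∑ i, a i * z i = 0 → ∀ i, z i ∈ I) :
    ∀ z : Fin r → S, ∑ i, b i * z i = 0 → ∀ i, z i ∈ I := by
  classical
  have hU : ∀ j, ∃ u : Fin r → S, ∑ i, u i * a i = b j := by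
    intro j
    apply Ideal.mem_span_range_iff_exists_fun.mp
    rw [ha, ← hb]
    exact Ideal.subset_span ⟨j, rfl⟩
  have hV : ∀ i, ∃ v : Fin r → S, ∑ j, v j * b j = a i := by
    intro i
    apply Ideal.mem_span_range_iff_exists_fun.mp
    rw [hb, ← ha]
    exact Ideal.subset_span ⟨i, rfl⟩
  choose U hU using hU
  choose V hV using hV
  let MU : Matrix (Fin r) (Fin r) S := Matrix.of U
  let MV : Matrix (Fin r) (Fin r) S := Matrix.of V
  have hW : ∀ i l, (MV * MU) i l - (1 : Matrix (Fin r) (Fin r) S) i l ∈ I := by
    intro i
    apply hind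
    have h1 : ∑ l, a l * (MV * MU) i l = a i := by
      conv_rhs => rw [← hV i]
      simp only [Matrix.mul_apply, MU, MV, Matrix.of_apply, Finset.mul_sum]
      rw [Finset.sum_comm]
      apply Finset.sum_congr rfl
      intro j _
      rw [← hU j, Finset.mul_sum]
      apply Finset.sum_congr rfl
      intro l _
      ring
    have h2 : ∑ l, a l * (1 : Matrix (Fin r) (Fin r) S) i l = a i := by
      simp [Matrix.one_apply]
    simp only [mul_sub, Finset.sum_sub_distrib, h1, h2, sub_self]
  have hdet : IsUnit (MV * MU).det := by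
    have h1 : (MV * MU).map (residue S) = 1 := by
      ext i l
      rw [Matrix.map_apply]
      have h2 := hI (hW i l)
      rw [← residue_eq_zero_iff, map_sub, sub_eq_zero] at h2
      rw [h2]
      by_cases h : i = l
      · subst h
        simp
      · simp [Matrix.one_apply_ne h]
    have h3 : residue S (MV * MU).det = 1 := by
      rw [RingHom.map_det, RingHom.mapMatrix_apply, h1, Matrix.det_one]
    apply isUnit_of_map_unit (residue S)
    rw [h3]
    exact isUnit_one
  have hdU : IsUnit MU.det := by
    rw [Matrix.det_mul] at hdet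
    exact isUnit_of_mul_isUnit_right hdet
  have hdUT : IsUnit MU.transpose.det := by
    rw [Matrix.det_transpose]
    exact hdU
  intro z hz
  have hy : ∀ i, (MU.transpose.mulVec z) i ∈ I := by
    apply hind
    rw [← hz]
    simp only [Matrix.mulVec, dotProduct, Matrix.transpose_apply, MU, Matrix.of_apply,
      Finset.mul_sum]
    rw [Finset.sum_comm]
    apply Finset.sum_congr rfl
    intro j _
    rw [← hU j, Finset.sum_mul]
    apply Finset.sum_congr rfl
    intro l _
    ring
  have hzz : z = (MU.transpose)⁻¹.mulVec (MU.transpose.mulVec z) := by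
    rw [Matrix.mulVec_mulVec, Matrix.nonsing_inv_mul _ hdUT, Matrix.one_mulVec]
  intro j
  rw [hzz]
  simp only [Matrix.mulVec, dotProduct]
  apply Ideal.sum_mem
  intro i _
  apply Ideal.mul_mem_left
  exact hy i

/-- **Subtask E2.** -/
theorem exists_minimal_generators_spanFinrank (R : Type*) [CommRing R] [IsLocalRing R]
    [IsNoetherianRing R] :
    ∃ a : Fin (maximalIdeal R).spanFinrank → R, Ideal.span (Set.range a) = maximalIdeal R ∧
      ∀ c : Fin (maximalIdeal R).spanFinrank → R, ∑ i, a i * c i = 0 →
        ∀ i, c i ∈ maximalIdeal R := by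
  classical
  have hfg : (maximalIdeal R).FG := IsNoetherian.noetherian _
  obtain ⟨s, hs1, hs2⟩ := Submodule.FG.exists_span_finset_card_eq_spanFinrank hfg
  have hmin : ∀ t : Finset R, Submodule.span R (t : Set R) = maximalIdeal R → s.card ≤ t.card := by
    intro t ht
    rw [hs1]
    have := Submodule.spanFinrank_span_le_ncard_of_finite (R := R) t.finite_toSet
    rw [ht, Set.ncard_coe_finset] at this
    exact this
  rw [← hs1]
  let a : Fin s.card → R := fun i => (s.equivFin.symm i : R)
  have ha_mem : ∀ i, a i ∈ s := fun i => (s.equivFin.symm i).2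
  have ha_inj : Function.Injective a := by
    intro i j h
    exact s.equivFin.symm.injective (Subtype.ext h)
  have ha_range : Set.range a = (s : Set R) := by
    ext x
    constructor
    · rintro ⟨i, rfl⟩
      exact ha_mem i
    · intro hx
      refine ⟨s.equivFin ⟨x, hx⟩, ?_⟩
      simp [a]
  refine ⟨a, ?_, ?_⟩
  · rw [ha_range]
    exact hs2
  intro c hc i
  by_contra hi
  have hu : IsUnit (c i) := by
    by_contra h
    exact hi ((mem_maximalIdeal _).2 h)
  obtain ⟨u, hu⟩ := hu
  have hcard : (s.erase (a i)).card < s.card := Finset.card_erase_lt_of_mem (ha_mem i)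
  apply absurd (hmin (s.erase (a i)) ?_) (not_le.mpr hcard)
  apply le_antisymm
  · rw [← hs2]
    apply Submodule.span_mono
    exact_mod_cast Finset.erase_subset _ _
  · rw [← hs2, Submodule.span_le]
    have hai : a i ∈ Submodule.span R ((s.erase (a i) : Finset R) : Set R) := by
      rw [← Finset.add_sum_erase _ _ (Finset.mem_univ i)] at hc
      have h1 : a i = (↑u⁻¹ : R) • (- (∑ l ∈ Finset.univ.erase i, a l * c l)) := by
        have h2 : a i * c i = - (∑ l ∈ Finset.univ.erase i, a l * c l) := by
          linear_combination hc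
        rw [← h2, ← hu, smul_eq_mul, mul_comm, mul_assoc, Units.mul_inv, mul_one]
      have h3 : (↑u⁻¹ : R) • (- (∑ l ∈ Finset.univ.erase i, a l * c l)) ∈
          Submodule.span R ((s.erase (a i) : Finset R) : Set R) := by
        apply Submodule.smul_mem
        apply Submodule.neg_mem
        apply Submodule.sum_mem
        intro l hl
        rw [mul_comm, ← smul_eq_mul]
        apply Submodule.smul_mem
        apply Submodule.subset_span
        rw [Finset.mem_coe, Finset.mem_erase]
        refine ⟨?_, ha_mem l⟩
        intro h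
        exact (Finset.mem_erase.mp hl).1 (ha_inj h)
      rwa [← h1] at h3
    intro x hx
    by_cases hxa : x = a i
    · rw [hxa]
      exact hai
    · apply Submodule.subset_span
      rw [Finset.mem_coe, Finset.mem_erase]
      exact ⟨hxa, hx⟩

end Vale.Agent.P202
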