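import Mathlib

/-!
# P202: combinatorial lemma on coefficient families satisfying the exchange relations
-/

namespace Vale.Agent.P202

open MvPolynomial Finsupp

variable {S : Type*} [CommRing S] {ι : Type*} [DecidableEq ι]

/-- the monomial `x ^ α` -/
noncomputable def mon (x : ι → S) (α : ι →₀ ℕ) : S := α.prod fun i e => x i ^ e

omit [DecidableEq ι] in
theorem mon_add_single (x : ι → S) (α : ι →₀ ℕ) (a : ι) :
    mon x (α + single a 1) = mon x α * x a := by
  unfold mon
  rw [Finsupp.prod_add_index' (by simp) (by intro i m n; exact pow_add _ _ _),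
    Finsupp.prod_single_index (by simp)]
  simp

omit [DecidableEq ι] in
theorem eval_eq_sum_mon (x : ι → S) (p : MvPolynomial ι S) :
    eval x p = ∑ d ∈ p.support, p.coeff d * mon x d := by
  rw [eval_eq]
  rfl

omit [DecidableEq ι] in
theorem mon_mem_pow (x : ι → S) (n : Ideal S) (hx : ∀ i, x i ∈ n) (α : ι →₀ ℕ) :
    mon x α ∈ n ^ α.degree := by
  induction α using Finsupp.induction_linear with
  | zero => simp [mon]
  | add f g hf hg =>
    have : mon x (f + g) = mon x f * mon x g := by
      unfold mon
      rw [Finsupp.prod_add_index' (by simp) (by intro i m n; exact pow_add _ _ _)]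
    rw [this, map_add, pow_add]
    exact Ideal.mul_mem_mul hf hg
  | single a b =>
    have : mon x (single a b) = x a ^ b := by
      unfold mon
      rw [Finsupp.prod_single_index (by simp)]
    rw [this, degree_single]
    exact Ideal.pow_mem_pow (hx a) b

omit [DecidableEq ι] in
/-- evaluation of a homogeneous polynomial with coefficients in `K`, when all monomials of the
right degree lie in `L` -/
theorem eval_mem_mul (x : ι → S) (K L : Ideal S) (j : ℕ) (p : MvPolynomial ι S)
    (hp : p.IsHomogeneous j) (hK : ∀ d, p.coeff d ∈ K)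
    (hL : ∀ d : ι →₀ ℕ, d.degree = j → mon x d ∈ L) : eval x p ∈ K * L := by
  rw [eval_eq_sum_mon]
  refine Ideal.sum_mem _ (fun d hd => ?_)
  apply Ideal.mul_mem_mul (hK d)
  apply hL
  by_contra h
  exact (MvPolynomial.mem_support_iff.1 hd) (hp.coeff_eq_zero h)

/-- **Combinatorial lemma**, one direction `a → b`. -/
theorem comb_aux (K : Ideal S) (w : ℕ) (p : (ι →₀ ℕ) → MvPolynomial ι S) (a b : ι) (hab : a ≠ b)
    (H : ∀ γ : ι →₀ ℕ, γ.degree + 1 = w → ∀ δ,
      coeff δ (p (γ + single a 1) * X b - p (γ + single b 1) * X a) ∈ K) :
    ∀ m : ℕ, ∀ α β : ι →₀ ℕ, α.degree = w → β a = m → m < α a → coeff β (p α) ∈ K := by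
  intro m
  induction m with
  | zero =>
    intro α β hα hβ hlt
    have hα' : α - single a 1 + single a 1 = α := by
      apply tsub_add_cancel_of_le
      rw [Finsupp.single_le_iff]
      omega
    have hdeg : (α - single a 1).degree + 1 = w := by
      have := congrArg Finsupp.degree hα'
      rw [map_add, degree_single] at this
      omega
    have h := H (α - single a 1) hdeg (β + single b 1)
    rw [hα', coeff_sub, coeff_mul_X, coeff_mul_X'] at h
    have hns : a ∉ (β + single b 1).support := by
      simp [hβ, hab.symm]
    rw [if_neg hns, sub_zero] at h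
    exact h
  | succ m ih =>
    intro α β hα hβ hlt
    have hα' : α - single a 1 + single a 1 = α := by
      apply tsub_add_cancel_of_le
      rw [Finsupp.single_le_iff]
      omega
    have hdeg : (α - single a 1).degree + 1 = w := by
      have := congrArg Finsupp.degree hα'
      rw [map_add, degree_single] at this
      omega
    have h := H (α - single a 1) hdeg (β + single b 1)
    rw [hα', coeff_sub, coeff_mul_X, coeff_mul_X'] at h
    have hs : a ∈ (β + single b 1).support := by
      simp [hβ, hab.symm]
    rw [if_pos hs] at h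
    have h2 : coeff (β + single b 1 - single a 1) (p (α - single a 1 + single b 1)) ∈ K := by
      apply ih
      · rw [map_add, degree_single]
        exact hdeg
      · simp [hβ, hab.symm]
      · simp only [Finsupp.coe_add, Finsupp.coe_tsub, Pi.add_apply, Pi.sub_apply,
          Finsupp.single_eq_same, Finsupp.single_apply, hab.symm, if_false]
        omega
    have := K.add_mem h h2
    simpa using this

/-- **Combinatorial lemma.** -/
theorem comb_lemma [Nontrivial ι] (K : Ideal S) (w : ℕ) (p : (ι →₀ ℕ) → MvPolynomial ι S)
    (H : ∀ (a b : ι) (γ : ι →₀ ℕ), γ.degree + 1 = w → ∀ δ,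
      coeff δ (p (γ + single a 1) * X b - p (γ + single b 1) * X a) ∈ K)
    (α β : ι →₀ ℕ) (hα : α.degree = w) (hβ : β.degree < w) : coeff β (p α) ∈ K := by
  have hex : ∃ a, β a < α a := by
    by_contra h
    push Not at h
    have : α ≤ β := h
    have := Finsupp.degree_mono this
    omega
  obtain ⟨a, ha⟩ := hex
  obtain ⟨b, hb⟩ := exists_ne a
  exact comb_aux K w p a b hb.symm (H a b) (β a) α β hα rfl ha

end Vale.Agent.P202
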