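import Vale.Agent.Lib.P202.Length

/-!
# P202 (Lech's conjecture): closed fibres with principal maximal ideal
-/

namespace Vale.Agent.P202

open IsLocalRing

section LengthLemmas

variable {B : Type*} [CommRing B]

theorem length_quot_eq_add {A C : Ideal B} (h : A ≤ C) :
    Module.length B (B ⧸ A) =
      Module.length B ↥(Submodule.map (Submodule.mkQ A) C) + Module.length B (B ⧸ C) := by
  rw [Module.length_eq_add_of_exact (Submodule.map (Submodule.mkQ A) C).subtype
    (Submodule.map (Submodule.mkQ A) C).mkQ (Submodule.subtype_injective _)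
    (Submodule.mkQ_surjective _) (LinearMap.exact_subtype_mkQ _)]
  congr 1
  exact (Submodule.quotientQuotientEquivQuotient A C h).length_eq

theorem length_transfer {A C A' C' : Ideal B} (x : B)
    (h1 : ∀ z ∈ A', x * z ∈ A) (h2 : C ≤ A ⊔ Ideal.span {x} * C') :
    Module.length B ↥(Submodule.map (Submodule.mkQ A) C) ≤
      Module.length B ↥(Submodule.map (Submodule.mkQ A') C') := by
  let φ : (B ⧸ A') →ₗ[B] (B ⧸ A) :=
    Submodule.mapQ A' A (LinearMap.mulLeft B x) (fun z hz => h1 z hz)
  have hle : Submodule.map (Submodule.mkQ A) C ≤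
      Submodule.map φ (Submodule.map (Submodule.mkQ A') C') := by
    rintro _ ⟨c, hc, rfl⟩
    obtain ⟨a, ha, w, hw, rfl⟩ := Submodule.mem_sup.1 (h2 hc)
    obtain ⟨c', hc', rfl⟩ := Ideal.mem_span_singleton_mul.1 hw
    refine ⟨Submodule.mkQ A' c', ⟨c', hc', rfl⟩, ?_⟩
    have e1 : φ (Submodule.mkQ A' c') = Submodule.mkQ A (x * c') := rfl
    rw [e1, map_add]
    have e2 : Submodule.mkQ A a = 0 := by
      rw [Submodule.mkQ_apply, Submodule.Quotient.mk_eq_zero]
      exact ha
    rw [e2, zero_add]
  calc Module.length B ↥(Submodule.map (Submodule.mkQ A) C)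
      ≤ Module.length B ↥(Submodule.map φ (Submodule.map (Submodule.mkQ A') C')) :=
        Module.length_le_of_injective (Submodule.inclusion hle) (Submodule.inclusion_injective hle)
    _ ≤ Module.length B ↥(Submodule.map (Submodule.mkQ A') C') :=
        Module.length_le_of_surjective (φ.submoduleMap _) (φ.submoduleMap_surjective _)

theorem length_quot_le_add_cyclic {A c : Ideal B} (b : B) (h : ∀ z ∈ c, b * z ∈ A) :
    Module.length B (B ⧸ A) ≤
      Module.length B (B ⧸ (A ⊔ Ideal.span {b})) + Module.length B (B ⧸ c) := by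
  rw [length_quot_eq_add (le_sup_left : A ≤ A ⊔ Ideal.span {b}), add_comm]
  gcongr
  calc Module.length B ↥(Submodule.map (Submodule.mkQ A) (A ⊔ Ideal.span {b}))
      ≤ Module.length B ↥(Submodule.map (Submodule.mkQ c) (⊤ : Ideal B)) :=
        length_transfer b h (by rw [Ideal.mul_top])
    _ ≤ Module.length B (B ⧸ c) :=
        Module.length_le_of_injective (Submodule.subtype _) (Submodule.subtype_injective _)

theorem length_quot_add_one_le {A C : Ideal B} (h : A < C) :
    Module.length B (B ⧸ C) + 1 ≤ Module.length B (B ⧸ A) := by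
  rw [length_quot_eq_add h.le, add_comm]
  gcongr
  rw [Order.one_le_iff_ne_zero, ← pos_iff_ne_zero, Module.length_pos_iff]
  obtain ⟨c, hc, hcA⟩ := SetLike.exists_of_lt h
  refine ⟨⟨⟨Submodule.mkQ A c, ⟨c, hc, rfl⟩⟩, 0, ?_⟩⟩
  intro h0
  apply hcA
  have : Submodule.mkQ A c = 0 := congrArg Subtype.val h0
  rwa [Submodule.mkQ_apply, Submodule.Quotient.mk_eq_zero] at this

end LengthLemmas

section Chain

variable {R S : Type*} [CommRing R] [CommRing S] [IsNoetherianRing R] [Algebra R S]

/-- chain argument: `ℓ(S/(𝔞S + 𝔮S𝔠)) + ℓ(R/𝔮) ℓ(S/𝔠) ≤ ℓ(S/𝔮S) + ℓ(R/𝔞) ℓ(S/𝔠)` -/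
theorem chain_bound (q : Ideal R) (c : Ideal S) (a : Ideal R) (ha : a ≤ q) :
    Module.length S (S ⧸ (a.map (algebraMap R S) ⊔ q.map (algebraMap R S) * c)) +
        Module.length R (R ⧸ q) * Module.length S (S ⧸ c) ≤
      Module.length S (S ⧸ q.map (algebraMap R S)) +
        Module.length R (R ⧸ a) * Module.length S (S ⧸ c) := by
  induction a using WellFoundedGT.induction with
  | ind a ih =>
    by_cases haq : a = q
    · subst haq
      have : a.map (algebraMap R S) ⊔ a.map (algebraMap R S) * c = a.map (algebraMap R S) :=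
        sup_eq_left.2 Ideal.mul_le_left
      rw [this]
    · have hlt : a < q := lt_of_le_of_ne ha haq
      obtain ⟨b, hbq, hba⟩ := SetLike.exists_of_lt hlt
      have hlt' : a < a ⊔ Ideal.span {b} := by
        apply lt_of_le_of_ne le_sup_left
        intro h
        apply hba
        rw [h]
        exact Ideal.mem_sup_right (Ideal.mem_span_singleton_self b)
      have hle' : a ⊔ Ideal.span {b} ≤ q :=
        sup_le ha ((Ideal.span_singleton_le_iff_mem _).2 hbq)
      have ih' := ih _ hlt' hle'
      have hcyc := length_quot_le_add_cyclic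
        (A := a.map (algebraMap R S) ⊔ q.map (algebraMap R S) * c) (c := c)
        (algebraMap R S b) (fun z hz => Ideal.mem_sup_right
          (Ideal.mul_mem_mul (Ideal.mem_map_of_mem _ hbq) hz))
      have hmap : a.map (algebraMap R S) ⊔ q.map (algebraMap R S) * c ⊔
          Ideal.span {algebraMap R S b} =
          (a ⊔ Ideal.span {b}).map (algebraMap R S) ⊔ q.map (algebraMap R S) * c := by
        rw [Ideal.map_sup, Ideal.map_span, Set.image_singleton]
        ac_rfl
      rw [hmap] at hcyc
      have hstrict := length_quot_add_one_le hlt'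
      calc Module.length S (S ⧸ (a.map (algebraMap R S) ⊔ q.map (algebraMap R S) * c)) +
            Module.length R (R ⧸ q) * Module.length S (S ⧸ c)
          ≤ (Module.length S (S ⧸ ((a ⊔ Ideal.span {b}).map (algebraMap R S) ⊔
              q.map (algebraMap R S) * c)) + Module.length S (S ⧸ c)) +
              Module.length R (R ⧸ q) * Module.length S (S ⧸ c) := by gcongr
        _ = (Module.length S (S ⧸ ((a ⊔ Ideal.span {b}).map (algebraMap R S) ⊔
              q.map (algebraMap R S) * c)) +
              Module.length R (R ⧸ q) * Module.length S (S ⧸ c)) + Module.length S (S ⧸ c) := by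
            ring
        _ ≤ (Module.length S (S ⧸ q.map (algebraMap R S)) +
              Module.length R (R ⧸ (a ⊔ Ideal.span {b})) * Module.length S (S ⧸ c)) +
              Module.length S (S ⧸ c) := by gcongr
        _ = Module.length S (S ⧸ q.map (algebraMap R S)) +
              (Module.length R (R ⧸ (a ⊔ Ideal.span {b})) + 1) * Module.length S (S ⧸ c) := by
            ring
        _ ≤ Module.length S (S ⧸ q.map (algebraMap R S)) +
              Module.length R (R ⧸ a) * Module.length S (S ⧸ c) := by gcongr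

end Chain

end Vale.Agent.P202

namespace Vale.Agent.P202

open IsLocalRing

theorem pow_succ_le_of_principal {B : Type*} [CommRing B] (I n : Ideal B) (x : B)
    (hn : n = I ⊔ Ideal.span {x}) (j : ℕ) :
    n ^ (j + 1) ≤ I ^ (j + 1) ⊔ Ideal.span {x} * n ^ j := by
  have hIn : I ≤ n := hn ▸ le_sup_left
  induction j with
  | zero => simp [hn]
  | succ j ih =>
    have h1 : I * n ^ (j + 1) ≤ I ^ (j + 1 + 1) ⊔ Ideal.span {x} * n ^ (j + 1) := by
      calc I * n ^ (j + 1) ≤ I * (I ^ (j + 1) ⊔ Ideal.span {x} * n ^ j) := Ideal.mul_mono_right ih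
        _ = I ^ (j + 1 + 1) ⊔ Ideal.span {x} * (I * n ^ j) := by
            rw [Ideal.mul_sup, ← pow_succ', ← mul_assoc, ← mul_assoc, mul_comm I]
        _ ≤ I ^ (j + 1 + 1) ⊔ Ideal.span {x} * n ^ (j + 1) := by
            apply sup_le_sup_left
            apply Ideal.mul_mono_right
            rw [pow_succ']
            exact Ideal.mul_mono_left hIn
    calc n ^ (j + 1 + 1) = n * n ^ (j + 1) := pow_succ' _ _
      _ = I * n ^ (j + 1) ⊔ Ideal.span {x} * n ^ (j + 1) := by
          conv_lhs => rw [hn]
          rw [Ideal.sup_mul, ← hn]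
      _ ≤ I ^ (j + 1 + 1) ⊔ Ideal.span {x} * n ^ (j + 1) := sup_le h1 le_sup_right

section PrincipalCase

variable {R S : Type*} [CommRing R] [CommRing S] [IsLocalRing R] [IsLocalRing S]
  [IsNoetherianRing R] [IsNoetherianRing S]
  [Algebra R S] [IsLocalHom (algebraMap R S)] [Module.Flat R S]

theorem principal_arith (lam c0 L0 L1 D0 D1 P u v : ℕ) (F1 : L1 * lam = u + D1) (F2 : P = v + D0)
    (F3 : u ≤ v) (F4 : P + L0 * c0 ≤ L0 * lam + L1 * c0) (F5 : c0 + 1 ≤ lam) (F7 : L0 ≤ L1) :
    D0 + L1 ≤ D1 + L0 := by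
  zify at *
  nlinarith [mul_nonneg (sub_nonneg.2 F7) (sub_nonneg.2 F5)]

theorem principal_step (x σ : S)
    (hn : maximalIdeal S = (maximalIdeal R).map (algebraMap R S) ⊔ Ideal.span {x})
    (hσ : σ ∉ (maximalIdeal R).map (algebraMap R S))
    (hxσ : x * σ ∈ (maximalIdeal R).map (algebraMap R S))
    (t : ℕ) (ht : maximalIdeal S ^ t ≤ (maximalIdeal R).map (algebraMap R S)) (j : ℕ) :
    (Module.length S (S ⧸ maximalIdeal S ^ j)).toNat +
        (Module.length R (R ⧸ maximalIdeal R ^ (j + 1))).toNat ≤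
      (Module.length S (S ⧸ maximalIdeal S ^ (j + 1))).toNat +
        (Module.length R (R ⧸ maximalIdeal R ^ j)).toNat := by
  set I := (maximalIdeal R).map (algebraMap R S) with hI
  set n := maximalIdeal S with hndef
  have hIn : I ≤ n := map_maximalIdeal_le (algebraMap R S)
  set c : Ideal S := I ⊔ Ideal.span {σ} with hc
  set Z : Ideal S := I ^ j * c with hZ
  have hIc : I < c := by
    apply lt_of_le_of_ne le_sup_left
    intro h
    apply hσ
    rw [h]
    exact Ideal.mem_sup_right (Ideal.mem_span_singleton_self σ)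
  have hxc : Ideal.span {x} * c ≤ I := by
    rw [hc, Ideal.mul_sup]
    apply sup_le Ideal.mul_le_right
    rw [Ideal.span_singleton_mul_span_singleton, Ideal.span_singleton_le_iff_mem]
    exact hxσ
  have hIZ : I ^ (j + 1) ≤ Z := by
    rw [pow_succ]
    exact Ideal.mul_mono_right hIc.le
  have hZn : Z ≤ n ^ j := Ideal.mul_le_left.trans (Ideal.pow_right_mono hIn j)
  have hpow : ∀ k, n ^ (t * k) ≤ I ^ k := fun k => by
    rw [pow_mul]
    exact Ideal.pow_right_mono ht k
  -- the facts
  have F1 := length_quot_eq_add (Ideal.pow_right_mono hIn (j + 1))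
  have F2 := length_quot_eq_add hZn
  have F3 : Module.length S ↥(Submodule.map (Submodule.mkQ (I ^ (j + 1))) (n ^ (j + 1))) ≤
      Module.length S ↥(Submodule.map (Submodule.mkQ Z) (n ^ j)) := by
    apply length_transfer x
    · intro z hz
      have h1 : x * z ∈ Ideal.span {x} * Z :=
        Ideal.mul_mem_mul (Ideal.mem_span_singleton_self x) hz
      have h2 : Ideal.span {x} * Z ≤ I ^ (j + 1) := by
        rw [hZ, ← mul_assoc, mul_comm (Ideal.span {x}), mul_assoc, pow_succ]
        exact Ideal.mul_mono_right hxc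
      exact h2 h1
    · exact pow_succ_le_of_principal I n x hn j
  have F4 := chain_bound (S := S) (maximalIdeal R ^ j) c (maximalIdeal R ^ (j + 1))
    (Ideal.pow_le_pow_right (Nat.le_succ j))
  have hsup : (maximalIdeal R ^ (j + 1)).map (algebraMap R S) ⊔
      (maximalIdeal R ^ j).map (algebraMap R S) * c = Z := by
    rw [Ideal.map_pow, Ideal.map_pow]
    exact sup_eq_right.2 hIZ
  rw [hsup] at F4
  have F5 := length_quot_add_one_le hIc
  have F6 : ∀ k, Module.length S (S ⧸ I ^ k) =
      Module.length R (R ⧸ maximalIdeal R ^ k) * Module.length S (S ⧸ I) := fun k => by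
    rw [hI, ← Ideal.map_pow, length_quotient_map]
  have F7 : Module.length R (R ⧸ maximalIdeal R ^ j) ≤
      Module.length R (R ⧸ maximalIdeal R ^ (j + 1)) :=
    length_quotient_mono (Ideal.pow_le_pow_right (Nat.le_succ j))
  rw [F6] at F1
  rw [Ideal.map_pow, F6] at F4
  -- finiteness
  have f1 : Module.length S (S ⧸ I) ≠ ⊤ := length_quotient_ne_top _ t ht
  have f2 : Module.length S (S ⧸ c) ≠ ⊤ := length_quotient_ne_top _ t (ht.trans hIc.le)
  have f3 : Module.length R (R ⧸ maximalIdeal R ^ j) ≠ ⊤ := length_quotient_ne_top _ j le_rfl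
  have f4 : Module.length R (R ⧸ maximalIdeal R ^ (j + 1)) ≠ ⊤ :=
    length_quotient_ne_top _ (j + 1) le_rfl
  have f5 : Module.length S (S ⧸ n ^ j) ≠ ⊤ := length_quotient_ne_top _ j le_rfl
  have f6 : Module.length S (S ⧸ n ^ (j + 1)) ≠ ⊤ := length_quotient_ne_top _ (j + 1) le_rfl
  have f7 : Module.length S (S ⧸ Z) ≠ ⊤ :=
    length_quotient_ne_top _ (t * (j + 1)) ((hpow (j + 1)).trans hIZ)
  have f8 : Module.length S ↥(Submodule.map (Submodule.mkQ Z) (n ^ j)) ≠ ⊤ := by
    intro h
    rw [h, top_add] at F2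
    exact f7 F2
  have f9 : Module.length S ↥(Submodule.map (Submodule.mkQ (I ^ (j + 1))) (n ^ (j + 1))) ≠ ⊤ :=
    ne_top_of_le_ne_top f8 F3
  lift Module.length S (S ⧸ I) to ℕ using f1 with lam
  lift Module.length S (S ⧸ c) to ℕ using f2 with c0
  lift Module.length R (R ⧸ maximalIdeal R ^ j) to ℕ using f3 with L0
  lift Module.length R (R ⧸ maximalIdeal R ^ (j + 1)) to ℕ using f4 with L1
  lift Module.length S (S ⧸ n ^ j) to ℕ using f5 with D0
  lift Module.length S (S ⧸ n ^ (j + 1)) to ℕ using f6 with D1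
  lift Module.length S (S ⧸ Z) to ℕ using f7 with P
  lift Module.length S ↥(Submodule.map (Submodule.mkQ Z) (n ^ j)) to ℕ using f8 with v
  lift Module.length S ↥(Submodule.map (Submodule.mkQ (I ^ (j + 1))) (n ^ (j + 1))) to ℕ
    using f9 with u
  simp only [ENat.toNat_natCast]
  norm_cast at F1 F2 F3 F4 F5 F7
  exact principal_arith lam c0 L0 L1 D0 D1 P u v F1 F2 F3 F4 F5 F7

/-- **Principal fibres** (Lech's hypersurface case, Artinian fibre): the Hilbert-Samuel function
of `S` dominates that of `R`. -/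
theorem hs_principal (x : S)
    (hn : maximalIdeal S = (maximalIdeal R).map (algebraMap R S) ⊔ Ideal.span {x})
    (t : ℕ) (ht : maximalIdeal S ^ t ≤ (maximalIdeal R).map (algebraMap R S)) (N : ℕ) :
    (Module.length R (R ⧸ maximalIdeal R ^ N)).toNat ≤
      (Module.length S (S ⧸ maximalIdeal S ^ N)).toNat := by
  classical
  have hx : x ∈ maximalIdeal S := by
    rw [hn]
    exact Ideal.mem_sup_right (Ideal.mem_span_singleton_self x)
  have hex : ∃ k, x ^ k ∈ (maximalIdeal R).map (algebraMap R S) :=
    ⟨t, ht (Ideal.pow_mem_pow hx t)⟩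
  have h0 : Nat.find hex ≠ 0 := by
    intro h
    have h1 := Nat.find_spec hex
    rw [h, pow_zero] at h1
    exact (map_maximalIdeal_lt_top (algebraMap R S)).ne ((Ideal.eq_top_iff_one _).2 h1)
  obtain ⟨k, hk⟩ := Nat.exists_eq_succ_of_ne_zero h0
  have hσ : x ^ k ∉ (maximalIdeal R).map (algebraMap R S) :=
    Nat.find_min hex (by omega)
  have hxσ : x * x ^ k ∈ (maximalIdeal R).map (algebraMap R S) := by
    have h1 := Nat.find_spec hex
    rw [hk, Nat.succ_eq_add_one, pow_succ'] at h1
    exact h1
  induction N with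
  | zero =>
    have : Subsingleton (R ⧸ maximalIdeal R ^ 0) := by
      rw [pow_zero, Ideal.one_eq_top]
      exact Ideal.Quotient.subsingleton_iff.2 rfl
    simp [Module.length_eq_zero]
  | succ j ih =>
    have := principal_step x (x ^ k) hn hσ hxσ t ht j
    omega

end PrincipalCase

end Vale.Agent.P202
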