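import Vale.Agent.Lib.P202.Main
import Vale.Agent.Lib.P202.Principal

/-!
# P202 (Lech's conjecture): combination of the principal and the non-principal case
-/

namespace Vale.Agent.P202

set_option linter.unusedSectionVars false

open IsLocalRing Filter Topology

variable {R S : Type*} [CommRing R] [CommRing S] [IsLocalRing R] [IsLocalRing S]
  [IsNoetherianRing R] [IsNoetherianRing S]
  [Algebra R S] [IsLocalHom (algebraMap R S)] [Module.Flat R S]

/-- Lech's inequality for Artinian closed fibres with principal maximal ideal. -/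
theorem lech_principal (x : S)
    (hn : maximalIdeal S = (maximalIdeal R).map (algebraMap R S) ⊔ Ideal.span {x})
    (t : ℕ) (ht : maximalIdeal S ^ t ≤ (maximalIdeal R).map (algebraMap R S)) (eR eS : ℝ)
    (hR : IsHSMultiplicity R eR) (hS : IsHSMultiplicity S eS) : eR ≤ eS := by
  obtain ⟨d1, hd1, hR⟩ := hR
  obtain ⟨d2, hd2, hS⟩ := hS
  have hdim := ringKrullDim_eq_of_pow_le (R := R) (S := S) t ht
  have e2 : d2 = d1 := by
    have : ((d2 : ℕ∞) : WithBot ℕ∞) = ((d1 : ℕ∞) : WithBot ℕ∞) := by
      have := hd2.symm.trans (hdim.trans hd1)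
      exact_mod_cast this
    exact_mod_cast this
  rw [e2] at hS
  have := limit_compare' d1 _ _ 1 (fun j => by simpa using hs_principal x hn t ht j) eS eR hS hR
  simpa using this

/-- **Theorem F.** -/
theorem lech_of_pow_le (t : ℕ) (ht1 : 1 ≤ t)
    (ht : maximalIdeal S ^ (t + 1) ≤ (maximalIdeal R).map (algebraMap R S))
    (d : ℕ) (hd : ringKrullDim R = d)
    (hlen : t ^ d ≤ (Module.length S (S ⧸ (maximalIdeal R).map (algebraMap R S))).toNat)
    (eR eS : ℝ) (hR : IsHSMultiplicity R eR) (hS : IsHSMultiplicity S eS) : eR ≤ eS := by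
  by_cases hp : ∃ x : S, maximalIdeal S = (maximalIdeal R).map (algebraMap R S) ⊔ Ideal.span {x}
  · obtain ⟨x, hx⟩ := hp
    exact lech_principal x hx (t + 1) ht eR eS hR hS
  · simp only [not_exists] at hp
    have h1 := lech_fibre_bound hp t ht1 ht d hd eR eS hR hS
    have h3 : ((t : ℝ)) ^ d ≤
        ((Module.length S (S ⧸ (maximalIdeal R).map (algebraMap R S))).toNat : ℝ) := by
      exact_mod_cast hlen
    have h4 : (0 : ℝ) < (t : ℝ) ^ d := by positivity
    have h5 := hR.nonneg
    have h7 : (t : ℝ) ^ d * eR ≤ (t : ℝ) ^ d * eS :=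
      (mul_le_mul_of_nonneg_right h3 h5).trans h1
    exact le_of_mul_le_mul_left h7 h4

/-- If the closed fibre has length at most three, then its maximal ideal is principal or
square-zero. -/
theorem sq_le_of_length_le_three
    (h3 : Module.length S (S ⧸ (maximalIdeal R).map (algebraMap R S)) ≤ 3)
    (hnp : ∀ x : S, maximalIdeal S ≠ (maximalIdeal R).map (algebraMap R S) ⊔ Ideal.span {x}) :
    maximalIdeal S ^ 2 ≤ (maximalIdeal R).map (algebraMap R S) := by
  set I := (maximalIdeal R).map (algebraMap R S) with hI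
  set n := maximalIdeal S with hn
  have hIn : I ≤ n := map_maximalIdeal_le (algebraMap R S)
  have hfg : n.FG := IsNoetherian.noetherian n
  have hjac : n ≤ Ideal.jacobson ⊥ := by
    rw [IsLocalRing.jacobson_eq_maximalIdeal ⊥ bot_ne_top]
  have nak : ∀ K : Ideal S, n ≤ K ⊔ n ^ 2 → n ≤ K := by
    intro K hK
    apply Submodule.le_of_le_smul_of_le_jacobson_bot hfg hjac
    rw [smul_eq_mul, ← pow_two]
    exact hK
  by_contra hsq
  have h1 : I < I ⊔ n ^ 2 := by
    apply lt_of_le_of_ne le_sup_left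
    intro h
    apply hsq
    rw [h]
    exact le_sup_right
  have hJn : I ⊔ n ^ 2 ≤ n := sup_le hIn (Ideal.pow_le_self two_ne_zero)
  have h2 : I ⊔ n ^ 2 < n := by
    apply lt_of_le_of_ne hJn
    intro h
    apply hnp 0
    have : n ≤ I := nak I h.ge
    simpa using le_antisymm this hIn
  obtain ⟨x, hxn, hxJ⟩ := SetLike.exists_of_lt h2
  have h3' : I ⊔ n ^ 2 < I ⊔ n ^ 2 ⊔ Ideal.span {x} := by
    apply lt_of_le_of_ne le_sup_left
    intro h
    apply hxJ
    rw [h]
    exact Ideal.mem_sup_right (Ideal.mem_span_singleton_self x)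
  have hJ'n : I ⊔ n ^ 2 ⊔ Ideal.span {x} ≤ n :=
    sup_le hJn ((Ideal.span_singleton_le_iff_mem _).2 hxn)
  have h4 : I ⊔ n ^ 2 ⊔ Ideal.span {x} < n := by
    apply lt_of_le_of_ne hJ'n
    intro h
    apply hnp x
    have h5 : n ≤ (I ⊔ Ideal.span {x}) ⊔ n ^ 2 := by
      rw [sup_right_comm]
      exact h.ge
    exact le_antisymm (nak _ h5) (sup_le hIn ((Ideal.span_singleton_le_iff_mem _).2 hxn))
  have h5 : n < ⊤ := (maximalIdeal.isMaximal S).lt_top
  have l1 := length_quot_add_one_le h1
  have l2 := length_quot_add_one_le h3'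
  have l3 := length_quot_add_one_le h4
  have l4 := length_quot_add_one_le h5
  have : (4 : ℕ∞) ≤ Module.length S (S ⧸ I) := by
    calc (4 : ℕ∞) ≤ Module.length S (S ⧸ (⊤ : Ideal S)) + 1 + 1 + 1 + 1 := by
          have : (4 : ℕ∞) = 0 + 1 + 1 + 1 + 1 := by norm_num
          rw [this]
          gcongr
          exact zero_le
      _ ≤ Module.length S (S ⧸ n) + 1 + 1 + 1 := by gcongr
      _ ≤ Module.length S (S ⧸ (I ⊔ n ^ 2 ⊔ Ideal.span {x})) + 1 + 1 := by gcongr
      _ ≤ Module.length S (S ⧸ (I ⊔ n ^ 2)) + 1 := by gcongr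
      _ ≤ Module.length S (S ⧸ I) := l1
  have h43 : (4 : ℕ∞) ≤ 3 := this.trans h3
  exact absurd h43 (by decide)

theorem exists_pow_le_of_length_ne_top
    (h : Module.length S (S ⧸ (maximalIdeal R).map (algebraMap R S)) ≠ ⊤) :
    ∃ t, maximalIdeal S ^ t ≤ (maximalIdeal R).map (algebraMap R S) := by
  rw [Module.length_ne_top_iff, isFiniteLength_iff_isNoetherian_isArtinian] at h
  have : IsArtinianRing (S ⧸ (maximalIdeal R).map (algebraMap R S)) :=
    isArtinian_of_tower S h.2
  exact exists_maximalIdeal_pow_le_of_isArtinianRing_quotient _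

/-- Lech's inequality when the closed fibre has length at most three. -/
theorem lech_of_length_le_three
    (h3 : Module.length S (S ⧸ (maximalIdeal R).map (algebraMap R S)) ≤ 3)
    (eR eS : ℝ) (hR : IsHSMultiplicity R eR) (hS : IsHSMultiplicity S eS) : eR ≤ eS := by
  obtain ⟨t, ht⟩ := exists_pow_le_of_length_ne_top (R := R) (S := S)
    (ne_top_of_le_ne_top (by decide) h3)
  by_cases hp : ∃ x : S, maximalIdeal S = (maximalIdeal R).map (algebraMap R S) ⊔ Ideal.span {x}
  · obtain ⟨x, hx⟩ := hp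
    exact lech_principal x hx t ht eR eS hR hS
  · simp only [not_exists] at hp
    have hsq := sq_le_of_length_le_three h3 hp
    obtain ⟨d, hd, -⟩ := id hR
    exact lech_of_pow_le 1 le_rfl hsq d hd
      (by simpa using one_le_length_fibre (R := R) (S := S) 2 hsq) eR eS hR hS

end Vale.Agent.P202
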