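import Mathlib

/-!
# P202 (Lech's conjecture): algebraic core

Flat local homomorphisms `R → S` whose closed fibre has embedding dimension at least two.
-/

namespace Vale.Agent.P202

open IsLocalRing

section MinGen

variable (R : Type*) [CommRing R] [IsLocalRing R] [IsNoetherianRing R]

/-- A minimal generating family of the maximal ideal: every linear relation has
coefficients in the maximal ideal. -/
theorem exists_minimal_generators :
    ∃ (s : ℕ) (a : Fin s → R), Ideal.span (Set.range a) = maximalIdeal R ∧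
      ∀ c : Fin s → R, ∑ i, a i * c i = 0 → ∀ i, c i ∈ maximalIdeal R := by
  classical
  have hex : ∃ s : ℕ, ∃ a : Fin s → R, Ideal.span (Set.range a) = maximalIdeal R := by
    have hfg : (maximalIdeal R).FG := IsNoetherian.noetherian _
    obtain ⟨n, a, ha⟩ := Submodule.fg_iff_exists_fin_generating_family.mp hfg
    exact ⟨n, a, ha⟩
  obtain ⟨a, ha⟩ := Nat.find_spec hex
  refine ⟨Nat.find hex, a, ha, ?_⟩
  intro c hc i
  by_contra hi
  have hu : IsUnit (c i) := by
    by_contra h
    exact hi ((mem_maximalIdeal _).2 h)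
  obtain ⟨u, hu⟩ := hu
  -- the index type is nonempty so `Nat.find hex = k + 1`
  obtain ⟨k, hk⟩ : ∃ k, Nat.find hex = k + 1 := by
    have : 0 < Nat.find hex := Fin.pos i
    exact ⟨Nat.find hex - 1, by omega⟩
  have hmin : ¬ ∃ b : Fin k → R, Ideal.span (Set.range b) = maximalIdeal R :=
    Nat.find_min hex (by omega)
  apply hmin
  generalize Nat.find hex = s at *
  subst hk
  refine ⟨fun j => a (i.succAbove j), ?_⟩
  apply le_antisymm
  · rw [← ha]
    apply Ideal.span_mono
    rintro _ ⟨j, rfl⟩
    exact ⟨_, rfl⟩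
  · rw [← ha, Ideal.span_le]
    rintro _ ⟨j, rfl⟩
    rcases Fin.eq_self_or_eq_succAbove i j with h | ⟨j', h⟩
    · subst h
      -- a j * c j = - ∑ others
      rw [Fin.sum_univ_succAbove _ j] at hc
      have h1 : a j = - (∑ l, a (j.succAbove l) * c (j.succAbove l)) * (↑u⁻¹ : R) := by
        have h2 : a j * c j = - (∑ l, a (j.succAbove l) * c (j.succAbove l)) := by
          linear_combination hc
        rw [← h2, ← hu, mul_assoc, Units.mul_inv, mul_one]
      rw [h1]
      apply Ideal.mul_mem_right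
      apply Ideal.neg_mem_iff _ |>.2
      apply Ideal.sum_mem
      intro l _
      apply Ideal.mul_mem_right
      exact Ideal.subset_span ⟨l, rfl⟩
    · rw [h]
      exact Ideal.subset_span ⟨j', rfl⟩

end MinGen

section Flat

variable {R S : Type*} [CommRing R] [CommRing S] [IsLocalRing R] [Algebra R S] [Module.Flat R S]

/-- Relations over a flat algebra between minimal generators have coefficients in `𝔪 S`. -/
theorem coeff_mem_map_of_relation {s : ℕ} {a : Fin s → R}
    (hmin : ∀ c : Fin s → R, ∑ i, a i * c i = 0 → ∀ i, c i ∈ maximalIdeal R)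
    (x : Fin s → S) (hx : ∑ i, algebraMap R S (a i) * x i = 0) (i : Fin s) :
    x i ∈ (maximalIdeal R).map (algebraMap R S) := by
  have hx' : ∑ i, a i • x i = 0 := by simpa [Algebra.smul_def] using hx
  obtain ⟨k, c, y, h1, h2⟩ :=
    Module.Flat.isTrivialRelation_of_sum_smul_eq_zero (R := R) (M := S) (f := a) (x := x) hx'
  rw [h1 i]
  apply Ideal.sum_mem
  intro j _
  rw [Algebra.smul_def]
  apply Ideal.mul_mem_right
  apply Ideal.mem_map_of_mem
  exact hmin (fun i => c i j) (h2 j) i

end Flat

section KeyAux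

variable {S : Type*} [CommRing S]

theorem key_aux_unit (I : Ideal S) {s : ℕ} (b : Fin s → S)
    (hrel : ∀ x : Fin s → S, ∑ i, b i * x i = 0 → ∀ i, x i ∈ I)
    (u U w : S) (c c' : Fin s → S) (hc : ∑ i, c i * b i = u * U) (hc' : ∑ i, c' i * b i = w * U)
    (i : Fin s) (v : Sˣ) (hv : (v : S) = c i) : w ∈ I ⊔ Ideal.span {u} := by
  have hrel' : ∑ j, b j * (w * c j - u * c' j) = 0 := by
    have e1 : ∑ j, b j * (w * c j - u * c' j)
        = w * (∑ j, c j * b j) - u * (∑ j, c' j * b j) := by
      rw [Finset.mul_sum, Finset.mul_sum, ← Finset.sum_sub_distrib]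
      apply Finset.sum_congr rfl
      intro j _
      ring
    rw [e1, hc, hc']
    ring
  have h3 := hrel _ hrel' i
  have h5 : w * c i * (↑v⁻¹ : S) = w := by
    rw [← hv, mul_assoc, Units.mul_inv, mul_one]
  have h4 : w = (w * c i - u * c' i) * (↑v⁻¹ : S) + u * (c' i * (↑v⁻¹ : S)) := by
    linear_combination -h5
  rw [h4]
  apply Ideal.add_mem
  · exact Ideal.mem_sup_left (Ideal.mul_mem_right _ _ h3)
  · exact Ideal.mem_sup_right (Ideal.mul_mem_right _ _ (Ideal.mem_span_singleton_self u))

theorem key_aux [IsLocalRing S] (I : Ideal S) (hI : I ≤ maximalIdeal S) {s : ℕ} (b : Fin s → S)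
    (hb : I = Ideal.span (Set.range b))
    (hrel : ∀ x : Fin s → S, ∑ i, b i * x i = 0 → ∀ i, x i ∈ I)
    (hnp : ∀ x : S, maximalIdeal S ≠ I ⊔ Ideal.span {x})
    (J : Ideal S) (hJ : maximalIdeal S * J ≤ I) :
    maximalIdeal S * J ≤ I * maximalIdeal S := by
  rw [Ideal.mul_le]
  intro u hu U hU
  have h1 : u * U ∈ I := hJ (Ideal.mul_mem_mul hu hU)
  rw [hb, Ideal.mem_span_range_iff_exists_fun] at h1
  obtain ⟨c, hc⟩ := h1
  have hcn : ∀ i, c i ∈ maximalIdeal S := by
    intro i
    by_contra hi
    have hunit : IsUnit (c i) := by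
      by_contra h
      exact hi ((mem_maximalIdeal _).2 h)
    obtain ⟨v, hv⟩ := hunit
    apply hnp u
    apply le_antisymm
    · intro w hw
      have h2 : w * U ∈ I := hJ (Ideal.mul_mem_mul hw hU)
      rw [hb, Ideal.mem_span_range_iff_exists_fun] at h2
      obtain ⟨c', hc'⟩ := h2
      exact key_aux_unit I b hrel u U w c c' hc hc' i v hv
    · apply sup_le hI
      rw [Ideal.span_le]
      simpa using hu
  rw [← hc]
  refine Ideal.sum_mem _ (fun i _ => ?_)
  have hbi : b i ∈ I := by
    rw [hb]
    exact Ideal.subset_span ⟨i, rfl⟩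
  rw [mul_comm (c i)]
  exact Ideal.mul_mem_mul hbi (hcn i)

end KeyAux

section Key

variable {R S : Type*} [CommRing R] [CommRing S] [IsLocalRing R] [IsLocalRing S]
  [IsNoetherianRing R] [Algebra R S] [IsLocalHom (algebraMap R S)] [Module.Flat R S]

/-- **Key lemma.** If the closed fibre is not a hypersurface (its maximal ideal is not principal)
and `𝔫 J ⊆ 𝔪 S`, then `𝔫 J ⊆ 𝔪 𝔫`. -/
theorem key_lemma
    (hnp : ∀ x : S, maximalIdeal S ≠ (maximalIdeal R).map (algebraMap R S) ⊔ Ideal.span {x})
    (J : Ideal S) (hJ : maximalIdeal S * J ≤ (maximalIdeal R).map (algebraMap R S)) :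
    maximalIdeal S * J ≤ (maximalIdeal R).map (algebraMap R S) * maximalIdeal S := by
  obtain ⟨s, a, ha, hmin⟩ := exists_minimal_generators R
  have hmap : (maximalIdeal R).map (algebraMap R S) =
      Ideal.span (Set.range fun i => algebraMap R S (a i)) := by
    rw [← ha, Ideal.map_span, ← Set.range_comp]
    rfl
  exact key_aux _ (map_maximalIdeal_le (algebraMap R S)) (fun i => algebraMap R S (a i)) hmap
    (fun x hx i => coeff_mem_map_of_relation hmin x hx i) hnp J hJ

/-- If `𝔫 ^ t ⊆ 𝔪 S` with `t ≥ 1` and the closed fibre is not a hypersurface then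
`𝔫 ^ (j (t-1) + 1) ⊆ 𝔪 ^ j 𝔫` for all `j`. -/
theorem pow_le_map_pow_mul
    (hnp : ∀ x : S, maximalIdeal S ≠ (maximalIdeal R).map (algebraMap R S) ⊔ Ideal.span {x})
    (t : ℕ) (ht : maximalIdeal S ^ (t + 1) ≤ (maximalIdeal R).map (algebraMap R S)) (j : ℕ) :
    maximalIdeal S ^ (j * t + 1) ≤
      ((maximalIdeal R).map (algebraMap R S)) ^ j * maximalIdeal S := by
  induction j with
  | zero => simp
  | succ j ih =>
    have h1 : maximalIdeal S * maximalIdeal S ^ t ≤
        (maximalIdeal R).map (algebraMap R S) * maximalIdeal S := by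
      apply key_lemma hnp
      rw [← pow_succ']
      exact ht
    calc maximalIdeal S ^ ((j + 1) * t + 1)
        = maximalIdeal S ^ (j * t + 1) * maximalIdeal S ^ t := by
          rw [← pow_add]; congr 1; ring
      _ ≤ (((maximalIdeal R).map (algebraMap R S)) ^ j * maximalIdeal S) * maximalIdeal S ^ t :=
          Ideal.mul_mono_left ih
      _ = ((maximalIdeal R).map (algebraMap R S)) ^ j * (maximalIdeal S * maximalIdeal S ^ t) := by
          rw [mul_assoc]
      _ ≤ ((maximalIdeal R).map (algebraMap R S)) ^ j *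
            ((maximalIdeal R).map (algebraMap R S) * maximalIdeal S) :=
          Ideal.mul_mono_right h1
      _ = ((maximalIdeal R).map (algebraMap R S)) ^ (j + 1) * maximalIdeal S := by
          rw [pow_succ, mul_assoc]

end Key

end Vale.Agent.P202
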