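import Mathlib

/-!
# P202 (Lech's conjecture): the Hilbert-Samuel multiplicity
-/

namespace Vale.Agent.P202

open IsLocalRing Filter Topology

/-- `IsHSMultiplicity A e` says that the real number `e` is the Hilbert-Samuel multiplicity of the
local ring `A`: if `d` is the Krull dimension of `A`, then
`d! * length_A (A / 𝔪 ^ N) / N ^ d` tends to `e` as `N → ∞`. -/
def IsHSMultiplicity (A : Type*) [CommRing A] [IsLocalRing A] (e : ℝ) : Prop :=
  ∃ d : ℕ, ringKrullDim A = d ∧
    Tendsto (fun N : ℕ => (d.factorial : ℝ) *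
      ((Module.length A (A ⧸ maximalIdeal A ^ N)).toNat : ℝ) / (N : ℝ) ^ d) atTop (𝓝 e)

end Vale.Agent.P202
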