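import Vale.Agent.Lib.P202.Principal

/-!
# P202: raising the weight of an element in a filtration by ideals
-/

namespace Vale.Agent.P202

variable {S : Type*} [CommRing S]

/-- give the element `c` the weight `w` : `(raise G c w) M = ∑_j c ^ j G (M - w j)`
(truncated subtraction; `G 0 = ⊤`). -/
def raise (G : ℕ → Ideal S) (c : S) (w : ℕ) : ℕ → Ideal S :=
  fun M => ⨆ j : ℕ, Ideal.span {c} ^ j * G (M - w * j)

theorem raise_zero {G : ℕ → Ideal S} (h0 : G 0 = ⊤) (c : S) (w : ℕ) : raise G c w 0 = ⊤ := by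
  rw [eq_top_iff]
  refine le_trans ?_ (le_iSup (fun j : ℕ => Ideal.span {c} ^ j * G (0 - w * j)) 0)
  simp [h0]

theorem raise_antitone {G : ℕ → Ideal S} (hG : Antitone G) (c : S) (w : ℕ) :
    Antitone (raise G c w) := by
  intro M M' h
  exact iSup_mono fun j => Ideal.mul_mono_right (hG (Nat.sub_le_sub_right h _))

theorem le_raise (G : ℕ → Ideal S) (c : S) (w : ℕ) (M : ℕ) : G M ≤ raise G c w M := by
  refine le_trans ?_ (le_iSup (fun j : ℕ => Ideal.span {c} ^ j * G (M - w * j)) 0)
  simp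

theorem mul_raise_le {G : ℕ → Ideal S} (hG : Antitone G) (c : S) (w : ℕ) (J : Ideal S) (e : ℕ)
    (h : ∀ M, J * G M ≤ G (M + e)) (M : ℕ) : J * raise G c w M ≤ raise G c w (M + e) := by
  unfold raise
  rw [Ideal.mul_iSup]
  refine iSup_mono fun j => ?_
  calc J * (Ideal.span {c} ^ j * G (M - w * j))
      = Ideal.span {c} ^ j * (J * G (M - w * j)) := by
        rw [← mul_assoc, mul_comm J, mul_assoc]
    _ ≤ Ideal.span {c} ^ j * G (M - w * j + e) := Ideal.mul_mono_right (h _)
    _ ≤ Ideal.span {c} ^ j * G (M + e - w * j) := Ideal.mul_mono_right (hG (by omega))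

theorem span_mul_raise_le (G : ℕ → Ideal S) (c : S) (w : ℕ) (M : ℕ) :
    Ideal.span {c} * raise G c w M ≤ raise G c w (M + w) := by
  unfold raise
  rw [Ideal.mul_iSup]
  refine iSup_le fun j => ?_
  refine le_trans ?_ (le_iSup (fun j : ℕ => Ideal.span {c} ^ j * G (M + w - w * j)) (j + 1))
  have e1 : M + w - w * (j + 1) = M - w * j := by
    rw [Nat.mul_succ]
    omega
  rw [e1, ← mul_assoc, ← pow_succ']

theorem raise_succ_le (G : ℕ → Ideal S) (c : S) (w : ℕ) (M : ℕ) :
    raise G c w M ≤ G M ⊔ Ideal.span {c} * raise G c w (M - w) := by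
  refine iSup_le fun k => ?_
  cases k with
  | zero =>
    refine le_trans ?_ le_sup_left
    simp
  | succ k =>
    refine le_trans ?_ le_sup_right
    have e1 : M - w * (k + 1) = M - w - w * k := by
      rw [Nat.mul_succ]
      omega
    rw [e1, pow_succ', mul_assoc]
    exact Ideal.mul_mono_right (le_iSup (fun j : ℕ => Ideal.span {c} ^ j * G (M - w - w * j)) k)

theorem raise_length_step {I : Ideal S} {G : ℕ → Ideal S} (hG : Antitone G)
    (hI : ∀ M, I * G M ≤ G (M + 1)) {c : S} (hc : c ∈ I) {w : ℕ} (hw : 1 ≤ w) (j : ℕ) :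
    Module.length S (S ⧸ G (j + 1)) + Module.length S (S ⧸ raise G c w (j + 1 - w)) ≤
      Module.length S (S ⧸ G j) + Module.length S (S ⧸ raise G c w (j + 1)) := by
  have hA : G (j + 1) ≤ raise G c w (j + 1) := le_raise G c w _
  have hA' : G j ≤ raise G c w (j + 1 - w) :=
    (hG (by omega : j + 1 - w ≤ j)).trans (le_raise G c w _)
  have ht : Module.length S ↥(Submodule.map (Submodule.mkQ (G (j + 1))) (raise G c w (j + 1))) ≤
      Module.length S ↥(Submodule.map (Submodule.mkQ (G j)) (raise G c w (j + 1 - w))) := by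
    apply length_transfer c
    · intro z hz
      exact hI j (Ideal.mul_mem_mul hc hz)
    · exact raise_succ_le G c w (j + 1)
  rw [length_quot_eq_add hA, length_quot_eq_add hA']
  calc Module.length S ↥(Submodule.map (Submodule.mkQ (G (j + 1))) (raise G c w (j + 1))) +
        Module.length S (S ⧸ raise G c w (j + 1)) + Module.length S (S ⧸ raise G c w (j + 1 - w))
      ≤ Module.length S ↥(Submodule.map (Submodule.mkQ (G j)) (raise G c w (j + 1 - w))) +
        Module.length S (S ⧸ raise G c w (j + 1)) +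
          Module.length S (S ⧸ raise G c w (j + 1 - w)) := by gcongr
    _ = _ := by ring

theorem raise_length_sum {I : Ideal S} {G : ℕ → Ideal S} (h0 : G 0 = ⊤) (hG : Antitone G)
    (hI : ∀ M, I * G M ≤ G (M + 1)) {c : S} (hc : c ∈ I) {w : ℕ} (hw : 1 ≤ w)
    (hfin : ∀ M, Module.length S (S ⧸ raise G c w M) ≠ ⊤) (M : ℕ) :
    Module.length S (S ⧸ G M) ≤
      ∑ e ∈ Finset.range w, Module.length S (S ⧸ raise G c w (M - e)) := by
  induction M with
  | zero =>
    have : Subsingleton (S ⧸ G 0) := by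
      rw [h0]
      exact Ideal.Quotient.subsingleton_iff.2 rfl
    rw [Module.length_eq_zero]
    exact zero_le
  | succ j ih =>
    have h1 := raise_length_step hG hI hc hw j
    have h2 : ∀ gp : ℕ → ℕ∞, ∑ e ∈ Finset.range w, gp (j - e) + gp (j + 1) =
        ∑ e ∈ Finset.range w, gp (j + 1 - e) + gp (j + 1 - w) := by
      intro gp
      rw [← Finset.sum_range_succ (fun e => gp (j + 1 - e)) w,
        Finset.sum_range_succ' (fun e => gp (j + 1 - e)) w]
      have e1 : ∀ k, j + 1 - (k + 1) = j - k := fun k => by omega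
      simp only [e1, Nat.sub_zero]
    have h2 := h2 (fun M => Module.length S (S ⧸ raise G c w M))
    rw [← ENat.add_le_add_iff_right (hfin (j + 1 - w)), ← h2]
    exact h1.trans (by gcongr)

theorem raise_length_le {I : Ideal S} {G : ℕ → Ideal S} (h0 : G 0 = ⊤) (hG : Antitone G)
    (hI : ∀ M, I * G M ≤ G (M + 1)) {c : S} (hc : c ∈ I) {w : ℕ} (hw : 1 ≤ w)
    (hfin : ∀ M, Module.length S (S ⧸ raise G c w M) ≠ ⊤) (M : ℕ) :
    Module.length S (S ⧸ G M) ≤ (w : ℕ∞) * Module.length S (S ⧸ raise G c w M) := by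
  refine (raise_length_sum h0 hG hI hc hw hfin M).trans ?_
  have h := Finset.sum_le_card_nsmul (Finset.range w)
    (fun e => Module.length S (S ⧸ raise G c w (M - e)))
    (Module.length S (S ⧸ raise G c w M))
    (fun e _ => length_quotient_mono (raise_antitone hG c w (Nat.sub_le M e)))
  rwa [Finset.card_range, nsmul_eq_mul] at h

/-- **Subtask D.** Weighted filtration attached to elements `b i ∈ I` with weights `wt i ≥ 1`:
its colengths are at least `ℓ(S / I ^ M) / ∏ wt i`. -/
theorem exists_weighted_filtration (I : Ideal S)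
    (hfin : ∀ M, Module.length S (S ⧸ I ^ M) ≠ ⊤) (r : ℕ) (b : Fin r → S) (wt : Fin r → ℕ)
    (hwt : ∀ i, 1 ≤ wt i) (hb : ∀ i, b i ∈ I) :
    ∃ G : ℕ → Ideal S, G 0 = ⊤ ∧ Antitone G ∧ (∀ M, I ^ M ≤ G M) ∧
      (∀ M, I * G M ≤ G (M + 1)) ∧
      (∀ i M, Ideal.span {b i} * G M ≤ G (M + wt i)) ∧
      (∀ M, Module.length S (S ⧸ I ^ M) ≤
        ((∏ i, wt i : ℕ) : ℕ∞) * Module.length S (S ⧸ G M)) := by
  induction r with
  | zero =>
    refine ⟨fun M => I ^ M, by simp, fun M M' h => Ideal.pow_le_pow_right h, fun M => le_rfl,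
      fun M => (pow_succ' I M).ge, fun i => i.elim0, fun M => by simp⟩
  | succ r ih =>
    obtain ⟨G, h0, hG, hIG, hI, hbG, hlen⟩ := ih (fun i => b i.succ) (fun i => wt i.succ)
      (fun i => hwt i.succ) (fun i => hb i.succ)
    have hfin' : ∀ M, Module.length S (S ⧸ raise G (b 0) (wt 0) M) ≠ ⊤ := fun M =>
      ne_top_of_le_ne_top (hfin M) (length_quotient_mono ((hIG M).trans (le_raise G _ _ M)))
    refine ⟨raise G (b 0) (wt 0), raise_zero h0 _ _, raise_antitone hG _ _,
      fun M => (hIG M).trans (le_raise G _ _ M), mul_raise_le hG _ _ I 1 hI, ?_, ?_⟩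
    · intro i
      refine Fin.cases ?_ (fun i => ?_) i
      · exact span_mul_raise_le G _ _
      · exact mul_raise_le hG _ _ _ _ (hbG i)
    · intro M
      have h1 := raise_length_le h0 hG hI (hb 0) (hwt 0) hfin' M
      calc Module.length S (S ⧸ I ^ M)
          ≤ ((∏ i : Fin r, wt i.succ : ℕ) : ℕ∞) * Module.length S (S ⧸ G M) := hlen M
        _ ≤ ((∏ i : Fin r, wt i.succ : ℕ) : ℕ∞) *
            ((wt 0 : ℕ∞) * Module.length S (S ⧸ raise G (b 0) (wt 0) M)) := by gcongr
        _ = ((∏ i, wt i : ℕ) : ℕ∞) * Module.length S (S ⧸ raise G (b 0) (wt 0) M) := by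
            rw [Fin.prod_univ_succ, ← mul_assoc]
            push_cast
            ring

end Vale.Agent.P202
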