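import Vale.Agent.Lib.P202.Trunc
import Vale.Agent.Lib.P202.Combined

/-!
# P202: multiplicity bound for closed fibres that agree with a polynomial ring in low degrees
-/

namespace Vale.Agent.P202

set_option linter.unusedSectionVars false

open IsLocalRing Filter Topology MvPolynomial

theorem limit_compare_off (d t' off : ℕ) (ht' : 1 ≤ t') (LR LS : ℕ → ℕ) (lam : ℕ)
    (h : ∀ j, lam * LR j ≤ LS (j * t' + off)) (eR eS : ℝ)
    (hR : Tendsto (fun N : ℕ => (d.factorial : ℝ) * (LR N : ℝ) / (N : ℝ) ^ d) atTop (𝓝 eR))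
    (hS : Tendsto (fun N : ℕ => (d.factorial : ℝ) * (LS N : ℝ) / (N : ℝ) ^ d) atTop (𝓝 eS)) :
    (lam : ℝ) * eR ≤ (t' : ℝ) ^ d * eS := by
  have hsub : Tendsto (fun j : ℕ => j * t' + off) atTop atTop := by
    apply tendsto_atTop_mono (fun j => ?_) tendsto_id
    simp only [id]
    nlinarith
  have h1 := hS.comp hsub
  have h2 : Tendsto (fun j : ℕ => ((t' : ℝ) + (off : ℝ) * (1 / (j : ℝ))) ^ d) atTop
      (𝓝 ((t' : ℝ) ^ d)) := by
    have : Tendsto (fun j : ℕ => (t' : ℝ) + (off : ℝ) * (1 / (j : ℝ))) atTop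
        (𝓝 ((t' : ℝ) + (off : ℝ) * 0)) :=
      tendsto_const_nhds.add (tendsto_one_div_atTop_nhds_zero_nat.const_mul _)
    rw [mul_zero, add_zero] at this
    exact this.pow d
  have h3 := h2.mul h1
  have h4 : Tendsto (fun N : ℕ => (lam : ℝ) * ((d.factorial : ℝ) * (LR N : ℝ) / (N : ℝ) ^ d))
      atTop (𝓝 ((lam : ℝ) * eR)) := hR.const_mul _
  apply le_of_tendsto_of_tendsto h4 h3
  filter_upwards [eventually_gt_atTop 0] with j hj
  have hj' : (0 : ℝ) < (j : ℝ) := by exact_mod_cast hj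
  simp only [Function.comp]
  have e1 : ((t' : ℝ) + (off : ℝ) * (1 / (j : ℝ))) = ((j * t' + off : ℕ) : ℝ) / (j : ℝ) := by
    push_cast
    field_simp
  have hpos : (0 : ℝ) < ((j * t' + off : ℕ) : ℝ) := by
    have : 0 < j * t' + off := by positivity
    exact_mod_cast this
  rw [e1, div_pow]
  have e2 : ((j * t' + off : ℕ) : ℝ) ^ d / (j : ℝ) ^ d *
      ((d.factorial : ℝ) * (LS (j * t' + off) : ℝ) / ((j * t' + off : ℕ) : ℝ) ^ d)
      = (d.factorial : ℝ) * (LS (j * t' + off) : ℝ) / (j : ℝ) ^ d := by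
    field_simp
  rw [e2]
  have e3 : (lam : ℝ) * ((d.factorial : ℝ) * (LR j : ℝ) / (j : ℝ) ^ d)
      = (d.factorial : ℝ) * ((lam * LR j : ℕ) : ℝ) / (j : ℝ) ^ d := by
    push_cast
    ring
  rw [e3]
  apply div_le_div_of_nonneg_right _ (by positivity)
  apply mul_le_mul_of_nonneg_left _ (by positivity)
  exact_mod_cast h j

variable {R S : Type*} [CommRing R] [CommRing S] [IsLocalRing R] [IsLocalRing S]
  [IsNoetherianRing R] [IsNoetherianRing S]
  [Algebra R S] [IsLocalHom (algebraMap R S)] [Module.Flat R S]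
variable {ι : Type*} [DecidableEq ι] [Nontrivial ι] (x : ι → S)

theorem hs_lower_trunc (c t v : ℕ) (hc : 1 ≤ c) (hv : v + c = t)
    (hgen : maximalIdeal S = (maximalIdeal R).map (algebraMap R S) ⊔ Ideal.span (Set.range x))
    (hind : ∀ j < c, ∀ p : MvPolynomial ι S, p.IsHomogeneous j →
      eval x p ∈ (maximalIdeal R).map (algebraMap R S) ⊔ maximalIdeal S ^ (j + 1) →
        ∀ δ, coeff δ p ∈ maximalIdeal S)
    (hfib : maximalIdeal S ^ t ≤ (maximalIdeal R).map (algebraMap R S)) (j : ℕ) :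
    (Module.length S (S ⧸ (maximalIdeal R).map (algebraMap R S))).toNat *
        (Module.length R (R ⧸ maximalIdeal R ^ j)).toNat ≤
      (Module.length S (S ⧸ maximalIdeal S ^ (j * (v + 1) + (c - 1)))).toNat := by
  cases j with
  | zero =>
    have : Subsingleton (R ⧸ maximalIdeal R ^ 0) := by
      rw [pow_zero, Ideal.one_eq_top]
      exact Ideal.Quotient.subsingleton_iff.2 rfl
    simp [Module.length_eq_zero]
  | succ k =>
    rw [← toNat_length_quotient_map_pow]
    apply ENat.toNat_le_toNat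
    · apply length_quotient_mono
      have := trunc_pow_le x c t v hc hv hgen hind hfib k
      have e : (k + 1) * (v + 1) + (c - 1) = t + k * (v + 1) := by
        have : c - 1 + 1 = c := by omega
        rw [← hv]
        nlinarith
      rw [e]
      exact this
    · exact length_quotient_ne_top _ _ le_rfl

/-- **Theorem E.** -/
theorem lech_trunc_bound (c t v : ℕ) (hc : 1 ≤ c) (hv : v + c = t)
    (hgen : maximalIdeal S = (maximalIdeal R).map (algebraMap R S) ⊔ Ideal.span (Set.range x))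
    (hind : ∀ j < c, ∀ p : MvPolynomial ι S, p.IsHomogeneous j →
      eval x p ∈ (maximalIdeal R).map (algebraMap R S) ⊔ maximalIdeal S ^ (j + 1) →
        ∀ δ, coeff δ p ∈ maximalIdeal S)
    (hfib : maximalIdeal S ^ t ≤ (maximalIdeal R).map (algebraMap R S))
    (d : ℕ) (hd : ringKrullDim R = d) (eR eS : ℝ)
    (hR : IsHSMultiplicity R eR) (hS : IsHSMultiplicity S eS) :
    ((Module.length S (S ⧸ (maximalIdeal R).map (algebraMap R S))).toNat : ℝ) * eR ≤
      ((v + 1 : ℕ) : ℝ) ^ d * eS := by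
  obtain ⟨d1, hd1, hR⟩ := hR
  obtain ⟨d2, hd2, hS⟩ := hS
  have hdim := ringKrullDim_eq_of_pow_le (R := R) (S := S) t hfib
  have e1 : d1 = d := by
    have : ((d1 : ℕ∞) : WithBot ℕ∞) = ((d : ℕ∞) : WithBot ℕ∞) := by
      have := hd1.symm.trans hd
      exact_mod_cast this
    exact_mod_cast this
  have e2 : d2 = d := by
    have : ((d2 : ℕ∞) : WithBot ℕ∞) = ((d : ℕ∞) : WithBot ℕ∞) := by
      have := hd2.symm.trans (hdim.trans hd)
      exact_mod_cast this
    exact_mod_cast this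
  rw [e1] at hR
  rw [e2] at hS
  exact limit_compare_off d (v + 1) (c - 1) (by omega) _ _ _
    (hs_lower_trunc x c t v hc hv hgen hind hfib) eR eS hR hS

end Vale.Agent.P202
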