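import Vale.Agent.Lib.P202.T1Mixed
import Vale.Agent.Lib.P202.Raise
import Vale.Agent.Lib.P202.Change
import Vale.Agent.Lib.P202.TruncMain

/-!
# P202: Lech's inequality when the leading forms of a minimal generating family of `𝔪 S`
generate an ideal primary to the irrelevant ideal of `gr_𝔫 S`
-/

namespace Vale.Agent.P202

set_option linter.unusedSectionVars false

open IsLocalRing Filter Topology

variable {R S : Type*} [CommRing R] [CommRing S] [IsLocalRing R] [IsLocalRing S]
  [IsNoetherianRing R] [IsNoetherianRing S]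
  [Algebra R S] [IsLocalHom (algebraMap R S)] [Module.Flat R S]

/-- any generating family of `𝔪 S` with `embdim R` elements is independent -/
theorem indepMod_of_span_eq_map (b : Fin (maximalIdeal R).spanFinrank → S)
    (hspan : Ideal.span (Set.range b) = (maximalIdeal R).map (algebraMap R S)) :
    IndepMod b (⊥ : Submodule S S) := by
  obtain ⟨a, ha, hmin⟩ := exists_minimal_generators_spanFinrank R
  have hspan' : Ideal.span (Set.range fun i => algebraMap R S (a i)) =
      (maximalIdeal R).map (algebraMap R S) := by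
    have h0 := congrArg (Ideal.map (algebraMap R S)) ha
    rw [Ideal.map_span, ← Set.range_comp] at h0
    exact h0
  have key := indep_of_span_eq (fun i => algebraMap R S (a i)) b
    ((maximalIdeal R).map (algebraMap R S)) (map_maximalIdeal_le (algebraMap R S)) hspan' hspan
    (fun z hz i => coeff_mem_map_of_relation hmin z hz i)
  intro z hz i
  apply Submodule.mem_sup_left
  rw [hspan, smul_eq_mul, Ideal.mul_top]
  apply key z
  simpa using hz

/-- colength bound: `∏ wt i ≤ ℓ(S / 𝔪 S)` -/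
theorem prod_le_length_fibre (b : Fin (maximalIdeal R).spanFinrank → S)
    (wt : Fin (maximalIdeal R).spanFinrank → ℕ)
    (hspan : Ideal.span (Set.range b) = (maximalIdeal R).map (algebraMap R S))
    (hwt : ∀ i, 1 ≤ wt i) (hb : ∀ i, b i ∈ maximalIdeal S ^ wt i) :
    ((∏ i, wt i : ℕ) : ℕ∞) ≤ Module.length S (S ⧸ (maximalIdeal R).map (algebraMap R S)) := by
  have key := colength_indep_mixed (maximalIdeal S) _ b wt hwt hb S ⊥
    (indepMod_of_span_eq_map b hspan)
  rw [hspan] at key
  have e : ∀ J : Ideal S, J • (⊤ : Submodule S S) ⊔ ⊥ = J := fun J => by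
    rw [sup_bot_eq, smul_eq_mul, Ideal.mul_top]
  rw [e, e] at key
  have h1 : 1 ≤ Module.length S (S ⧸ maximalIdeal S) := by
    have : Nontrivial (S ⧸ maximalIdeal S) :=
      Ideal.Quotient.nontrivial_iff.mpr (Ideal.IsPrime.ne_top inferInstance)
    exact Order.one_le_iff_ne_zero.2 (Module.length_pos).ne'
  calc ((∏ i, wt i : ℕ) : ℕ∞) = ((∏ i, wt i : ℕ) : ℕ∞) * 1 := (mul_one _).symm
    _ ≤ ((∏ i, wt i : ℕ) : ℕ∞) * Module.length S (S ⧸ maximalIdeal S) := by gcongr
    _ ≤ _ := key

theorem pow_add_le_filtration {r : ℕ} (n : Ideal S) (b : Fin r → S) (wt : Fin r → ℕ)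
    (hwt : ∀ i, 1 ≤ wt i) (j : ℕ) (hj : ∀ i, wt i ≤ j)
    (hlead : n ^ j ≤ ⨆ i, Ideal.span {b i} * n ^ (j - wt i))
    (G : ℕ → Ideal S) (hG0 : G 0 = ⊤) (hanti : Antitone G)
    (hbG : ∀ i M, Ideal.span {b i} * G M ≤ G (M + wt i)) (N : ℕ) : n ^ (N + j) ≤ G N := by
  induction N using Nat.strong_induction_on with
  | _ N ih =>
    calc n ^ (N + j) = n ^ N * n ^ j := pow_add _ _ _
      _ ≤ n ^ N * ⨆ i, Ideal.span {b i} * n ^ (j - wt i) := Ideal.mul_mono_right hlead
      _ = ⨆ i, n ^ N * (Ideal.span {b i} * n ^ (j - wt i)) := Ideal.mul_iSup _ _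
      _ ≤ G N := by
        apply iSup_le
        intro i
        have e : n ^ N * (Ideal.span {b i} * n ^ (j - wt i)) =
            Ideal.span {b i} * n ^ (N + (j - wt i)) := by
          rw [pow_add]; ring
        rw [e]
        by_cases h : wt i ≤ N
        · have h1 := ih (N - wt i) (by have := hwt i; omega)
          have e2 : N + (j - wt i) = N - wt i + j := by have := hj i; omega
          rw [e2]
          calc Ideal.span {b i} * n ^ (N - wt i + j) ≤ Ideal.span {b i} * G (N - wt i) :=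
                Ideal.mul_mono_right h1
            _ ≤ G (N - wt i + wt i) := hbG i _
            _ = G N := by rw [Nat.sub_add_cancel h]
        · calc Ideal.span {b i} * n ^ (N + (j - wt i)) ≤ Ideal.span {b i} * G 0 := by
                rw [hG0]; exact Ideal.mul_mono_right le_top
            _ ≤ G (0 + wt i) := hbG i 0
            _ ≤ G N := hanti (by omega)

/-- Hilbert-Samuel functions: `ℓ(S/𝔪S) ℓ(R/𝔪^N) ≤ (∏ wt i) ℓ(S/𝔫^(N+j))`. -/
theorem hs_leading (b : Fin (maximalIdeal R).spanFinrank → S)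
    (wt : Fin (maximalIdeal R).spanFinrank → ℕ)
    (hspan : Ideal.span (Set.range b) = (maximalIdeal R).map (algebraMap R S))
    (hwt : ∀ i, 1 ≤ wt i)
    (j : ℕ) (hj : ∀ i, wt i ≤ j)
    (hlead : maximalIdeal S ^ j ≤ ⨆ i, Ideal.span {b i} * maximalIdeal S ^ (j - wt i)) (N : ℕ) :
    (Module.length S (S ⧸ (maximalIdeal R).map (algebraMap R S))).toNat *
        (Module.length R (R ⧸ maximalIdeal R ^ N)).toNat ≤
      (∏ i, wt i) * (Module.length S (S ⧸ maximalIdeal S ^ (N + j))).toNat := by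
  set I := (maximalIdeal R).map (algebraMap R S) with hI
  have hbI : ∀ i, b i ∈ I := fun i => by
    rw [← hspan]
    exact Ideal.subset_span ⟨i, rfl⟩
  have hjI : maximalIdeal S ^ j ≤ I := by
    refine hlead.trans (iSup_le fun i => ?_)
    refine Ideal.mul_le_left.trans ?_
    rw [Ideal.span_singleton_le_iff_mem]
    exact hbI i
  have hfin : ∀ M, Module.length S (S ⧸ I ^ M) ≠ ⊤ := fun M => by
    apply length_quotient_ne_top _ (j * M)
    rw [pow_mul]
    exact Ideal.pow_right_mono hjI M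
  obtain ⟨G, hG0, hanti, hIG, -, hbG, hlen⟩ :=
    exists_weighted_filtration I hfin _ b wt hwt hbI
  have h1 := pow_add_le_filtration (maximalIdeal S) b wt hwt j hj hlead G hG0 hanti hbG N
  have h2 : Module.length S (S ⧸ G N) ≤ Module.length S (S ⧸ maximalIdeal S ^ (N + j)) :=
    length_quotient_mono h1
  have h3 := hlen N
  have f1 : Module.length S (S ⧸ maximalIdeal S ^ (N + j)) ≠ ⊤ :=
    length_quotient_ne_top _ _ le_rfl
  rw [← toNat_length_quotient_map_pow, ← hI]
  have h4 : Module.length S (S ⧸ I ^ N) ≤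
      ((∏ i, wt i : ℕ) : ℕ∞) * Module.length S (S ⧸ maximalIdeal S ^ (N + j)) :=
    h3.trans (by gcongr)
  have f2 := hfin N
  lift Module.length S (S ⧸ maximalIdeal S ^ (N + j)) to ℕ using f1 with x
  lift Module.length S (S ⧸ I ^ N) to ℕ using f2 with y
  simp only [ENat.toNat_natCast]
  exact_mod_cast h4

/-- **Theorem W.** -/
theorem lech_leading (b : Fin (maximalIdeal R).spanFinrank → S)
    (wt : Fin (maximalIdeal R).spanFinrank → ℕ)
    (hspan : Ideal.span (Set.range b) = (maximalIdeal R).map (algebraMap R S))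
    (hwt : ∀ i, 1 ≤ wt i) (hb : ∀ i, b i ∈ maximalIdeal S ^ wt i)
    (j : ℕ) (hj : ∀ i, wt i ≤ j)
    (hlead : maximalIdeal S ^ j ≤ ⨆ i, Ideal.span {b i} * maximalIdeal S ^ (j - wt i))
    (eR eS : ℝ) (hR : IsHSMultiplicity R eR) (hS : IsHSMultiplicity S eS) :
    ((Module.length S (S ⧸ (maximalIdeal R).map (algebraMap R S))).toNat : ℝ) * eR ≤
      ((∏ i, wt i : ℕ) : ℝ) * eS ∧ eR ≤ eS := by
  have hbI : ∀ i, b i ∈ (maximalIdeal R).map (algebraMap R S) := fun i => by
    rw [← hspan]
    exact Ideal.subset_span ⟨i, rfl⟩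
  have hjI : maximalIdeal S ^ j ≤ (maximalIdeal R).map (algebraMap R S) := by
    refine hlead.trans (iSup_le fun i => ?_)
    refine Ideal.mul_le_left.trans ?_
    rw [Ideal.span_singleton_le_iff_mem]
    exact hbI i
  have hnonneg := hR.nonneg
  have hnonnegS := hS.nonneg
  obtain ⟨d1, hd1, hR⟩ := hR
  obtain ⟨d2, hd2, hS⟩ := hS
  have hdim := ringKrullDim_eq_of_pow_le (R := R) (S := S) j hjI
  have e2 : d2 = d1 := by
    have : ((d2 : ℕ∞) : WithBot ℕ∞) = ((d1 : ℕ∞) : WithBot ℕ∞) := by
      have := hd2.symm.trans (hdim.trans hd1)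
      exact_mod_cast this
    exact_mod_cast this
  rw [e2] at hS
  set P := ∏ i, wt i with hP
  set lam := (Module.length S (S ⧸ (maximalIdeal R).map (algebraMap R S))).toNat with hlam
  have hS' : Tendsto (fun N : ℕ => (d1.factorial : ℝ) *
      ((P * (Module.length S (S ⧸ maximalIdeal S ^ N)).toNat : ℕ) : ℝ) / (N : ℝ) ^ d1) atTop
      (𝓝 ((P : ℝ) * eS)) := by
    have := hS.const_mul (P : ℝ)
    refine this.congr fun N => ?_
    push_cast
    ring
  have key := limit_compare_off d1 1 j le_rfl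
    (fun N => (Module.length R (R ⧸ maximalIdeal R ^ N)).toNat)
    (fun N => P * (Module.length S (S ⧸ maximalIdeal S ^ N)).toNat) lam
    (fun N => by
      have := hs_leading (R := R) b wt hspan hwt j hj hlead N
      rw [mul_one]
      exact this) eR ((P : ℝ) * eS) hR hS'
  have key' : (lam : ℝ) * eR ≤ (P : ℝ) * eS := by simpa using key
  refine ⟨key', ?_⟩
  have hPl : P ≤ lam := by
    have h1 := prod_le_length_fibre (R := R) b wt hspan hwt hb
    have h2 := length_fibre_ne_top (R := R) (S := S) j hjI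
    rw [hlam]
    lift Module.length S (S ⧸ (maximalIdeal R).map (algebraMap R S)) to ℕ using h2 with x
    simp only [ENat.toNat_natCast]
    exact_mod_cast h1
  have hPpos : 0 < P := Finset.prod_pos fun i _ => hwt i
  have hPl' : (P : ℝ) ≤ (lam : ℝ) := by exact_mod_cast hPl
  have hPpos' : (0 : ℝ) < (P : ℝ) := by exact_mod_cast hPpos
  have : (P : ℝ) * eR ≤ (P : ℝ) * eS :=
    (mul_le_mul_of_nonneg_right hPl' hnonneg).trans key'
  exact le_of_mul_le_mul_left this hPpos'

/-- Nakayama: it is enough to generate `𝔫 ^ j` modulo `𝔫 ^ (j + 1)`. -/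
theorem lead_of_lead_sup {r : ℕ} (b : Fin r → S) (wt : Fin r → ℕ) (j : ℕ)
    (hlead : maximalIdeal S ^ j ≤
      (⨆ i, Ideal.span {b i} * maximalIdeal S ^ (j - wt i)) ⊔ maximalIdeal S ^ (j + 1)) :
    maximalIdeal S ^ j ≤ ⨆ i, Ideal.span {b i} * maximalIdeal S ^ (j - wt i) := by
  apply Submodule.le_of_le_smul_of_le_jacobson_bot (I := maximalIdeal S)
    (IsNoetherian.noetherian _) (IsLocalRing.maximalIdeal_le_jacobson _)
  rw [smul_eq_mul, ← pow_succ']
  exact hlead

/-- **Theorem W**, leading form version. -/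
theorem lech_leading' (b : Fin (maximalIdeal R).spanFinrank → S)
    (wt : Fin (maximalIdeal R).spanFinrank → ℕ)
    (hspan : Ideal.span (Set.range b) = (maximalIdeal R).map (algebraMap R S))
    (hwt : ∀ i, 1 ≤ wt i) (hb : ∀ i, b i ∈ maximalIdeal S ^ wt i)
    (j : ℕ) (hj : ∀ i, wt i ≤ j)
    (hlead : maximalIdeal S ^ j ≤
      (⨆ i, Ideal.span {b i} * maximalIdeal S ^ (j - wt i)) ⊔ maximalIdeal S ^ (j + 1))
    (eR eS : ℝ) (hR : IsHSMultiplicity R eR) (hS : IsHSMultiplicity S eS) :
    ((Module.length S (S ⧸ (maximalIdeal R).map (algebraMap R S))).toNat : ℝ) * eR ≤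
      ((∏ i, wt i : ℕ) : ℝ) * eS ∧ eR ≤ eS :=
  lech_leading b wt hspan hwt hb j hj (lead_of_lead_sup b wt j hlead) eR eS hR hS

end Vale.Agent.P202
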