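import Vale.Agent.Lib.P202.Core

/-!
# P202 (Lech's conjecture): lengths, dimension and limits
-/

namespace Vale.Agent.P202

open IsLocalRing Filter Topology

section FiniteLength

variable {A : Type*} [CommRing A] [IsLocalRing A] [IsNoetherianRing A]

theorem length_quotient_ne_top (I : Ideal A) (N : ℕ) (h : maximalIdeal A ^ N ≤ I) :
    Module.length A (A ⧸ I) ≠ ⊤ := by
  by_cases hI : I = ⊤
  · subst hI
    have : Subsingleton (A ⧸ (⊤ : Ideal A)) := Ideal.Quotient.subsingleton_iff.2 rfl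
    simp [Module.length_eq_zero]
  have : Nontrivial (A ⧸ I) := Ideal.Quotient.nontrivial_iff.mpr hI
  have := IsLocalRing.of_surjective' (Ideal.Quotient.mk I) Ideal.Quotient.mk_surjective
  have := IsLocalHom.of_surjective (Ideal.Quotient.mk I) Ideal.Quotient.mk_surjective
  have hmap : (maximalIdeal A).map (Ideal.Quotient.mk I) = maximalIdeal (A ⧸ I) := by
    ext x
    obtain ⟨x, rfl⟩ := Ideal.Quotient.mk_surjective x
    simp [sup_eq_left.mpr (le_maximalIdeal hI)]
  have hart : IsArtinianRing (A ⧸ I) := by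
    rw [isArtinianRing_iff_isNilpotent_maximalIdeal]
    refine ⟨N, ?_⟩
    rw [← hmap, ← Ideal.map_pow, Ideal.zero_eq_bot, Ideal.map_eq_bot_iff_le_ker, Ideal.mk_ker]
    exact h
  rw [Module.length_eq_of_surjective (S := A) (R := A ⧸ I) (M := A ⧸ I)
    Ideal.Quotient.mk_surjective]
  exact Module.length_ne_top

theorem length_quotient_mono {B : Type*} [CommRing B] {I J : Ideal B} (h : I ≤ J) :
    Module.length B (B ⧸ J) ≤ Module.length B (B ⧸ I) :=
  Module.length_le_of_surjective (Submodule.factor h) (Submodule.factor_surjective h)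

end FiniteLength

section Flat

variable {R S : Type*} [CommRing R] [CommRing S] [IsLocalRing R] [IsLocalRing S]
  [Algebra R S] [IsLocalHom (algebraMap R S)] [Module.Flat R S]

theorem length_quotient_map (I : Ideal R) :
    Module.length S (S ⧸ I.map (algebraMap R S)) =
      Module.length R (R ⧸ I) *
        Module.length S (S ⧸ (maximalIdeal R).map (algebraMap R S)) := by
  rw [← IsLocalRing.length_baseChange R S (R ⧸ I)]
  exact (Algebra.TensorProduct.quotIdealMapEquivTensorQuot S I).toLinearEquiv.length_eq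

end Flat

section Dim

variable {R S : Type*} [CommRing R] [CommRing S] [IsLocalRing R] [IsLocalRing S]
  [IsNoetherianRing R] [IsNoetherianRing S]
  [Algebra R S] [IsLocalHom (algebraMap R S)] [Module.Flat R S]

theorem ringKrullDim_eq_of_pow_le (t : ℕ)
    (ht : maximalIdeal S ^ t ≤ (maximalIdeal R).map (algebraMap R S)) :
    ringKrullDim S = ringKrullDim R := by
  have hlo : (maximalIdeal S).LiesOver (maximalIdeal R) :=
    ⟨(maximalIdeal_comap (algebraMap R S)).symm⟩
  have h := Ideal.height_eq_height_add_of_liesOver_of_hasGoingDown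
    (maximalIdeal R) (maximalIdeal S)
  set I := (maximalIdeal R).map (algebraMap R S) with hI
  have hIle : I ≤ maximalIdeal S := map_maximalIdeal_le (algebraMap R S)
  have hprime : ((maximalIdeal S).map (Ideal.Quotient.mk I)).IsPrime := by
    apply Ideal.map_isPrime_of_surjective Ideal.Quotient.mk_surjective
    rw [Ideal.mk_ker]
    exact hIle
  have hz : ((maximalIdeal S).map (Ideal.Quotient.mk I)).height = 0 := by
    rw [Ideal.height_eq_zero_iff]
    refine ⟨⟨hprime, bot_le⟩, ?_⟩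
    rintro P ⟨hP, -⟩ -
    have h1 : ((maximalIdeal S).map (Ideal.Quotient.mk I)) ^ t ≤ P := by
      rw [← Ideal.map_pow]
      have : (maximalIdeal S ^ t).map (Ideal.Quotient.mk I) = ⊥ := by
        rw [Ideal.map_eq_bot_iff_le_ker, Ideal.mk_ker]
        exact ht
      rw [this]
      exact bot_le
    exact hP.le_of_pow_le h1
  rw [hz, add_zero] at h
  rw [← maximalIdeal_height_eq_ringKrullDim, ← maximalIdeal_height_eq_ringKrullDim, h]

end Dim

section Limits

theorem limit_compare (d t' : ℕ) (ht' : 1 ≤ t') (LR LS : ℕ → ℕ) (lam : ℕ)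
    (h : ∀ j, lam * LR j ≤ LS (j * t' + 1)) (eR eS : ℝ)
    (hR : Tendsto (fun N : ℕ => (d.factorial : ℝ) * (LR N : ℝ) / (N : ℝ) ^ d) atTop (𝓝 eR))
    (hS : Tendsto (fun N : ℕ => (d.factorial : ℝ) * (LS N : ℝ) / (N : ℝ) ^ d) atTop (𝓝 eS)) :
    (lam : ℝ) * eR ≤ (t' : ℝ) ^ d * eS := by
  have hsub : Tendsto (fun j : ℕ => j * t' + 1) atTop atTop := by
    apply tendsto_atTop_mono (fun j => ?_) tendsto_id
    simp only [id]
    nlinarith
  have h1 := hS.comp hsub
  have h2 : Tendsto (fun j : ℕ => ((t' : ℝ) + 1 / (j : ℝ)) ^ d) atTop (𝓝 ((t' : ℝ) ^ d)) := by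
    have : Tendsto (fun j : ℕ => (t' : ℝ) + 1 / (j : ℝ)) atTop (𝓝 ((t' : ℝ) + 0)) :=
      tendsto_const_nhds.add tendsto_one_div_atTop_nhds_zero_nat
    rw [add_zero] at this
    exact this.pow d
  have h3 := h2.mul h1
  have h4 : Tendsto (fun N : ℕ => (lam : ℝ) * ((d.factorial : ℝ) * (LR N : ℝ) / (N : ℝ) ^ d))
      atTop (𝓝 ((lam : ℝ) * eR)) := hR.const_mul _
  apply le_of_tendsto_of_tendsto h4 h3
  filter_upwards [eventually_gt_atTop 0] with j hj
  have hj' : (0 : ℝ) < (j : ℝ) := by exact_mod_cast hj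
  simp only [Function.comp]
  have e1 : ((t' : ℝ) + 1 / (j : ℝ)) = ((j * t' + 1 : ℕ) : ℝ) / (j : ℝ) := by
    push_cast
    field_simp
  have hpos : (0 : ℝ) < ((j * t' + 1 : ℕ) : ℝ) := by positivity
  rw [e1, div_pow]
  have e2 : ((j * t' + 1 : ℕ) : ℝ) ^ d / (j : ℝ) ^ d *
      ((d.factorial : ℝ) * (LS (j * t' + 1) : ℝ) / ((j * t' + 1 : ℕ) : ℝ) ^ d)
      = (d.factorial : ℝ) * (LS (j * t' + 1) : ℝ) / (j : ℝ) ^ d := by
    field_simp
  rw [e2]
  have e3 : (lam : ℝ) * ((d.factorial : ℝ) * (LR j : ℝ) / (j : ℝ) ^ d)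
      = (d.factorial : ℝ) * ((lam * LR j : ℕ) : ℝ) / (j : ℝ) ^ d := by
    push_cast
    ring
  rw [e3]
  apply div_le_div_of_nonneg_right _ (by positivity)
  apply mul_le_mul_of_nonneg_left _ (by positivity)
  exact_mod_cast h j

theorem limit_compare' (d : ℕ) (LR LS : ℕ → ℕ) (lam : ℕ)
    (h : ∀ j, LS j ≤ lam * LR j) (eR eS : ℝ)
    (hR : Tendsto (fun N : ℕ => (d.factorial : ℝ) * (LR N : ℝ) / (N : ℝ) ^ d) atTop (𝓝 eR))
    (hS : Tendsto (fun N : ℕ => (d.factorial : ℝ) * (LS N : ℝ) / (N : ℝ) ^ d) atTop (𝓝 eS)) :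
    eS ≤ (lam : ℝ) * eR := by
  have h4 : Tendsto (fun N : ℕ => (lam : ℝ) * ((d.factorial : ℝ) * (LR N : ℝ) / (N : ℝ) ^ d))
      atTop (𝓝 ((lam : ℝ) * eR)) := hR.const_mul _
  apply le_of_tendsto_of_tendsto hS h4
  filter_upwards with j
  have e3 : (lam : ℝ) * ((d.factorial : ℝ) * (LR j : ℝ) / (j : ℝ) ^ d)
      = (d.factorial : ℝ) * ((lam * LR j : ℕ) : ℝ) / (j : ℝ) ^ d := by
    push_cast
    ring
  rw [e3]
  apply div_le_div_of_nonneg_right _ (by positivity)
  apply mul_le_mul_of_nonneg_left _ (by positivity)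
  exact_mod_cast h j

theorem limit_nonneg (d : ℕ) (L : ℕ → ℕ) (e : ℝ)
    (hL : Tendsto (fun N : ℕ => (d.factorial : ℝ) * (L N : ℝ) / (N : ℝ) ^ d) atTop (𝓝 e)) :
    0 ≤ e := by
  apply ge_of_tendsto' hL
  intro N
  positivity

end Limits

end Vale.Agent.P202
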