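import Vale.Agent.Lib.P202.Defs
import Vale.Agent.Lib.P202.Length

/-!
# P202 (Lech's conjecture): main inequalities for fibres of embedding dimension at least two
-/

namespace Vale.Agent.P202

set_option linter.unusedSectionVars false

open IsLocalRing Filter Topology

variable {R S : Type*} [CommRing R] [CommRing S] [IsLocalRing R] [IsLocalRing S]
  [IsNoetherianRing R] [IsNoetherianRing S]
  [Algebra R S] [IsLocalHom (algebraMap R S)] [Module.Flat R S]

/-- length of the closed fibre is finite -/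
theorem length_fibre_ne_top (t : ℕ)
    (ht : maximalIdeal S ^ t ≤ (maximalIdeal R).map (algebraMap R S)) :
    Module.length S (S ⧸ (maximalIdeal R).map (algebraMap R S)) ≠ ⊤ :=
  length_quotient_ne_top _ t ht

theorem one_le_length_fibre (t : ℕ)
    (ht : maximalIdeal S ^ t ≤ (maximalIdeal R).map (algebraMap R S)) :
    1 ≤ (Module.length S (S ⧸ (maximalIdeal R).map (algebraMap R S))).toNat := by
  have h1 : Module.length S (S ⧸ (maximalIdeal R).map (algebraMap R S)) ≠ 0 := by
    have : Nontrivial (S ⧸ (maximalIdeal R).map (algebraMap R S)) :=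
      Ideal.Quotient.nontrivial_iff.mpr (map_maximalIdeal_lt_top (algebraMap R S)).ne
    exact (Module.length_pos).ne'
  have h2 := length_fibre_ne_top (R := R) (S := S) t ht
  rw [Nat.one_le_iff_ne_zero]
  intro h
  rcases (ENat.toNat_eq_zero.1 h) with h | h
  · exact h1 h
  · exact h2 h

/-- `ℓ(S/𝔪^j S) = ℓ(R/𝔪^j) ℓ(S/𝔪S)` as natural numbers -/
theorem toNat_length_quotient_map_pow (j : ℕ) :
    (Module.length S (S ⧸ ((maximalIdeal R).map (algebraMap R S)) ^ j)).toNat =
      (Module.length S (S ⧸ (maximalIdeal R).map (algebraMap R S))).toNat *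
        (Module.length R (R ⧸ maximalIdeal R ^ j)).toNat := by
  rw [← Ideal.map_pow, length_quotient_map, ENat.toNat_mul, mul_comm]

/-- lower bound for the Hilbert-Samuel function of `S` -/
theorem hs_lower (hnp : ∀ x : S, maximalIdeal S ≠
      (maximalIdeal R).map (algebraMap R S) ⊔ Ideal.span {x})
    (t : ℕ) (ht : maximalIdeal S ^ (t + 1) ≤ (maximalIdeal R).map (algebraMap R S)) (j : ℕ) :
    (Module.length S (S ⧸ (maximalIdeal R).map (algebraMap R S))).toNat *
        (Module.length R (R ⧸ maximalIdeal R ^ j)).toNat ≤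
      (Module.length S (S ⧸ maximalIdeal S ^ (j * t + 1))).toNat := by
  rw [← toNat_length_quotient_map_pow]
  apply ENat.toNat_le_toNat
  · apply length_quotient_mono
    exact (pow_le_map_pow_mul hnp t ht j).trans Ideal.mul_le_left
  · exact length_quotient_ne_top _ _ le_rfl

/-- upper bound for the Hilbert-Samuel function of `S` -/
theorem hs_upper (t : ℕ) (ht : maximalIdeal S ^ t ≤ (maximalIdeal R).map (algebraMap R S))
    (j : ℕ) :
    (Module.length S (S ⧸ maximalIdeal S ^ j)).toNat ≤
      (Module.length S (S ⧸ (maximalIdeal R).map (algebraMap R S))).toNat *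
        (Module.length R (R ⧸ maximalIdeal R ^ j)).toNat := by
  rw [← toNat_length_quotient_map_pow]
  apply ENat.toNat_le_toNat
  · apply length_quotient_mono
    exact Ideal.pow_right_mono (map_maximalIdeal_le (algebraMap R S)) j
  · apply length_quotient_ne_top _ (t * j)
    rw [pow_mul]
    exact Ideal.pow_right_mono ht j

/-- **Theorem D.** -/
theorem lech_fibre_bound
    (hnp : ∀ x : S, maximalIdeal S ≠ (maximalIdeal R).map (algebraMap R S) ⊔ Ideal.span {x})
    (t : ℕ) (ht1 : 1 ≤ t)
    (ht : maximalIdeal S ^ (t + 1) ≤ (maximalIdeal R).map (algebraMap R S))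
    (d : ℕ) (hd : ringKrullDim R = d) (eR eS : ℝ)
    (hR : IsHSMultiplicity R eR) (hS : IsHSMultiplicity S eS) :
    ((Module.length S (S ⧸ (maximalIdeal R).map (algebraMap R S))).toNat : ℝ) * eR ≤
      (t : ℝ) ^ d * eS := by
  obtain ⟨d1, hd1, hR⟩ := hR
  obtain ⟨d2, hd2, hS⟩ := hS
  have hdim := ringKrullDim_eq_of_pow_le (R := R) (S := S) (t + 1) ht
  have e1 : d1 = d := by
    have : ((d1 : ℕ∞) : WithBot ℕ∞) = ((d : ℕ∞) : WithBot ℕ∞) := by
      have := hd1.symm.trans hd
      exact_mod_cast this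
    exact_mod_cast this
  have e2 : d2 = d := by
    have : ((d2 : ℕ∞) : WithBot ℕ∞) = ((d : ℕ∞) : WithBot ℕ∞) := by
      have := hd2.symm.trans (hdim.trans hd)
      exact_mod_cast this
    exact_mod_cast this
  rw [e1] at hR
  rw [e2] at hS
  exact limit_compare d t ht1 _ _ _ (hs_lower hnp t ht) eR eS hR hS

theorem lech_upper (t : ℕ)
    (ht : maximalIdeal S ^ t ≤ (maximalIdeal R).map (algebraMap R S)) (eR eS : ℝ)
    (hR : IsHSMultiplicity R eR) (hS : IsHSMultiplicity S eS) :
    eS ≤ ((Module.length S (S ⧸ (maximalIdeal R).map (algebraMap R S))).toNat : ℝ) * eR := by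
  obtain ⟨d1, hd1, hR⟩ := hR
  obtain ⟨d2, hd2, hS⟩ := hS
  have hdim := ringKrullDim_eq_of_pow_le (R := R) (S := S) t ht
  have e2 : d2 = d1 := by
    have : ((d2 : ℕ∞) : WithBot ℕ∞) = ((d1 : ℕ∞) : WithBot ℕ∞) := by
      have := hd2.symm.trans (hdim.trans hd1)
      exact_mod_cast this
    exact_mod_cast this
  rw [e2] at hS
  exact limit_compare' d1 _ _ _ (hs_upper t ht) eR eS hR hS

theorem IsHSMultiplicity.nonneg {A : Type*} [CommRing A] [IsLocalRing A] {e : ℝ}
    (h : IsHSMultiplicity A e) : 0 ≤ e := by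
  obtain ⟨d, -, h⟩ := h
  exact limit_nonneg d _ e h

end Vale.Agent.P202
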