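import Vale.Agent.Lib.P202.Core
import Vale.Agent.Lib.P202.Comb

/-!
# P202: closed fibres that agree with a polynomial ring in low degrees
-/

namespace Vale.Agent.P202

open IsLocalRing MvPolynomial Finsupp

section MinGen

variable {R : Type*} [CommRing R] [IsLocalRing R] [IsNoetherianRing R]

/-- A minimal generating family of an ideal: every linear relation has
coefficients in the maximal ideal. -/
theorem exists_minimal_generators_ideal (q : Ideal R) :
    ∃ (s : ℕ) (a : Fin s → R), Ideal.span (Set.range a) = q ∧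
      ∀ c : Fin s → R, ∑ i, a i * c i = 0 → ∀ i, c i ∈ maximalIdeal R := by
  classical
  have hex : ∃ s : ℕ, ∃ a : Fin s → R, Ideal.span (Set.range a) = q := by
    have hfg : q.FG := IsNoetherian.noetherian _
    obtain ⟨n, a, ha⟩ := Submodule.fg_iff_exists_fin_generating_family.mp hfg
    exact ⟨n, a, ha⟩
  obtain ⟨a, ha⟩ := Nat.find_spec hex
  refine ⟨Nat.find hex, a, ha, ?_⟩
  intro c hc i
  by_contra hi
  have hu : IsUnit (c i) := by
    by_contra h
    exact hi ((mem_maximalIdeal _).2 h)
  obtain ⟨u, hu⟩ := hu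
  obtain ⟨k, hk⟩ : ∃ k, Nat.find hex = k + 1 := by
    have : 0 < Nat.find hex := Fin.pos i
    exact ⟨Nat.find hex - 1, by omega⟩
  have hmin : ¬ ∃ b : Fin k → R, Ideal.span (Set.range b) = q :=
    Nat.find_min hex (by omega)
  apply hmin
  generalize Nat.find hex = s at *
  subst hk
  refine ⟨fun j => a (i.succAbove j), ?_⟩
  apply le_antisymm
  · rw [← ha]
    apply Ideal.span_mono
    rintro _ ⟨j, rfl⟩
    exact ⟨_, rfl⟩
  · rw [← ha, Ideal.span_le]
    rintro _ ⟨j, rfl⟩
    rcases Fin.eq_self_or_eq_succAbove i j with h | ⟨j', h⟩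
    · subst h
      rw [Fin.sum_univ_succAbove _ j] at hc
      have h1 : a j = - (∑ l, a (j.succAbove l) * c (j.succAbove l)) * (↑u⁻¹ : R) := by
        have h2 : a j * c j = - (∑ l, a (j.succAbove l) * c (j.succAbove l)) := by
          linear_combination hc
        rw [← h2, ← hu, mul_assoc, Units.mul_inv, mul_one]
      rw [h1]
      apply Ideal.mul_mem_right
      apply Ideal.neg_mem_iff _ |>.2
      apply Ideal.sum_mem
      intro l _
      apply Ideal.mul_mem_right
      exact Ideal.subset_span ⟨l, rfl⟩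
    · rw [h]
      exact Ideal.subset_span ⟨j', rfl⟩

end MinGen

section Ideals

variable {B : Type*} [CommRing B]

/-- elements of `span (range b) * D` -/
theorem exists_of_mem_span_range_mul {μ : ℕ} (b : Fin μ → B) (D : Ideal B) (z : B)
    (hz : z ∈ Ideal.span (Set.range b) * D) :
    ∃ s : Fin μ → B, (∀ i, s i ∈ D) ∧ ∑ i, b i * s i = z := by
  induction hz using Submodule.mul_induction_on' with
  | mem_mul_mem u hu v hv =>
    obtain ⟨c, rfl⟩ := Ideal.mem_span_range_iff_exists_fun.1 hu
    refine ⟨fun i => c i * v, fun i => D.mul_mem_left _ hv, ?_⟩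
    rw [Finset.sum_mul]
    exact Finset.sum_congr rfl (fun i _ => by ring)
  | add u _ v _ hu hv =>
    obtain ⟨s1, h1, rfl⟩ := hu
    obtain ⟨s2, h2, rfl⟩ := hv
    refine ⟨fun i => s1 i + s2 i, fun i => D.add_mem (h1 i) (h2 i), ?_⟩
    rw [← Finset.sum_add_distrib]
    exact Finset.sum_congr rfl (fun i _ => by ring)

theorem sup_pow_succ_le (A C : Ideal B) (j : ℕ) :
    (A ⊔ C) ^ (j + 1) ≤ A ^ (j + 1) ⊔ C * (A ⊔ C) ^ j := by
  induction j with
  | zero => simp
  | succ j ih =>
    have h1 : A * (A ⊔ C) ^ (j + 1) ≤ A ^ (j + 1 + 1) ⊔ C * (A ⊔ C) ^ (j + 1) := by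
      calc A * (A ⊔ C) ^ (j + 1) ≤ A * (A ^ (j + 1) ⊔ C * (A ⊔ C) ^ j) := Ideal.mul_mono_right ih
        _ = A ^ (j + 1 + 1) ⊔ C * (A * (A ⊔ C) ^ j) := by
            rw [Ideal.mul_sup, ← pow_succ', ← mul_assoc, ← mul_assoc, mul_comm A]
        _ ≤ A ^ (j + 1 + 1) ⊔ C * (A ⊔ C) ^ (j + 1) := by
            apply sup_le_sup_left
            apply Ideal.mul_mono_right
            rw [pow_succ']
            exact Ideal.mul_mono_left le_sup_left
    calc (A ⊔ C) ^ (j + 1 + 1) = (A ⊔ C) * (A ⊔ C) ^ (j + 1) := pow_succ' _ _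
      _ = A * (A ⊔ C) ^ (j + 1) ⊔ C * (A ⊔ C) ^ (j + 1) := Ideal.sup_mul _ _ _
      _ ≤ A ^ (j + 1 + 1) ⊔ C * (A ⊔ C) ^ (j + 1) := sup_le h1 le_sup_right

theorem sup_pow_le (A C : Ideal B) (j : ℕ) : (A ⊔ C) ^ j ≤ A ^ j ⊔ C := by
  cases j with
  | zero => simp
  | succ j => exact (sup_pow_succ_le A C j).trans (sup_le_sup_left Ideal.mul_le_left _)

end Ideals

section LemmaX

variable {R S : Type*} [CommRing R] [CommRing S] [IsLocalRing R] [IsLocalRing S]
  [IsNoetherianRing R] [Algebra R S] [Module.Flat R S]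
variable {ι : Type*} [DecidableEq ι] [Nontrivial ι] (x : ι → S)

theorem lemmaX_step (q : Ideal R) (w j : ℕ) (hjw : j < w)
    (hgen : maximalIdeal S = (maximalIdeal R).map (algebraMap R S) ⊔ Ideal.span (Set.range x))
    (hind : ∀ p : MvPolynomial ι S, p.IsHomogeneous (j + 1) →
      eval x p ∈ (maximalIdeal R).map (algebraMap R S) → ∀ δ, coeff δ p ∈ maximalIdeal S)
    (h : ∀ α : ι →₀ ℕ, α.degree = w → mon x α ∈ q.map (algebraMap R S) *
      (maximalIdeal S ^ j ⊔ (maximalIdeal R).map (algebraMap R S))) :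
    ∀ α : ι →₀ ℕ, α.degree = w → mon x α ∈ q.map (algebraMap R S) *
      (maximalIdeal S ^ (j + 1) ⊔ (maximalIdeal R).map (algebraMap R S)) := by
  set I := (maximalIdeal R).map (algebraMap R S) with hI
  obtain ⟨μ, a, ha, hmin⟩ := exists_minimal_generators_ideal q
  have hmap : q.map (algebraMap R S) =
      Ideal.span (Set.range fun i => algebraMap R S (a i)) := by
    rw [← ha, Ideal.map_span, ← Set.range_comp]
    rfl
  have hx : ∀ i, x i ∈ maximalIdeal S := fun i => by
    rw [hgen]
    exact Ideal.mem_sup_right (Ideal.subset_span ⟨i, rfl⟩)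
  have hnj : maximalIdeal S ^ j ⊔ I ≤ Ideal.span (Set.range x) ^ j ⊔ I := by
    apply sup_le _ le_sup_right
    rw [hgen, sup_comm]
    exact sup_pow_le _ _ j
  have hrep : ∀ α : ι →₀ ℕ, ∃ (P : Fin μ → MvPolynomial ι S) (e : Fin μ → S), α.degree = w →
      (∀ i, (P i).IsHomogeneous j) ∧ (∀ i, e i ∈ I) ∧
        ∑ i, algebraMap R S (a i) * (eval x (P i) + e i) = mon x α := by
    intro α
    by_cases hα : α.degree = w
    · obtain ⟨s, hs, hsum⟩ := exists_of_mem_span_range_mul _ _ _ (hmap ▸ h α hα)
      have : ∀ i, ∃ (P : MvPolynomial ι S) (e : S), P.IsHomogeneous j ∧ e ∈ I ∧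
          eval x P + e = s i := by
        intro i
        obtain ⟨u, hu, e, he, hue⟩ := Submodule.mem_sup.1 (hnj (hs i))
        obtain ⟨P, hP, hPu⟩ := (Ideal.mem_span_pow_iff_exists_isHomogeneous x u).1 hu
        exact ⟨P, e, hP, he, by rw [hPu, hue]⟩
      choose P e hP he hPe using this
      exact ⟨P, e, fun _ => ⟨hP, he, by simp only [hPe, hsum]⟩⟩
    · exact ⟨0, 0, fun h => absurd h hα⟩
  choose P e hPe using hrep
  have hex : ∀ (i : Fin μ) (a' b' : ι) (γ : ι →₀ ℕ), γ.degree + 1 = w → ∀ δ,
      coeff δ (P (γ + single a' 1) i * X b' - P (γ + single b' 1) i * X a') ∈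
        maximalIdeal S := by
    intro i a' b' γ hγ
    have d1 : (γ + single a' 1).degree = w := by rw [map_add, degree_single]; exact hγ
    have d2 : (γ + single b' 1).degree = w := by rw [map_add, degree_single]; exact hγ
    obtain ⟨h11, h12, h13⟩ := hPe _ d1
    obtain ⟨h21, h22, h23⟩ := hPe _ d2
    apply hind
    · exact ((h11 i).mul (isHomogeneous_X _ _)).sub ((h21 i).mul (isHomogeneous_X _ _))
    · have hrel : ∑ k, algebraMap R S (a k) *
          ((eval x (P (γ + single a' 1) k) + e (γ + single a' 1) k) * x b' -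
            (eval x (P (γ + single b' 1) k) + e (γ + single b' 1) k) * x a') = 0 := by
        have e1 : ∑ k, algebraMap R S (a k) *
          ((eval x (P (γ + single a' 1) k) + e (γ + single a' 1) k) * x b' -
            (eval x (P (γ + single b' 1) k) + e (γ + single b' 1) k) * x a') =
            (∑ k, algebraMap R S (a k) *
              (eval x (P (γ + single a' 1) k) + e (γ + single a' 1) k)) * x b' -
            (∑ k, algebraMap R S (a k) *
              (eval x (P (γ + single b' 1) k) + e (γ + single b' 1) k)) * x a' := by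
          rw [Finset.sum_mul, Finset.sum_mul, ← Finset.sum_sub_distrib]
          exact Finset.sum_congr rfl (fun k _ => by ring)
        rw [e1, h13, h23, mon_add_single, mon_add_single]
        ring
      have h3 := coeff_mem_map_of_relation hmin _ hrel i
      have e2 : eval x (P (γ + single a' 1) i * X b' - P (γ + single b' 1) i * X a') =
          ((eval x (P (γ + single a' 1) i) + e (γ + single a' 1) i) * x b' -
            (eval x (P (γ + single b' 1) i) + e (γ + single b' 1) i) * x a') -
          (e (γ + single a' 1) i * x b' - e (γ + single b' 1) i * x a') := by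
        simp only [map_sub, map_mul, eval_X]
        ring
      rw [e2]
      exact I.sub_mem h3 (I.sub_mem (I.mul_mem_right _ (h12 i)) (I.mul_mem_right _ (h22 i)))
  intro α hα
  obtain ⟨h1, h2, h3⟩ := hPe α hα
  rw [← h3, hmap]
  refine Ideal.sum_mem _ (fun i _ => ?_)
  have hbi : algebraMap R S (a i) ∈ Ideal.span (Set.range fun i => algebraMap R S (a i)) :=
    Ideal.subset_span ⟨i, rfl⟩
  apply Ideal.mul_mem_mul hbi
  apply Ideal.add_mem _ (Ideal.mem_sup_left ?_) (Ideal.mem_sup_right (h2 i))
  rw [pow_succ']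
  apply eval_mem_mul x (maximalIdeal S) (maximalIdeal S ^ j) j (P α i) (h1 i)
  · intro d
    by_cases hd : d.degree = j
    · exact comb_lemma (maximalIdeal S) w (fun α => P α i) (hex i) α d hα (by omega)
    · rw [(h1 i).coeff_eq_zero hd]
      exact zero_mem _
  · intro d hd
    rw [← hd]
    exact mon_mem_pow x _ hx d

theorem lemmaX (q : Ideal R) (w c : ℕ)
    (hgen : maximalIdeal S = (maximalIdeal R).map (algebraMap R S) ⊔ Ideal.span (Set.range x))
    (hind : ∀ j < c, ∀ p : MvPolynomial ι S, p.IsHomogeneous j →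
      eval x p ∈ (maximalIdeal R).map (algebraMap R S) ⊔ maximalIdeal S ^ (j + 1) →
        ∀ δ, coeff δ p ∈ maximalIdeal S)
    (h : ∀ α : ι →₀ ℕ, α.degree = w → mon x α ∈ q.map (algebraMap R S)) (j : ℕ) (hjc : j < c)
    (hjw : j ≤ w) :
    ∀ α : ι →₀ ℕ, α.degree = w → mon x α ∈ q.map (algebraMap R S) *
      (maximalIdeal S ^ j ⊔ (maximalIdeal R).map (algebraMap R S)) := by
  induction j with
  | zero =>
    intro α hα
    simpa using h α hα
  | succ j ih =>
    apply lemmaX_step x q w j (by omega) hgen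
    · intro p hp hpe
      exact hind (j + 1) hjc p hp (Ideal.mem_sup_left hpe)
    · exact ih (by omega) (by omega)

end LemmaX

section Power

variable {R S : Type*} [CommRing R] [CommRing S] [IsLocalRing R] [IsLocalRing S]
  [IsNoetherianRing R] [Algebra R S] [IsLocalHom (algebraMap R S)] [Module.Flat R S]
variable {ι : Type*} [DecidableEq ι] [Nontrivial ι] (x : ι → S)

theorem trunc_pow_le (c t v : ℕ) (hc : 1 ≤ c) (hv : v + c = t)
    (hgen : maximalIdeal S = (maximalIdeal R).map (algebraMap R S) ⊔ Ideal.span (Set.range x))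
    (hind : ∀ j < c, ∀ p : MvPolynomial ι S, p.IsHomogeneous j →
      eval x p ∈ (maximalIdeal R).map (algebraMap R S) ⊔ maximalIdeal S ^ (j + 1) →
        ∀ δ, coeff δ p ∈ maximalIdeal S)
    (hfib : maximalIdeal S ^ t ≤ (maximalIdeal R).map (algebraMap R S)) (k : ℕ) :
    maximalIdeal S ^ (t + k * (v + 1)) ≤ ((maximalIdeal R).map (algebraMap R S)) ^ (k + 1) := by
  set I := (maximalIdeal R).map (algebraMap R S) with hI
  set n := maximalIdeal S with hn
  have hIn : I ≤ n := map_maximalIdeal_le (algebraMap R S)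
  have hx : ∀ i, x i ∈ n := fun i => by
    rw [hgen]
    exact Ideal.mem_sup_right (Ideal.subset_span ⟨i, rfl⟩)
  have hXn : Ideal.span (Set.range x) ≤ n := by
    rw [Ideal.span_le]
    rintro _ ⟨i, rfl⟩
    exact hx i
  induction k with
  | zero => simpa using hfib
  | succ k ih =>
    set A := t + k * (v + 1) with hA
    have hAe : t + (k + 1) * (v + 1) = A + v + 1 := by rw [hA]; ring
    rw [hAe]
    have h0 : n ^ (A + v + 1) ≤
        Ideal.span (Set.range x) ^ (A + v + 1) ⊔ I * n ^ (A + v) := by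
      have := sup_pow_succ_le (Ideal.span (Set.range x)) I (A + v)
      rwa [sup_comm, ← hgen] at this
    refine h0.trans (sup_le ?_ ?_)
    · -- the monomial part
      have hmonQ : ∀ α : ι →₀ ℕ, α.degree = A →
          mon x α ∈ (maximalIdeal R ^ (k + 1)).map (algebraMap R S) := by
        intro α hα
        rw [Ideal.map_pow]
        apply ih
        rw [← hα]
        exact mon_mem_pow x n hx α
      have hX := lemmaX x (maximalIdeal R ^ (k + 1)) A c hgen hind hmonQ (c - 1) (by omega)
        (by rw [hA]; have : 0 ≤ k * (v + 1) := Nat.zero_le _; omega)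
      rw [Ideal.map_pow] at hX
      have hXA : Ideal.span (Set.range x) ^ A ≤ I ^ (k + 1) * (n ^ (c - 1) ⊔ I) := by
        intro z hz
        obtain ⟨p, hp, rfl⟩ := (Ideal.mem_span_pow_iff_exists_isHomogeneous x z).1 hz
        have := eval_mem_mul x ⊤ (I ^ (k + 1) * (n ^ (c - 1) ⊔ I)) A p hp (fun _ => trivial) hX
        rwa [Ideal.top_mul] at this
      calc Ideal.span (Set.range x) ^ (A + v + 1)
          = Ideal.span (Set.range x) ^ A * Ideal.span (Set.range x) ^ (v + 1) := by
            rw [← pow_add, add_assoc]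
        _ ≤ (I ^ (k + 1) * (n ^ (c - 1) ⊔ I)) * n ^ (v + 1) :=
            Ideal.mul_mono hXA (Ideal.pow_right_mono hXn _)
        _ = I ^ (k + 1) * (n ^ (c - 1) * n ^ (v + 1) ⊔ I * n ^ (v + 1)) := by
            rw [mul_assoc, Ideal.sup_mul]
        _ ≤ I ^ (k + 1) * I := by
            apply Ideal.mul_mono_right
            apply sup_le _ Ideal.mul_le_left
            rw [← pow_add]
            have : c - 1 + (v + 1) = t := by omega
            rw [this]
            exact hfib
        _ = I ^ (k + 1 + 1) := (pow_succ _ _).symm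
    · calc I * n ^ (A + v) ≤ I * n ^ A :=
            Ideal.mul_mono_right (Ideal.pow_le_pow_right (Nat.le_add_right _ _))
        _ ≤ I * I ^ (k + 1) := Ideal.mul_mono_right ih
        _ = I ^ (k + 1 + 1) := (pow_succ' _ _).symm

end Power

end Vale.Agent.P202
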