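import Vale.Agent.Lib.P202.Principal
import Vale.Agent.Lib.P202.Trunc

/-!
# P202: normally flat ideals (all powers generated by families whose relations lie in the ideal)
-/

namespace Vale.Agent.P202

open IsLocalRing

section LengthG

variable {B : Type*} [CommRing B]

theorem length_quot_ge_add_cyclic {A c : Ideal B} (b : B) (h : ∀ z ∈ c, b * z ∈ A)
    (h' : ∀ z, b * z ∈ A → z ∈ c) :
    Module.length B (B ⧸ (A ⊔ Ideal.span {b})) + Module.length B (B ⧸ c) ≤
      Module.length B (B ⧸ A) := by
  rw [length_quot_eq_add (le_sup_left : A ≤ A ⊔ Ideal.span {b}), add_comm]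
  gcongr
  let φ : (B ⧸ c) →ₗ[B] (B ⧸ A) :=
    Submodule.mapQ c A (LinearMap.mulLeft B b) (fun z hz => h z hz)
  have hφ : Function.Injective φ := by
    rw [← LinearMap.ker_eq_bot, LinearMap.ker_eq_bot']
    intro z hz
    obtain ⟨z, rfl⟩ := Submodule.mkQ_surjective c z
    have e1 : φ (Submodule.mkQ c z) = Submodule.mkQ A (b * z) := rfl
    rw [e1, Submodule.mkQ_apply, Submodule.Quotient.mk_eq_zero] at hz
    rw [Submodule.mkQ_apply, Submodule.Quotient.mk_eq_zero]
    exact h' z hz
  have hrange : ∀ z, φ z ∈ Submodule.map (Submodule.mkQ A) (A ⊔ Ideal.span {b}) := by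
    intro z
    obtain ⟨z, rfl⟩ := Submodule.mkQ_surjective c z
    exact ⟨b * z, Ideal.mem_sup_right (Ideal.mul_mem_right _ _ (Ideal.mem_span_singleton_self b)),
      rfl⟩
  exact Module.length_le_of_injective (φ.codRestrict _ hrange)
    (fun u v huv => hφ (congrArg Subtype.val huv))

theorem span_range_cons {s : ℕ} (q : Fin (s + 1) → B) :
    Ideal.span (Set.range q) = Ideal.span {q 0} ⊔ Ideal.span (Set.range (Fin.tail q)) := by
  rw [← Ideal.span_union]
  congr 1
  ext z
  constructor
  · rintro ⟨i, rfl⟩
    rcases Fin.eq_zero_or_eq_succ i with h | ⟨j, h⟩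
    · left; rw [h]; rfl
    · right; exact ⟨j, by rw [h]; rfl⟩
  · rintro (h | ⟨j, rfl⟩)
    · exact ⟨0, h.symm⟩
    · exact ⟨j.succ, rfl⟩

/-- upper bound: adding `s` generators killed by `c` modulo `A` -/
theorem length_le_add_gens (c : Ideal B) : ∀ (s : ℕ) (q : Fin s → B) (A : Ideal B),
    (∀ i, ∀ z ∈ c, q i * z ∈ A) →
    Module.length B (B ⧸ A) ≤
      Module.length B (B ⧸ (A ⊔ Ideal.span (Set.range q))) + s * Module.length B (B ⧸ c) := by
  intro s
  induction s with
  | zero =>
    intro q A _
    have : Set.range q = ∅ := Set.range_eq_empty q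
    rw [this, Ideal.span_empty, sup_bot_eq]
    simp
  | succ s ih =>
    intro q A h
    have h1 := length_quot_le_add_cyclic (A := A) (c := c) (q 0) (h 0)
    have h2 := ih (Fin.tail q) (A ⊔ Ideal.span {q 0})
      (fun i z hz => Ideal.mem_sup_left (h i.succ z hz))
    rw [sup_assoc, ← span_range_cons] at h2
    calc Module.length B (B ⧸ A)
        ≤ Module.length B (B ⧸ (A ⊔ Ideal.span {q 0})) + Module.length B (B ⧸ c) := h1
      _ ≤ (Module.length B (B ⧸ (A ⊔ Ideal.span (Set.range q))) +
            s * Module.length B (B ⧸ c)) + Module.length B (B ⧸ c) := by gcongr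
      _ = Module.length B (B ⧸ (A ⊔ Ideal.span (Set.range q))) +
            ((s + 1 : ℕ) : ℕ∞) * Module.length B (B ⧸ c) := by
          push_cast
          ring

/-- lower bound: adding `s` generators that are independent modulo `A` -/
theorem length_ge_add_gens (c : Ideal B) : ∀ (s : ℕ) (q : Fin s → B) (A : Ideal B),
    (∀ i, ∀ z ∈ c, q i * z ∈ A) →
    (∀ e : Fin s → B, ∑ i, q i * e i ∈ A → ∀ i, e i ∈ c) →
    Module.length B (B ⧸ (A ⊔ Ideal.span (Set.range q))) + s * Module.length B (B ⧸ c) ≤
      Module.length B (B ⧸ A) := by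
  intro s
  induction s with
  | zero =>
    intro q A _ _
    have : Set.range q = ∅ := Set.range_eq_empty q
    rw [this, Ideal.span_empty, sup_bot_eq]
    simp
  | succ s ih =>
    intro q A h hind
    have h1 := length_quot_ge_add_cyclic (A := A) (c := c) (q 0) (h 0) (by
      intro z hz
      have := hind (Fin.cons z 0) (by
        rw [Fin.sum_univ_succ]
        simpa using hz) 0
      simpa using this)
    have h2 := ih (Fin.tail q) (A ⊔ Ideal.span {q 0})
      (fun i z hz => Ideal.mem_sup_left (h i.succ z hz)) (by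
        intro e he i
        obtain ⟨α, hα, w, hw, hsum⟩ := Submodule.mem_sup.1 he
        obtain ⟨z, rfl⟩ := Ideal.mem_span_singleton'.1 hw
        have := hind (Fin.cons (-z) e) (by
          rw [Fin.sum_univ_succ]
          simp only [Fin.cons_zero, Fin.cons_succ]
          have e1 : q 0 * -z + ∑ i : Fin s, q i.succ * e i = α := by
            have : ∑ i : Fin s, q i.succ * e i = ∑ i, Fin.tail q i * e i := rfl
            rw [this, ← hsum]
            ring
          rw [e1]
          exact hα) i.succ
        simpa using this)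
    rw [sup_assoc, ← span_range_cons] at h2
    calc Module.length B (B ⧸ (A ⊔ Ideal.span (Set.range q))) +
          ((s + 1 : ℕ) : ℕ∞) * Module.length B (B ⧸ c)
        = (Module.length B (B ⧸ (A ⊔ Ideal.span (Set.range q))) +
            s * Module.length B (B ⧸ c)) + Module.length B (B ⧸ c) := by
          push_cast
          ring
      _ ≤ Module.length B (B ⧸ (A ⊔ Ideal.span {q 0})) + Module.length B (B ⧸ c) := by gcongr
      _ ≤ Module.length B (B ⧸ A) := h1

end LengthG

end Vale.Agent.P202
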