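import Vale.Agent.Lib.P202.NFBasic
import Vale.Agent.Lib.P202.TruncMain

/-!
# P202: the ideal `𝔪 S + x S`

For a flat local homomorphism with Artinian closed fibre and any `x ∈ 𝔫`, the ideal
`J = 𝔪 S + x S` satisfies `ℓ(S/J) ℓ(R/𝔪^N) ≤ ℓ(S/J^N)`.
-/

namespace Vale.Agent.P202

set_option linter.unusedSectionVars false

open IsLocalRing Filter Topology

variable {R S : Type*} [CommRing R] [CommRing S] [IsLocalRing R] [IsLocalRing S]
  [IsNoetherianRing R] [IsNoetherianRing S]
  [Algebra R S] [IsLocalHom (algebraMap R S)] [Module.Flat R S]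

theorem one_elt_arith (lam c0 rho L0 L1 D0 D1 P u v : ℕ) (F1 : L1 * lam = u + D1)
    (F2 : P = v + D0)
    (F3 : u ≤ v) (F4 : P + L0 * c0 ≤ L0 * lam + L1 * c0) (F5 : rho + c0 ≤ lam) (F7 : L0 ≤ L1) :
    D0 + rho * L1 ≤ D1 + rho * L0 := by
  zify at *
  nlinarith [mul_nonneg (sub_nonneg.2 F7) (sub_nonneg.2 F5)]

theorem one_elt_step (x : S)
    (t : ℕ) (ht : maximalIdeal S ^ t ≤ (maximalIdeal R).map (algebraMap R S)) (j : ℕ) :
    (Module.length S (S ⧸ ((maximalIdeal R).map (algebraMap R S) ⊔ Ideal.span {x}) ^ j)).toNat +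
        (Module.length S (S ⧸ ((maximalIdeal R).map (algebraMap R S) ⊔ Ideal.span {x}))).toNat *
        (Module.length R (R ⧸ maximalIdeal R ^ (j + 1))).toNat ≤
      (Module.length S
          (S ⧸ ((maximalIdeal R).map (algebraMap R S) ⊔ Ideal.span {x}) ^ (j + 1))).toNat +
        (Module.length S (S ⧸ ((maximalIdeal R).map (algebraMap R S) ⊔ Ideal.span {x}))).toNat *
        (Module.length R (R ⧸ maximalIdeal R ^ j)).toNat := by
  set I := (maximalIdeal R).map (algebraMap R S) with hI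
  set n := maximalIdeal S with hndef
  set J := I ⊔ Ideal.span {x} with hJ
  have hIJ : I ≤ J := le_sup_left
  set c : Ideal S := Submodule.comap (LinearMap.mulLeft S x) I with hc
  have hmemc : ∀ z, z ∈ c ↔ x * z ∈ I := by
    intro z
    rfl
  set Z : Ideal S := I ^ j * c with hZ
  have hIc : I ≤ c := by
    intro z hz
    rw [hmemc]
    exact Ideal.mul_mem_left _ _ hz
  have hxc : Ideal.span {x} * c ≤ I := by
    rw [Ideal.span_singleton_mul_le_iff]
    intro z hz
    exact (hmemc z).1 hz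
  have hIZ : I ^ (j + 1) ≤ Z := by
    rw [pow_succ]
    exact Ideal.mul_mono_right hIc
  have hZn : Z ≤ J ^ j := Ideal.mul_le_left.trans (Ideal.pow_right_mono hIJ j)
  have hpow : ∀ k, n ^ (t * k) ≤ I ^ k := fun k => by
    rw [pow_mul]
    exact Ideal.pow_right_mono ht k
  -- the facts
  have F1 := length_quot_eq_add (Ideal.pow_right_mono hIJ (j + 1))
  have F2 := length_quot_eq_add hZn
  have F3 : Module.length S ↥(Submodule.map (Submodule.mkQ (I ^ (j + 1))) (J ^ (j + 1))) ≤
      Module.length S ↥(Submodule.map (Submodule.mkQ Z) (J ^ j)) := by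
    apply length_transfer x
    · intro z hz
      have h1 : x * z ∈ Ideal.span {x} * Z :=
        Ideal.mul_mem_mul (Ideal.mem_span_singleton_self x) hz
      have h2 : Ideal.span {x} * Z ≤ I ^ (j + 1) := by
        rw [hZ, ← mul_assoc, mul_comm (Ideal.span {x}), mul_assoc, pow_succ]
        exact Ideal.mul_mono_right hxc
      exact h2 h1
    · exact pow_succ_le_of_principal I J x hJ j
  have F4 := chain_bound (S := S) (maximalIdeal R ^ j) c (maximalIdeal R ^ (j + 1))
    (Ideal.pow_le_pow_right (Nat.le_succ j))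
  have hsup : (maximalIdeal R ^ (j + 1)).map (algebraMap R S) ⊔
      (maximalIdeal R ^ j).map (algebraMap R S) * c = Z := by
    rw [Ideal.map_pow, Ideal.map_pow]
    exact sup_eq_right.2 hIZ
  rw [hsup] at F4
  have F5 := length_quot_ge_add_cyclic (A := I) (c := c) x (fun z hz => (hmemc z).1 hz)
    (fun z hz => (hmemc z).2 hz)
  rw [← hJ] at F5
  have F6 : ∀ k, Module.length S (S ⧸ I ^ k) =
      Module.length R (R ⧸ maximalIdeal R ^ k) * Module.length S (S ⧸ I) := fun k => by
    rw [hI, ← Ideal.map_pow, length_quotient_map]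
  have F7 : Module.length R (R ⧸ maximalIdeal R ^ j) ≤
      Module.length R (R ⧸ maximalIdeal R ^ (j + 1)) :=
    length_quotient_mono (Ideal.pow_le_pow_right (Nat.le_succ j))
  rw [F6] at F1
  rw [Ideal.map_pow, F6] at F4
  -- finiteness
  have f1 : Module.length S (S ⧸ I) ≠ ⊤ := length_quotient_ne_top _ t ht
  have f2 : Module.length S (S ⧸ c) ≠ ⊤ := length_quotient_ne_top _ t (ht.trans hIc)
  have f3 : Module.length R (R ⧸ maximalIdeal R ^ j) ≠ ⊤ := length_quotient_ne_top _ j le_rfl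
  have f4 : Module.length R (R ⧸ maximalIdeal R ^ (j + 1)) ≠ ⊤ :=
    length_quotient_ne_top _ (j + 1) le_rfl
  have f5 : Module.length S (S ⧸ J ^ j) ≠ ⊤ :=
    length_quotient_ne_top _ (t * j) ((hpow j).trans (Ideal.pow_right_mono hIJ j))
  have f6 : Module.length S (S ⧸ J ^ (j + 1)) ≠ ⊤ :=
    length_quotient_ne_top _ (t * (j + 1)) ((hpow (j + 1)).trans (Ideal.pow_right_mono hIJ (j + 1)))
  have f7 : Module.length S (S ⧸ Z) ≠ ⊤ :=
    length_quotient_ne_top _ (t * (j + 1)) ((hpow (j + 1)).trans hIZ)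
  have f8 : Module.length S ↥(Submodule.map (Submodule.mkQ Z) (J ^ j)) ≠ ⊤ := by
    intro h
    rw [h, top_add] at F2
    exact f7 F2
  have f9 : Module.length S ↥(Submodule.map (Submodule.mkQ (I ^ (j + 1))) (J ^ (j + 1))) ≠ ⊤ :=
    ne_top_of_le_ne_top f8 F3
  have f10 : Module.length S (S ⧸ J) ≠ ⊤ := length_quotient_ne_top _ t (ht.trans hIJ)
  lift Module.length S (S ⧸ I) to ℕ using f1 with lam
  lift Module.length S (S ⧸ c) to ℕ using f2 with c0
  lift Module.length S (S ⧸ J) to ℕ using f10 with rho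
  lift Module.length R (R ⧸ maximalIdeal R ^ j) to ℕ using f3 with L0
  lift Module.length R (R ⧸ maximalIdeal R ^ (j + 1)) to ℕ using f4 with L1
  lift Module.length S (S ⧸ J ^ j) to ℕ using f5 with D0
  lift Module.length S (S ⧸ J ^ (j + 1)) to ℕ using f6 with D1
  lift Module.length S (S ⧸ Z) to ℕ using f7 with P
  lift Module.length S ↥(Submodule.map (Submodule.mkQ Z) (J ^ j)) to ℕ using f8 with v
  lift Module.length S ↥(Submodule.map (Submodule.mkQ (I ^ (j + 1))) (J ^ (j + 1))) to ℕ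
    using f9 with u
  simp only [ENat.toNat_natCast]
  norm_cast at F1 F2 F3 F4 F5 F7
  exact one_elt_arith lam c0 rho L0 L1 D0 D1 P u v F1 F2 F3 F4 F5 F7

/-- `ℓ(S/J) ℓ(R/𝔪^N) ≤ ℓ(S/J^N)` for `J = 𝔪 S + x S`. -/
theorem hs_one_elt (x : S)
    (t : ℕ) (ht : maximalIdeal S ^ t ≤ (maximalIdeal R).map (algebraMap R S)) (N : ℕ) :
    (Module.length S (S ⧸ ((maximalIdeal R).map (algebraMap R S) ⊔ Ideal.span {x}))).toNat *
        (Module.length R (R ⧸ maximalIdeal R ^ N)).toNat ≤
      (Module.length S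
        (S ⧸ ((maximalIdeal R).map (algebraMap R S) ⊔ Ideal.span {x}) ^ N)).toNat := by
  induction N with
  | zero =>
    have : Subsingleton (R ⧸ maximalIdeal R ^ 0) := by
      rw [pow_zero, Ideal.one_eq_top]
      exact Ideal.Quotient.subsingleton_iff.2 rfl
    simp [Module.length_eq_zero]
  | succ j ih =>
    have := one_elt_step (R := R) x t ht j
    omega

theorem pow_add_le_of_reduction {B : Type*} [CommRing B] (J n : Ideal B) (j : ℕ)
    (h : n ^ (j + 1) ≤ J * n ^ j) (k : ℕ) : n ^ (k + j) ≤ J ^ k * n ^ j := by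
  induction k with
  | zero => simp
  | succ k ih =>
    calc n ^ (k + 1 + j) = n * n ^ (k + j) := by rw [← pow_succ']; congr 1; omega
      _ ≤ n * (J ^ k * n ^ j) := Ideal.mul_mono_right ih
      _ = J ^ k * n ^ (j + 1) := by rw [pow_succ' n j]; ring
      _ ≤ J ^ k * (J * n ^ j) := Ideal.mul_mono_right h
      _ = J ^ (k + 1) * n ^ j := by rw [pow_succ]; ring

/-- **Theorem P.** If `𝔪 S + x S` is a reduction of `𝔫`, then
`ℓ(S/(𝔪 S + x S)) e(R) ≤ e(S)`. -/
theorem lech_one_elt (x : S)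
    (t : ℕ) (ht : maximalIdeal S ^ t ≤ (maximalIdeal R).map (algebraMap R S))
    (j : ℕ) (hred : maximalIdeal S ^ (j + 1) ≤
      ((maximalIdeal R).map (algebraMap R S) ⊔ Ideal.span {x}) * maximalIdeal S ^ j)
    (eR eS : ℝ) (hR : IsHSMultiplicity R eR) (hS : IsHSMultiplicity S eS) :
    ((Module.length S
      (S ⧸ ((maximalIdeal R).map (algebraMap R S) ⊔ Ideal.span {x}))).toNat : ℝ) * eR ≤ eS := by
  obtain ⟨d1, hd1, hR⟩ := hR
  obtain ⟨d2, hd2, hS⟩ := hS
  have hdim := ringKrullDim_eq_of_pow_le (R := R) (S := S) t ht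
  have e2 : d2 = d1 := by
    have : ((d2 : ℕ∞) : WithBot ℕ∞) = ((d1 : ℕ∞) : WithBot ℕ∞) := by
      have := hd2.symm.trans (hdim.trans hd1)
      exact_mod_cast this
    exact_mod_cast this
  rw [e2] at hS
  have key : ∀ k, (Module.length S
      (S ⧸ ((maximalIdeal R).map (algebraMap R S) ⊔ Ideal.span {x}))).toNat *
        (Module.length R (R ⧸ maximalIdeal R ^ k)).toNat ≤
      (Module.length S (S ⧸ maximalIdeal S ^ (k * 1 + j))).toNat := by
    intro k
    refine (hs_one_elt (R := R) x t ht k).trans ?_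
    apply ENat.toNat_le_toNat
    · apply length_quotient_mono
      rw [mul_one]
      exact (pow_add_le_of_reduction _ _ j hred k).trans Ideal.mul_le_left
    · exact length_quotient_ne_top _ _ le_rfl
  have := limit_compare_off d1 1 j le_rfl _ _ _ key eR eS hR hS
  simpa using this

end Vale.Agent.P202
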