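import Vale.Agent.Lib.P202.T1Defs

/-!
# P202: basic lemmas on `J • ⊤`, finite powers of a module and lengths
-/

namespace Vale.Agent.P202

universe u v

variable {S : Type u} [CommRing S] {M : Type v} [AddCommGroup M] [Module S M]

/-- linear maps preserve `J • ⊤` -/
theorem map_mem_smul_top {M' : Type*} [AddCommGroup M'] [Module S M'] (J : Ideal S)
    (f : M →ₗ[S] M') {m : M} (hm : m ∈ J • (⊤ : Submodule S M)) :
    f m ∈ J • (⊤ : Submodule S M') := by
  have h : (J • (⊤ : Submodule S M)).map f ≤ J • (⊤ : Submodule S M') := by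
    rw [Submodule.map_smul'']
    exact Submodule.smul_mono le_rfl le_top
  exact h ⟨m, hm, rfl⟩

theorem mem_smul_top_pi {ι : Type*} [Finite ι] (J : Ideal S) (m : ι → M) :
    m ∈ J • (⊤ : Submodule S (ι → M)) ↔ ∀ i, m i ∈ J • (⊤ : Submodule S M) := by
  classical
  cases nonempty_fintype ι
  constructor
  · intro h i
    exact map_mem_smul_top J (LinearMap.proj i) h
  · intro h
    have : m = ∑ i, LinearMap.single S (fun _ => M) i (m i) := by
      ext j
      simp [Finset.sum_apply, Pi.single_apply]
    rw [this]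
    exact Submodule.sum_mem _ fun i _ => map_mem_smul_top J _ (h i)

theorem smul_top_sup_pi {ι : Type*} [Finite ι] (J : Ideal S) (A : Submodule S M) :
    J • (⊤ : Submodule S (ι → M)) ⊔ Submodule.pi Set.univ (fun _ : ι => A) =
      Submodule.pi Set.univ (fun _ : ι => J • (⊤ : Submodule S M) ⊔ A) := by
  classical
  apply le_antisymm
  · apply sup_le
    · intro m hm i _
      exact Submodule.mem_sup_left ((mem_smul_top_pi J m).1 hm i)
    · intro m hm i _
      exact Submodule.mem_sup_right (hm i trivial)
  · intro m hm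
    have h : ∀ i, ∃ y ∈ J • (⊤ : Submodule S M), ∃ α ∈ A, y + α = m i := fun i =>
      Submodule.mem_sup.1 (hm i trivial)
    choose y hy α hα hsum using h
    have : m = y + α := by
      ext i
      exact (hsum i).symm
    rw [this]
    exact Submodule.add_mem_sup ((mem_smul_top_pi J y).2 hy) (fun i _ => hα i)

theorem length_quot_pi {ι : Type*} [Fintype ι] (B : Submodule S M) :
    Module.length S ((ι → M) ⧸ Submodule.pi Set.univ (fun _ : ι => B)) =
      Fintype.card ι * Module.length S (M ⧸ B) := by
  classical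
  rw [(Submodule.quotientPi (fun _ : ι => B)).length_eq, Module.length_pi_of_fintype]
  simp

/-- elements of `(span (range a)) • ⊤` are combinations of the `a i` -/
theorem exists_sum_of_mem_span_smul_top {r : ℕ} (a : Fin r → S) {m : M}
    (hm : m ∈ (Ideal.span (Set.range a)) • (⊤ : Submodule S M)) :
    ∃ v : Fin r → M, m = ∑ i, a i • v i := by
  induction hm using Submodule.smul_induction_on' with
  | smul s hs x _ =>
    obtain ⟨c, hc⟩ := (Ideal.mem_span_range_iff_exists_fun).1 hs
    refine ⟨fun i => c i • x, ?_⟩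
    rw [← hc, Finset.sum_smul]
    apply Finset.sum_congr rfl
    intro i _
    rw [smul_smul, mul_comm]
  | add x _ y _ hx hy =>
    obtain ⟨v, hv⟩ := hx
    obtain ⟨v', hv'⟩ := hy
    refine ⟨v + v', ?_⟩
    rw [hv, hv', ← Finset.sum_add_distrib]
    simp [smul_add]

theorem sum_smul_mem_span_smul_top {r : ℕ} (a : Fin r → S) (v : Fin r → M) :
    ∑ i, a i • v i ∈ (Ideal.span (Set.range a)) • (⊤ : Submodule S M) :=
  Submodule.sum_mem _ fun i _ =>
    Submodule.smul_mem_smul (Ideal.subset_span ⟨i, rfl⟩) Submodule.mem_top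

theorem length_quot_mono' {P Q : Submodule S M} (h : P ≤ Q) :
    Module.length S (M ⧸ Q) ≤ Module.length S (M ⧸ P) :=
  Module.length_le_of_surjective (Submodule.factor h) (Submodule.factor_surjective h)

/-- lower bound for a length: `ℓ(M/(P + f M)) + ℓ(M/C) ≤ ℓ(M/P)` if `f⁻¹ P ⊆ C` -/
theorem length_quot_ge_add_range (f : M →ₗ[S] M) (P C : Submodule S M)
    (h : ∀ m, f m ∈ P → m ∈ C) :
    Module.length S (M ⧸ (P ⊔ LinearMap.range f)) + Module.length S (M ⧸ C) ≤
      Module.length S (M ⧸ P) := by
  have hle : P ≤ P ⊔ LinearMap.range f := le_sup_left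
  have hex := Module.length_eq_add_of_exact
    (LinearMap.ker (Submodule.factor hle)).subtype (Submodule.factor hle)
    (Submodule.subtype_injective _) (Submodule.factor_surjective hle)
    (LinearMap.exact_subtype_ker_map _)
  rw [hex, add_comm]
  gcongr
  -- `M / f⁻¹ P` embeds in the kernel
  let φ : (M ⧸ P.comap f) →ₗ[S] (M ⧸ P) := Submodule.mapQ (P.comap f) P f le_rfl
  have hφ : Function.Injective φ := by
    rw [← LinearMap.ker_eq_bot, LinearMap.ker_eq_bot']
    intro z hz
    obtain ⟨z, rfl⟩ := Submodule.mkQ_surjective _ z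
    have e1 : φ (Submodule.mkQ _ z) = Submodule.mkQ P (f z) := rfl
    rw [e1, Submodule.mkQ_apply, Submodule.Quotient.mk_eq_zero] at hz
    rw [Submodule.mkQ_apply, Submodule.Quotient.mk_eq_zero]
    exact hz
  have hker : ∀ z, φ z ∈ LinearMap.ker (Submodule.factor hle) := by
    intro z
    obtain ⟨z, rfl⟩ := Submodule.mkQ_surjective _ z
    have e1 : φ (Submodule.mkQ _ z) = Submodule.mkQ P (f z) := rfl
    rw [e1, LinearMap.mem_ker, Submodule.factor_mk, Submodule.mkQ_apply,
      Submodule.Quotient.mk_eq_zero]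
    exact Submodule.mem_sup_right ⟨z, rfl⟩
  calc Module.length S (M ⧸ C) ≤ Module.length S (M ⧸ P.comap f) :=
        length_quot_mono' (fun m hm => h m hm)
    _ ≤ Module.length S (LinearMap.ker (Submodule.factor hle)) :=
        Module.length_le_of_injective (φ.codRestrict _ hker)
          (fun u v huv => hφ (congrArg Subtype.val huv))

end Vale.Agent.P202
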