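import Mathlib

/-!
# P202: colength of independent families (definitions)

`IndepMod a A` : the family `a` of ring elements is (Lech-)independent on the module `M` modulo the
submodule `A`.  `QBPoly w g` : a root `z` of the integer polynomial `g` makes the `w`-th power
additive on pairs with `Y X = z X Y`.  `HasFact` : the scalar `a0` is a `w`-th power of an
endomorphism with image in `n M`, together with a grading-type operator `σ`.
-/

namespace Vale.Agent.P202

universe u v

open Polynomial

/-- the family `a` is independent on `M` modulo `A` -/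
def IndepMod {S : Type u} [CommRing S] {r : ℕ} (a : Fin r → S) {M : Type v} [AddCommGroup M]
    [Module S M] (A : Submodule S M) : Prop :=
  ∀ z : Fin r → M, ∑ i, a i • z i ∈ A →
    ∀ i, z i ∈ (Ideal.span (Set.range a)) • (⊤ : Submodule S M) ⊔ A

/-- roots of `g` make the `w`-th power additive on `z`-commuting pairs -/
def QBPoly (w : ℕ) (g : ℤ[X]) : Prop :=
  ∀ (E : Type v) [Ring E] (X Y z : E), Commute z X → Commute z Y → Y * X = z * (X * Y) →
    aeval z g = 0 → (X + Y) ^ w = X ^ w + Y ^ w ∧ z ^ w = 1

/-- `z` is a root of `g` preserving `A` -/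
def GoodZ {S : Type u} [CommRing S] (g : ℤ[X]) {M : Type v} [AddCommGroup M] [Module S M]
    (A : Submodule S M) (z : Module.End S M) : Prop :=
  aeval z g = 0 ∧ ∀ m ∈ A, z m ∈ A

/-- `a0` is the `w`-th power of an endomorphism `D` with image in `n M` -/
def HasFact {S : Type u} [CommRing S] (n : Ideal S) (w : ℕ) (a0 : S) {M : Type v} [AddCommGroup M]
    [Module S M] (A : Submodule S M) (z : Module.End S M) : Prop :=
  ∃ D σ : Module.End S M, Commute z D ∧ Commute z σ ∧ σ * D = z * (D * σ) ∧ σ ^ w = 1 ∧
    D ^ w = a0 • (1 : Module.End S M) ∧ (∀ m, D m ∈ n • (⊤ : Submodule S M)) ∧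
    (∀ m ∈ A, D m ∈ A) ∧ (∀ m ∈ A, σ m ∈ A)

end Vale.Agent.P202
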