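import Vale.Agent.Lib.P202.T1Basic

/-!
# P202: adding a product of `w` elements of `n` to a `w`-th power factorisation
-/

namespace Vale.Agent.P202

universe u v

open Polynomial

variable {S : Type u} [CommRing S] {M : Type v} [AddCommGroup M] [Module S M]

/-- `f ↦ f.compLeft ι` as a ring homomorphism -/
def compLeftHom (ι : Type) : Module.End S M →+* Module.End S (ι → M) where
  toFun f := LinearMap.compLeft f ι
  map_one' := rfl
  map_mul' _ _ := rfl
  map_zero' := rfl
  map_add' _ _ := rfl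

theorem aeval_compLeft (g : ℤ[X]) (z : Module.End S M) (ι : Type) :
    aeval (LinearMap.compLeft z ι) g = LinearMap.compLeft (aeval z g) ι :=
  Polynomial.aeval_algHom_apply (compLeftHom (S := S) (M := M) ι).toIntAlgHom z g

theorem goodZ_compLeft (g : ℤ[X]) (A : Submodule S M) (z : Module.End S M) (hz : GoodZ g A z)
    (ι : Type) :
    GoodZ g (Submodule.pi Set.univ (fun _ : ι => A)) (LinearMap.compLeft z ι) := by
  refine ⟨?_, fun m hm i _ => hz.2 _ (hm i trivial)⟩
  rw [aeval_compLeft, hz.1]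
  rfl

/-- the weighted cyclic shift -/
def shiftOp (w : ℕ) [NeZero w] (b : Fin w → S) (σ : Module.End S M) :
    Module.End S (Fin w → M) where
  toFun m i := b (i - 1) • σ (m (i - 1))
  map_add' m m' := by ext i; simp
  map_smul' c m := by
    ext i
    simp only [Pi.smul_apply, map_smul, RingHom.id_apply]
    rw [smul_comm]

/-- the grading operator -/
def gradeOp (w : ℕ) (z σ : Module.End S M) : Module.End S (Fin w → M) where
  toFun m i := (z ^ (i : ℕ) * σ) (m i)
  map_add' m m' := by ext i; simp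
  map_smul' c m := by ext i; simp

@[simp] theorem shiftOp_apply (w : ℕ) [NeZero w] (b : Fin w → S) (σ : Module.End S M)
    (m : Fin w → M) (i : Fin w) : shiftOp w b σ m i = b (i - 1) • σ (m (i - 1)) := rfl

@[simp] theorem gradeOp_apply (w : ℕ) (z σ : Module.End S M)
    (m : Fin w → M) (i : Fin w) : gradeOp w z σ m i = (z ^ (i : ℕ) * σ) (m i) := rfl

theorem ofNat_succ (w : ℕ) [NeZero w] (k : ℕ) : Fin.ofNat w (k + 1) = Fin.ofNat w k + 1 := by
  ext
  simp [Fin.ofNat, Fin.val_add]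

theorem shiftOp_pow_apply (w : ℕ) [NeZero w] (b : Fin w → S) (σ : Module.End S M) (k : ℕ)
    (m : Fin w → M) (i : Fin w) :
    ((shiftOp w b σ) ^ k) m i
      = (∏ l ∈ Finset.range k, b (i - 1 - Fin.ofNat w l)) • (σ ^ k) (m (i - Fin.ofNat w k)) := by
  induction k generalizing m with
  | zero => simp
  | succ k ih =>
    rw [pow_succ, Module.End.mul_apply, ih, shiftOp_apply, Finset.prod_range_succ, pow_succ,
      Module.End.mul_apply, map_smul, smul_smul, ofNat_succ]
    have e1 : i - Fin.ofNat w k - 1 = i - 1 - Fin.ofNat w k := by abel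
    have e2 : i - (Fin.ofNat w k + 1) = i - 1 - Fin.ofNat w k := by abel
    rw [e1, e2]

theorem shiftOp_pow_self (w : ℕ) [NeZero w] (b : Fin w → S) (σ : Module.End S M)
    (hσ : σ ^ w = 1) : (shiftOp w b σ) ^ w = (∏ i, b i) • (1 : Module.End S (Fin w → M)) := by
  apply LinearMap.ext
  intro m
  funext i
  rw [shiftOp_pow_apply, hσ]
  have e0 : Fin.ofNat w w = 0 := by simp
  rw [e0, sub_zero]
  have e1 : ∏ l ∈ Finset.range w, b (i - 1 - Fin.ofNat w l) = ∏ l : Fin w, b (i - 1 - l) := by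
    rw [← Fin.prod_univ_eq_prod_range (fun l => b (i - 1 - Fin.ofNat w l)) w]
    apply Finset.prod_congr rfl
    intro l _
    simp
  have e2 : ∏ l : Fin w, b (i - 1 - l) = ∏ l, b l := Equiv.prod_comp (Equiv.subLeft (i - 1)) b
  rw [e1, e2]
  rfl

theorem gradeOp_pow_apply (w : ℕ) (z σ : Module.End S M) (h : Commute z σ) (k : ℕ)
    (m : Fin w → M) (i : Fin w) :
    ((gradeOp w z σ) ^ k) m i = (z ^ ((i : ℕ) * k) * σ ^ k) (m i) := by
  induction k generalizing m with
  | zero => simp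
  | succ k ih =>
    rw [pow_succ, Module.End.mul_apply, ih, gradeOp_apply, ← Module.End.mul_apply]
    congr 1
    have hc : Commute (σ ^ k) (z ^ (i : ℕ)) := (h.pow_pow _ _).symm
    calc z ^ ((i : ℕ) * k) * σ ^ k * (z ^ (i : ℕ) * σ)
        = z ^ ((i : ℕ) * k) * (σ ^ k * z ^ (i : ℕ)) * σ := by simp only [mul_assoc]
      _ = z ^ ((i : ℕ) * k) * (z ^ (i : ℕ) * σ ^ k) * σ := by rw [hc.eq]
      _ = z ^ ((i : ℕ) * (k + 1)) * σ ^ (k + 1) := by
        rw [mul_add, mul_one, pow_add, pow_succ σ]; simp only [mul_assoc]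

theorem gradeOp_pow_self (w : ℕ) (z σ : Module.End S M) (h : Commute z σ) (hz : z ^ w = 1)
    (hσ : σ ^ w = 1) : (gradeOp w z σ) ^ w = 1 := by
  apply LinearMap.ext
  intro m
  funext i
  rw [gradeOp_pow_apply w z σ h, hσ, mul_comm (i : ℕ) w, pow_mul, hz, one_pow]
  rfl

theorem val_zero_sub_one (w : ℕ) [NeZero w] : (((0 : Fin w) - 1 : Fin w) : ℕ) + 1 = w := by
  obtain ⟨w', rfl⟩ : ∃ w', w = w' + 1 := Nat.exists_eq_succ_of_ne_zero (NeZero.ne w)
  rw [zero_sub, Fin.coe_neg_one]

theorem val_sub_one_add_one (w : ℕ) [NeZero w] (z : Module.End S M) (hz : z ^ w = 1)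
    (i : Fin w) : z ^ (((i - 1 : Fin w) : ℕ) + 1) = z ^ (i : ℕ) := by
  by_cases hi : i = 0
  · subst hi
    have : (((0 : Fin w) - 1 : Fin w) : ℕ) + 1 = w := val_zero_sub_one w
    rw [this, hz]
    simp
  · have h1 := Fin.val_sub_one_of_ne_zero hi
    have h2 : (i : ℕ) ≠ 0 := by
      intro h; apply hi; ext; simpa using h
    have : ((i - 1 : Fin w) : ℕ) + 1 = i := by omega
    rw [this]

theorem pow_mem_of_mem (A : Submodule S M) (z : Module.End S M) (hz : ∀ m ∈ A, z m ∈ A)
    (k : ℕ) : ∀ m ∈ A, (z ^ k) m ∈ A := by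
  induction k with
  | zero => intro m hm; simpa using hm
  | succ k ih => intro m hm; rw [pow_succ, Module.End.mul_apply]; exact ih _ (hz _ hm)

/-- **Subtask B.** On `Fin w → M` put `X = D` (componentwise), `(Y m) i = b (i-1) • σ (m (i-1))`,
`(σ' m) i = z ^ i (σ (m i))`.  Then `Y X = z X Y`, `σ' (X + Y) = z (X + Y) σ'`, `σ' ^ w = 1`,
`Y ^ w = (∏ b) σ ^ w = ∏ b` and `(X + Y) ^ w = X ^ w + Y ^ w = a0 + ∏ b`. -/
theorem hasFact_ext (n : Ideal S) (w : ℕ) [NeZero w] (g : ℤ[X]) (hg : QBPoly.{v} w g) (a0 : S)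
    (A : Submodule S M) (z : Module.End S M) (hz : GoodZ g A z) (h : HasFact n w a0 A z)
    (b : Fin w → S) (hb : ∀ i, b i ∈ n) :
    HasFact n w (a0 + ∏ i, b i) (Submodule.pi Set.univ (fun _ : Fin w => A))
      (LinearMap.compLeft z (Fin w)) := by
  obtain ⟨D, σ, hzD, hzσ, hσD, hσw, hDw, hDn, hDA, hσA⟩ := h
  have hzw : z ^ w = 1 :=
    (hg (Module.End S M) 0 0 z (Commute.zero_right z) (Commute.zero_right z) (by simp) hz.1).2
  set X : Module.End S (Fin w → M) := LinearMap.compLeft D (Fin w) with hX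
  set Y := shiftOp w b σ with hY
  set z' : Module.End S (Fin w → M) := LinearMap.compLeft z (Fin w) with hz'
  set σ' := gradeOp w z σ with hσ'
  have hzD' : ∀ x, z (D x) = D (z x) := fun x => LinearMap.congr_fun hzD.eq x
  have hzσ' : ∀ x, z (σ x) = σ (z x) := fun x => LinearMap.congr_fun hzσ.eq x
  have hσD' : ∀ x, σ (D x) = z (D (σ x)) := fun x => LinearMap.congr_fun hσD x
  have c1 : Commute z' X := by
    apply LinearMap.ext; intro m; funext i
    exact hzD' (m i)
  have c2 : Commute z' Y := by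
    apply LinearMap.ext; intro m; funext i
    change z (b (i - 1) • σ (m (i - 1))) = b (i - 1) • σ (z (m (i - 1)))
    rw [map_smul, hzσ']
  have c3 : Commute z' σ' := by
    apply LinearMap.ext; intro m; funext i
    change z ((z ^ (i : ℕ) * σ) (m i)) = (z ^ (i : ℕ) * σ) (z (m i))
    have : Commute z (z ^ (i : ℕ) * σ) := ((Commute.refl z).pow_right _).mul_right hzσ
    exact LinearMap.congr_fun this.eq (m i)
  have r1 : Y * X = z' * (X * Y) := by
    apply LinearMap.ext; intro m; funext i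
    change b (i - 1) • σ (D (m (i - 1))) = z (D (b (i - 1) • σ (m (i - 1))))
    rw [map_smul, map_smul, hσD']
  have r2 : σ' * X = z' * (X * σ') := by
    apply LinearMap.ext; intro m; funext i
    change (z ^ (i : ℕ) * σ) (D (m i)) = z (D ((z ^ (i : ℕ) * σ) (m i)))
    have : z ^ (i : ℕ) * σ * D = z * (D * (z ^ (i : ℕ) * σ)) := by
      have hc : Commute D (z ^ (i : ℕ)) := (hzD.symm).pow_right _
      have hc2 : Commute (z ^ (i : ℕ)) z := (Commute.refl z).pow_left _
      rw [mul_assoc, hσD, ← mul_assoc D, hc.eq, ← mul_assoc, hc2.eq]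
      simp only [mul_assoc]
    exact LinearMap.congr_fun this (m i)
  have r3 : σ' * Y = z' * (Y * σ') := by
    apply LinearMap.ext; intro m; funext i
    change (z ^ (i : ℕ) * σ) (b (i - 1) • σ (m (i - 1)))
      = z (b (i - 1) • σ ((z ^ ((i - 1 : Fin w) : ℕ) * σ) (m (i - 1))))
    rw [map_smul, map_smul]
    congr 1
    have : z ^ (i : ℕ) * σ * σ = z * (σ * (z ^ ((i - 1 : Fin w) : ℕ) * σ)) := by
      have hc : Commute σ (z ^ ((i - 1 : Fin w) : ℕ)) := hzσ.symm.pow_right _
      rw [← val_sub_one_add_one w z hzw i, pow_succ', ← mul_assoc σ, hc.eq]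
      simp only [mul_assoc]
    exact LinearMap.congr_fun this (m (i - 1))
  refine ⟨X + Y, σ', c1.add_right c2, c3, ?_, gradeOp_pow_self w z σ hzσ hzw hσw, ?_, ?_, ?_, ?_⟩
  · rw [mul_add, r2, r3, add_mul, mul_add]
  · rw [(hg _ X Y z' c1 c2 r1 (goodZ_compLeft g A z hz (Fin w)).1).1,
      shiftOp_pow_self w b σ hσw, add_smul]
    congr 1
    have : X ^ w = LinearMap.compLeft (D ^ w) (Fin w) :=
      (map_pow (compLeftHom (S := S) (M := M) (Fin w)) D w).symm
    rw [this, hDw]
    rfl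
  · intro m
    rw [mem_smul_top_pi]
    intro i
    exact Submodule.add_mem _ (hDn _) (Submodule.smul_mem_smul (hb _) Submodule.mem_top)
  · intro m hm i _
    exact A.add_mem (hDA _ (hm i trivial)) (A.smul_mem _ (hσA _ (hm _ trivial)))
  · intro m hm i _
    exact pow_mem_of_mem A z hz.2 _ _ (hσA _ (hm i trivial))

end Vale.Agent.P202
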