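import Vale.Agent.Lib.P202.T1Basic

/-!
# P202: a finite free module carrying a root of the cyclotomic polynomial
-/

namespace Vale.Agent.P202

universe u

open Polynomial

variable {S : Type u} [CommRing S]

section Transport

variable {M M' : Type*} [AddCommGroup M] [Module S M] [AddCommGroup M'] [Module S M']

theorem equiv_mem_smul_top (e : M ≃ₗ[S] M') (J : Ideal S) (m : M) :
    e m ∈ J • (⊤ : Submodule S M') ↔ m ∈ J • (⊤ : Submodule S M) := by
  constructor
  · intro h
    have := map_mem_smul_top J (e.symm : M' →ₗ[S] M) h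
    simpa using this
  · intro h
    exact map_mem_smul_top J (e : M →ₗ[S] M') h

theorem length_quot_smul_top_equiv (e : M ≃ₗ[S] M') (J : Ideal S) :
    Module.length S (M ⧸ J • (⊤ : Submodule S M)) =
      Module.length S (M' ⧸ J • (⊤ : Submodule S M')) := by
  apply LinearEquiv.length_eq
  apply Submodule.Quotient.equiv _ _ e
  ext m'
  constructor
  · rintro ⟨m, hm, rfl⟩
    exact (equiv_mem_smul_top e J m).2 hm
  · intro h
    exact ⟨e.symm m', (equiv_mem_smul_top e J _).1 (by simpa using h), by simp⟩

end Transport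

theorem free_transfer {M₀ : Type u} [AddCommGroup M₀] [Module S M₀] (k : ℕ)
    (e : M₀ ≃ₗ[S] (Fin k → S)) :
    (∀ J : Ideal S, Module.length S (M₀ ⧸ (J • (⊤ : Submodule S M₀) ⊔ ⊥)) =
        k * Module.length S (S ⧸ J)) ∧
      (∀ (r : ℕ) (a : Fin r → S), IndepMod a (⊥ : Submodule S S) →
        IndepMod a (⊥ : Submodule S M₀)) := by
  constructor
  · intro J
    rw [sup_bot_eq, length_quot_smul_top_equiv e J]
    have h1 : J • (⊤ : Submodule S (Fin k → S)) =
        Submodule.pi Set.univ (fun _ : Fin k => J) := by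
      ext m
      rw [mem_smul_top_pi]
      simp [Submodule.mem_pi]
    rw [h1, length_quot_pi, Fintype.card_fin]
  · intro r a h z hz i
    rw [sup_bot_eq, ← equiv_mem_smul_top e, mem_smul_top_pi]
    intro j
    have := h (fun i => e (z i) j) (by
      rw [Submodule.mem_bot] at hz ⊢
      have := congrArg (fun m => e m j) hz
      simpa [map_sum, Finset.sum_apply] using this) i
    simpa using this

theorem exists_free_with_root [Nontrivial S] (w : ℕ) (hw : 1 ≤ w) :
    ∃ (M₀ : Type u) (_ : AddCommGroup M₀) (_ : Module S M₀) (z : Module.End S M₀) (k : ℕ),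
      1 ≤ k ∧ GoodZ (cyclotomic w ℤ) (⊥ : Submodule S M₀) z ∧
      (∀ J : Ideal S, Module.length S (M₀ ⧸ (J • (⊤ : Submodule S M₀) ⊔ ⊥)) =
        k * Module.length S (S ⧸ J)) ∧
      (∀ (r : ℕ) (a : Fin r → S), IndepMod a (⊥ : Submodule S S) →
        IndepMod a (⊥ : Submodule S M₀)) := by
  have hmonic : (cyclotomic w S).Monic := cyclotomic.monic w S
  let pb := AdjoinRoot.powerBasis' hmonic
  have hdim : pb.dim = (cyclotomic w S).natDegree := AdjoinRoot.powerBasis'_dim hmonic
  refine ⟨AdjoinRoot (cyclotomic w S), inferInstance, inferInstance,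
    Algebra.lmul S (AdjoinRoot (cyclotomic w S)) (AdjoinRoot.root (cyclotomic w S)), pb.dim,
    ?_, ?_, ?_⟩
  · rw [hdim, natDegree_cyclotomic]
    exact Nat.totient_pos.2 (by omega)
  · refine ⟨?_, ?_⟩
    · have h0 : aeval (AdjoinRoot.root (cyclotomic w S)) (cyclotomic w ℤ) = 0 := by
        rw [← aeval_map_algebraMap S, show algebraMap ℤ S = Int.castRingHom S from rfl,
          map_cyclotomic_int, AdjoinRoot.aeval_eq, AdjoinRoot.mk_self]
      have h1 := aeval_algHom_apply
        ((Algebra.lmul S (AdjoinRoot (cyclotomic w S))).toRingHom.toIntAlgHom)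
        (AdjoinRoot.root (cyclotomic w S)) (cyclotomic w ℤ)
      rw [h0, map_zero] at h1
      exact h1
    · intro m hm
      rw [Submodule.mem_bot] at hm ⊢
      rw [hm, map_zero]
  · exact free_transfer pb.dim pb.basis.equivFun

end Vale.Agent.P202
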