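import Vale.Agent.Lib.P202.T1Defs

/-!
# P202: the `w`-th power is additive on `ζ`-commuting pairs (`ζ` a root of the cyclotomic polynomial)
-/

namespace Vale.Agent.P202

universe v

open Polynomial

/-- the case `w = 2`, `z = -1` -/
theorem qbPoly_two : QBPoly.{v} 2 (X + 1 : ℤ[X]) := by
  intro E _ X' Y z _ _ h hz
  have hz' : z = -1 := by
    have : z + 1 = 0 := by simpa using hz
    exact eq_neg_of_add_eq_zero_left this
  subst hz'
  constructor
  · have h' : Y * X' = -(X' * Y) := by simpa using h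
    rw [pow_two, pow_two, pow_two, add_mul, mul_add, mul_add, h']
    abel
  · simp

/-- Gaussian binomial coefficients as integer polynomials -/
noncomputable def gb : ℕ → ℕ → ℤ[X]
  | _, 0 => 1
  | 0, _ + 1 => 0
  | n + 1, k + 1 => gb n k + X ^ (k + 1) * gb n (k + 1)

lemma gb_zero_right (n : ℕ) : gb n 0 = 1 := by
  cases n <;> rfl

lemma gb_zero_succ (k : ℕ) : gb 0 (k + 1) = 0 := rfl

lemma gb_succ_succ (n k : ℕ) : gb (n + 1) (k + 1) = gb n k + X ^ (k + 1) * gb n (k + 1) := rfl

lemma gb_eq_zero : ∀ (n k : ℕ), n < k → gb n k = 0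
  | 0, 0, h => absurd h (lt_irrefl _)
  | 0, k + 1, _ => rfl
  | n + 1, 0, h => absurd h (Nat.not_lt_zero _)
  | n + 1, k + 1, h => by
      rw [gb_succ_succ, gb_eq_zero n k (by omega), gb_eq_zero n (k + 1) (by omega)]
      simp

/-- the product identity -/
lemma gb_mul_prod : ∀ (n k : ℕ), gb n k * ∏ i ∈ Finset.range k, ((X : ℤ[X]) ^ (i + 1) - 1) =
    ∏ i ∈ Finset.range k, ((X : ℤ[X]) ^ (n - i) - 1)
  | n, 0 => by simp [gb_zero_right]
  | 0, k + 1 => by
      rw [gb_zero_succ, zero_mul, Finset.prod_range_succ']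
      simp
  | n + 1, k + 1 => by
      have h1 := gb_mul_prod n k
      have h2 := gb_mul_prod n (k + 1)
      rw [Finset.prod_range_succ] at h2
      rw [gb_succ_succ, Finset.prod_range_succ]
      have h3 : ∏ i ∈ Finset.range (k + 1), ((X : ℤ[X]) ^ (n + 1 - i) - 1) =
          (∏ i ∈ Finset.range k, ((X : ℤ[X]) ^ (n - i) - 1)) * (X ^ (n + 1) - 1) := by
        rw [Finset.prod_range_succ']
        simp
      rw [h3]
      rw [Finset.prod_range_succ] at h2
      set P := ∏ i ∈ Finset.range k, ((X : ℤ[X]) ^ (i + 1) - 1) with hP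
      set Q := ∏ i ∈ Finset.range k, ((X : ℤ[X]) ^ (n - i) - 1) with hQ
      by_cases hk : k ≤ n
      · have h4 : (X : ℤ[X]) ^ (n + 1) = X ^ (k + 1) * X ^ (n - k) := by
          rw [← pow_add]; congr 1; omega
        rw [h4]
        linear_combination (X ^ (k + 1) - 1) * h1 + X ^ (k + 1) * h2
      · have hQ0 : Q = 0 := by
          rw [hQ]
          apply Finset.prod_eq_zero (i := n) (by simp; omega)
          simp
        rw [hQ0] at h1 h2 ⊢
        linear_combination (X ^ (k + 1) - 1) * h1 + X ^ (k + 1) * h2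

/-- the cyclotomic polynomial does not divide `X ^ j - 1` for `0 < j < w` -/
lemma not_cyclotomic_dvd (w j : ℕ) (hj : 0 < j) (hjw : j < w) :
    ¬ cyclotomic w ℤ ∣ (X : ℤ[X]) ^ j - 1 := by
  intro h
  have hw : w ≠ 0 := by omega
  have h1 : cyclotomic w ℂ ∣ (X : ℂ[X]) ^ j - 1 := by
    have := Polynomial.map_dvd (Int.castRingHom ℂ) h
    simpa using this
  have hζ := Complex.isPrimitiveRoot_exp w hw
  have hroot : (cyclotomic w ℂ).IsRoot (Complex.exp (2 * Real.pi * Complex.I / w)) :=
    hζ.isRoot_cyclotomic (Nat.pos_of_ne_zero hw)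
  have h2 := hroot.dvd h1
  have h3 : Complex.exp (2 * Real.pi * Complex.I / w) ^ j = 1 := by
    have : eval (Complex.exp (2 * Real.pi * Complex.I / w)) ((X : ℂ[X]) ^ j - 1) = 0 := h2
    simpa [sub_eq_zero] using this
  have h4 := hζ.dvd_of_pow_eq_one j h3
  exact absurd (Nat.le_of_dvd hj h4) (by omega)

lemma cyclotomic_dvd_gb (w k : ℕ) (hk : 0 < k) (hkw : k < w) : cyclotomic w ℤ ∣ gb w k := by
  have hw : 0 < w := by omega
  have hprime : Prime (cyclotomic w ℤ) := (cyclotomic.irreducible hw).prime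
  have h1 : cyclotomic w ℤ ∣ gb w k * ∏ i ∈ Finset.range k, ((X : ℤ[X]) ^ (i + 1) - 1) := by
    rw [gb_mul_prod]
    refine dvd_trans ?_ (Finset.dvd_prod_of_mem _ (Finset.mem_range.2 hk))
    simpa using cyclotomic.dvd_X_pow_sub_one w ℤ
  rcases hprime.dvd_or_dvd h1 with h | h
  · exact h
  · exfalso
    obtain ⟨i, hi, hdvd⟩ := (Prime.dvd_finsetProd_iff hprime _).1 h
    rw [Finset.mem_range] at hi
    exact not_cyclotomic_dvd w (i + 1) (by omega) (by omega) hdvd

section NC

variable {E : Type v} [Ring E] {X' Y z : E}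

lemma commute_aeval (hz : Commute z X') (p : ℤ[X]) : Commute (aeval z p) X' := by
  induction p using Polynomial.induction_on' with
  | add p q hp hq => rw [map_add]; exact hp.add_left hq
  | monomial n a =>
    rw [aeval_monomial]
    exact ((Int.cast_commute a X').mul_left (hz.pow_left n))

lemma Y_mul_X_pow (hzX : Commute z X') (h : Y * X' = z * (X' * Y)) (k : ℕ) :
    Y * X' ^ k = z ^ k * (X' ^ k * Y) := by
  induction k with
  | zero => simp
  | succ k ih =>
    calc Y * X' ^ (k + 1) = (Y * X' ^ k) * X' := by rw [pow_succ, mul_assoc]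
      _ = z ^ k * (X' ^ k * (Y * X')) := by rw [ih]; simp only [mul_assoc]
      _ = z ^ k * (X' ^ k * (z * (X' * Y))) := by rw [h]
      _ = z ^ k * ((X' ^ k * z) * (X' * Y)) := by simp only [mul_assoc]
      _ = z ^ k * ((z * X' ^ k) * (X' * Y)) := by rw [(hzX.pow_right k).eq]
      _ = z ^ (k + 1) * (X' ^ (k + 1) * Y) := by
        rw [pow_succ z, pow_succ X']; simp only [mul_assoc]

/-- the noncommutative `q`-binomial theorem -/
theorem add_pow_qb (hzX : Commute z X') (hzY : Commute z Y) (h : Y * X' = z * (X' * Y)) (n : ℕ) :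
    (X' + Y) ^ n = ∑ k ∈ Finset.range (n + 1), aeval z (gb n k) * (X' ^ k * Y ^ (n - k)) := by
  induction n with
  | zero => simp [gb_zero_right]
  | succ n ih =>
    have hcX : ∀ k, Commute (aeval z (gb n k)) X' := fun k => commute_aeval hzX _
    have hcY : ∀ k, Commute (aeval z (gb n k)) Y := fun k => commute_aeval hzY _
    -- left hand side
    have hL : (X' + Y) ^ (n + 1) =
        ∑ k ∈ Finset.range (n + 1), aeval z (gb n k) * (X' ^ (k + 1) * Y ^ (n - k)) +
        ∑ k ∈ Finset.range (n + 1), aeval z (gb n k) * (z ^ k * (X' ^ k * Y ^ (n - k + 1))) := by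
      rw [pow_succ', ih, add_mul, Finset.mul_sum, Finset.mul_sum]
      congr 1
      · refine Finset.sum_congr rfl fun k _ => ?_
        rw [← mul_assoc, ← (hcX k).eq, mul_assoc, ← mul_assoc X', ← pow_succ']
      · refine Finset.sum_congr rfl fun k _ => ?_
        rw [← mul_assoc, ← (hcY k).eq, mul_assoc, ← mul_assoc Y, Y_mul_X_pow hzX h k]
        simp only [mul_assoc]
        rw [← pow_succ']
    rw [hL, Finset.sum_range_succ' _ (n + 1)]
    simp only [gb_succ_succ, gb_zero_right, map_add, map_mul, map_pow, aeval_X, map_one,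
      Nat.add_sub_add_right, pow_zero, one_mul, Nat.sub_zero, add_mul, Finset.sum_add_distrib]
    rw [add_assoc]
    congr 1
    rw [Finset.sum_range_succ' _ n, Finset.sum_range_succ _ n, gb_eq_zero n (n + 1) (by omega)]
    simp only [gb_zero_right, map_one, pow_zero, one_mul, Nat.sub_zero, map_zero, mul_zero,
      zero_mul, add_zero]
    congr 1
    refine Finset.sum_congr rfl fun k hk => ?_
    rw [Finset.mem_range] at hk
    have e1 : n - (k + 1) + 1 = n - k := by omega
    rw [e1, ← mul_assoc, ← mul_assoc,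
      ((commute_aeval (Commute.refl z) (gb n (k + 1))).pow_right (k + 1)).eq]
    simp only [mul_assoc]

end NC

lemma gb_self : ∀ n : ℕ, gb n n = 1
  | 0 => rfl
  | n + 1 => by
      rw [gb_succ_succ, gb_self n, gb_eq_zero n (n + 1) (by omega)]
      simp

/-- **Subtask A.** If `Y X = z X Y` with `z` central (for `X`, `Y`) a root of the `w`-th cyclotomic
polynomial, then the `w`-th power of `X + Y` is `X ^ w + Y ^ w` (noncommutative `q`-binomial theorem together with
the vanishing of the Gaussian binomial coefficients at primitive roots of unity). -/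
theorem qbPoly_cyclotomic (w : ℕ) (hw : 1 ≤ w) : QBPoly.{v} w (cyclotomic w ℤ) := by
  intro E _ X' Y z hzX hzY h hz
  constructor
  · obtain ⟨w', rfl⟩ : ∃ w', w = w' + 1 := ⟨w - 1, by omega⟩
    rw [add_pow_qb hzX hzY h (w' + 1), Finset.sum_range_succ, Finset.sum_range_succ']
    have hmid : ∑ k ∈ Finset.range w',
        aeval z (gb (w' + 1) (k + 1)) * (X' ^ (k + 1) * Y ^ (w' + 1 - (k + 1))) = 0 := by
      refine Finset.sum_eq_zero fun k hk => ?_
      rw [Finset.mem_range] at hk
      obtain ⟨c, hc⟩ := cyclotomic_dvd_gb (w' + 1) (k + 1) (by omega) (by omega)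
      rw [hc, map_mul, hz, zero_mul, zero_mul]
    rw [hmid, gb_self, gb_zero_right]
    simp [add_comm]
  · obtain ⟨c, hc⟩ := cyclotomic.dvd_X_pow_sub_one w ℤ
    have := congrArg (aeval z) hc
    rw [map_mul, hz, zero_mul] at this
    simpa [sub_eq_zero] using this

end Vale.Agent.P202
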