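import Vale.Agent.Lib.P202.T1Main
import Vale.Agent.Lib.P202.T1QB
import Vale.Agent.Lib.P202.T1Free
import Vale.Agent.Lib.P202.Combined

/-!
# P202: colength of the closed fibre when `𝔪 S ⊆ 𝔫 ^ w`, and Lech's inequality when
`𝔫 ^ (w + 1) ⊆ 𝔪 S ⊆ 𝔫 ^ w`
-/

namespace Vale.Agent.P202

set_option linter.unusedSectionVars false

universe u

open IsLocalRing Polynomial

variable {R : Type*} {S : Type u} [CommRing R] [CommRing S] [IsLocalRing R] [IsLocalRing S]
  [IsNoetherianRing R] [IsNoetherianRing S]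
  [Algebra R S] [IsLocalHom (algebraMap R S)] [Module.Flat R S]

theorem ringKrullDim_le_of_span {r : ℕ} (a : Fin r → R)
    (ha : Ideal.span (Set.range a) = maximalIdeal R) : ringKrullDim R ≤ r := by
  classical
  rw [← IsLocalRing.maximalIdeal_height_eq_ringKrullDim]
  have h1 : (maximalIdeal R).height ≤ (Finset.univ.image a).card := by
    apply Ideal.height_le_card_of_mem_minimalPrimes_span_finset
    have : ((Finset.univ.image a : Finset R) : Set R) = Set.range a := by simp
    rw [this, ha]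
    rw [Ideal.minimalPrimes_eq_subsingleton_self]
    rfl
  have h2 : (Finset.univ.image a).card ≤ r := by
    simpa using Finset.card_image_le (s := Finset.univ) (f := a)
  have h3 : (maximalIdeal R).height ≤ (r : ℕ∞) := h1.trans (by exact_mod_cast h2)
  exact_mod_cast h3

/-- If `𝔪 S ⊆ 𝔫 ^ w` then `ℓ(S / 𝔪 S) ≥ w ^ dim R` (in fact `≥ w ^ embdim R`). -/
theorem colength_fibre (w : ℕ) (hw : 1 ≤ w)
    (h : (maximalIdeal R).map (algebraMap R S) ≤ maximalIdeal S ^ w)
    (d : ℕ) (hd : ringKrullDim R = d) :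
    (w : ℕ∞) ^ d ≤ Module.length S (S ⧸ (maximalIdeal R).map (algebraMap R S)) := by
  have : NeZero w := ⟨by omega⟩
  obtain ⟨r, a, hspan, hmin⟩ := exists_minimal_generators (R := R)
  have hdr : d ≤ r := by
    have := ringKrullDim_le_of_span a hspan
    rw [hd] at this
    exact_mod_cast this
  set a' : Fin r → S := fun i => algebraMap R S (a i) with ha'
  have hspan' : Ideal.span (Set.range a') = (maximalIdeal R).map (algebraMap R S) := by
    rw [← hspan, Ideal.map_span, ← Set.range_comp]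
    rfl
  have hmem : ∀ i, a' i ∈ maximalIdeal S ^ w := by
    intro i
    apply h
    rw [← hspan']
    exact Ideal.subset_span ⟨i, rfl⟩
  have hind : IndepMod a' (⊥ : Submodule S S) := by
    intro z hz i
    apply Submodule.mem_sup_left
    rw [hspan', smul_eq_mul, Ideal.mul_top]
    apply coeff_mem_map_of_relation hmin z
    simpa using hz
  obtain ⟨M₀, _, _, z, k, hk, hz, hlen, hindep⟩ := exists_free_with_root (S := S) w hw
  have key := colength_indep (maximalIdeal S) w (cyclotomic w ℤ) (qbPoly_cyclotomic w hw) r a' hmem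
    M₀ ⊥ z hz (hindep r a' hind)
  rw [hlen, hlen, hspan', mul_left_comm] at key
  have key' := (ENat.mul_le_mul_left_iff (by exact_mod_cast (by omega : k ≠ 0))
    (ENat.natCast_ne_top k)).1 key
  have h1 : 1 ≤ Module.length S (S ⧸ maximalIdeal S) := by
    have : Nontrivial (S ⧸ maximalIdeal S) :=
      Ideal.Quotient.nontrivial_iff.mpr (Ideal.IsPrime.ne_top inferInstance)
    exact Order.one_le_iff_ne_zero.2 (Module.length_pos).ne'
  calc (w : ℕ∞) ^ d ≤ (w : ℕ∞) ^ r := pow_le_pow_right₀ (by exact_mod_cast hw) hdr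
    _ = (w : ℕ∞) ^ r * 1 := (mul_one _).symm
    _ ≤ (w : ℕ∞) ^ r * Module.length S (S ⧸ maximalIdeal S) := by gcongr
    _ ≤ _ := key'

/-- **Theorem Q.** If `𝔫 ^ (w + 1) ⊆ 𝔪 S ⊆ 𝔫 ^ w` then `e(R) ≤ e(S)`. -/
theorem lech_between_powers (w : ℕ) (hw : 1 ≤ w)
    (h1 : maximalIdeal S ^ (w + 1) ≤ (maximalIdeal R).map (algebraMap R S))
    (h2 : (maximalIdeal R).map (algebraMap R S) ≤ maximalIdeal S ^ w)
    (eR eS : ℝ) (hR : IsHSMultiplicity R eR) (hS : IsHSMultiplicity S eS) : eR ≤ eS := by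
  obtain ⟨d, hd, -⟩ := id hR
  apply lech_of_pow_le w hw h1 d hd _ eR eS hR hS
  have h3 := colength_fibre (R := R) w hw h2 d hd
  have h4 := length_fibre_ne_top (R := R) (S := S) (w + 1) h1
  lift Module.length S (S ⧸ (maximalIdeal R).map (algebraMap R S)) to ℕ using h4 with lam
  simp only [ENat.toNat_natCast]
  exact_mod_cast h3

end Vale.Agent.P202
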