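import Vale.Agent.Lib.P202.T1Step
import Vale.Agent.Lib.P202.T1Ext

/-!
# P202: colength of an independent family contained in `n ^ w`
-/

namespace Vale.Agent.P202

universe u v

open Polynomial

variable {S : Type u} [CommRing S]

/-- elements of `n ^ w` (`w ≥ 1`) are sums of products of `w` elements of `n` -/
theorem mem_closure_prod_of_mem_pow (n : Ideal S) (w : ℕ) (a : S) (ha : a ∈ n ^ (w + 1)) :
    a ∈ AddSubmonoid.closure {x : S | ∃ b : Fin (w + 1) → S, (∀ i, b i ∈ n) ∧ x = ∏ i, b i} := by
  induction w generalizing a with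
  | zero =>
    apply AddSubmonoid.subset_closure
    refine ⟨fun _ => a, fun _ => by simpa using ha, by simp⟩
  | succ w ih =>
    rw [pow_succ'] at ha
    induction ha using Submodule.mul_induction_on' with
    | mem_mul_mem x hx y hy =>
      have hy' := ih y hy
      clear hy
      induction hy' using AddSubmonoid.closure_induction with
      | mem y hy2 =>
        obtain ⟨b, hb, rfl⟩ := hy2
        apply AddSubmonoid.subset_closure
        refine ⟨Fin.cons x b, ?_, ?_⟩
        · intro i
          refine Fin.cases ?_ (fun j => ?_) i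
          · simpa using hx
          · simpa using hb j
        · rw [Fin.prod_univ_succ (Fin.cons x b : Fin (w + 1 + 1) → S)]
          simp only [Fin.cons_zero, Fin.cons_succ]
      | zero => simp
      | add y y' _ _ h h' =>
        rw [mul_add]
        exact AddSubmonoid.add_mem _ h h'
    | add x _ y _ hx hy => exact AddSubmonoid.add_mem _ hx hy

section Pi

variable {M : Type v} [AddCommGroup M] [Module S M]

theorem indepMod_pi {r : ℕ} (a : Fin r → S) (A : Submodule S M) (h : IndepMod a A)
    (ι : Type) [Finite ι] : IndepMod a (Submodule.pi Set.univ (fun _ : ι => A)) := by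
  intro z hz i
  rw [smul_top_sup_pi]
  intro j _
  apply h (fun i => z i j)
  have := hz j trivial
  simpa [Finset.sum_apply] using this

theorem descend (n J : Ideal S) (c : ℕ∞) (A : Submodule S M) (w : ℕ) (hw : w ≠ 0)
    (h : c * Module.length S ((Fin w → M) ⧸ (n • (⊤ : Submodule S (Fin w → M)) ⊔
        Submodule.pi Set.univ (fun _ : Fin w => A))) ≤
      Module.length S ((Fin w → M) ⧸ (J • (⊤ : Submodule S (Fin w → M)) ⊔
        Submodule.pi Set.univ (fun _ : Fin w => A)))) :
    c * Module.length S (M ⧸ (n • (⊤ : Submodule S M) ⊔ A)) ≤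
      Module.length S (M ⧸ (J • (⊤ : Submodule S M) ⊔ A)) := by
  rw [smul_top_sup_pi, smul_top_sup_pi, length_quot_pi, length_quot_pi, Fintype.card_fin,
    mul_left_comm] at h
  exact (ENat.mul_le_mul_left_iff (by exact_mod_cast hw) (ENat.natCast_ne_top w)).1 h

theorem hasFact_zero (n : Ideal S) (w : ℕ) (hw : w ≠ 0) (A : Submodule S M)
    (z : Module.End S M) : HasFact n w 0 A z := by
  refine ⟨0, 1, Commute.zero_right z, Commute.one_right z, by simp, one_pow w, ?_, ?_, ?_, ?_⟩
  · rw [zero_pow hw, zero_smul]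
  · intro m; simp
  · intro m _; simp
  · intro m hm; simpa using hm

theorem goodZ_sup_range (g : ℤ[X]) (A : Submodule S M) (z D : Module.End S M) (hz : GoodZ g A z)
    (hc : Commute z D) : GoodZ g (A ⊔ LinearMap.range D) z := by
  refine ⟨hz.1, ?_⟩
  intro m hm
  obtain ⟨α, hα, _, ⟨u, rfl⟩, rfl⟩ := Submodule.mem_sup.1 hm
  rw [map_add]
  refine Submodule.add_mem_sup (hz.2 α hα) ⟨z u, ?_⟩
  have := congrArg (fun f : Module.End S M => f u) hc.eq
  simpa [Module.End.mul_apply] using this.symm

end Pi

/-- continuation lemma: it suffices to treat modules on which `a0 + a` is a `w`-th power -/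
theorem continuation (n J : Ideal S) (c : ℕ∞) (w : ℕ) [NeZero w] (g : ℤ[X])
    (hg : QBPoly.{v} w g) {r : ℕ} (q : Fin r → S) (a : S) (ha : a ∈ n ^ w) :
    ∀ a0 : S,
    (∀ (M : Type v) [AddCommGroup M] [Module S M] (A : Submodule S M) (z : Module.End S M),
      GoodZ g A z → IndepMod q A → HasFact n w (a0 + a) A z →
      c * Module.length S (M ⧸ (n • (⊤ : Submodule S M) ⊔ A)) ≤
        Module.length S (M ⧸ (J • (⊤ : Submodule S M) ⊔ A))) →
    (∀ (M : Type v) [AddCommGroup M] [Module S M] (A : Submodule S M) (z : Module.End S M),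
      GoodZ g A z → IndepMod q A → HasFact n w a0 A z →
      c * Module.length S (M ⧸ (n • (⊤ : Submodule S M) ⊔ A)) ≤
        Module.length S (M ⧸ (J • (⊤ : Submodule S M) ⊔ A))) := by
  obtain ⟨w', rfl⟩ : ∃ w', w = w' + 1 := ⟨w - 1, by have := NeZero.ne w; omega⟩
  have hcl := mem_closure_prod_of_mem_pow n w' a ha
  clear ha
  induction hcl using AddSubmonoid.closure_induction with
  | mem x hx =>
    obtain ⟨b, hb, rfl⟩ := hx
    intro a0 H M _ _ A z hz hq hf
    apply descend n J c A (w' + 1) (by omega)
    exact H (Fin (w' + 1) → M) _ _ (goodZ_compLeft g A z hz _) (indepMod_pi q A hq _)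
      (hasFact_ext n (w' + 1) g hg a0 A z hz hf b hb)
  | zero =>
    intro a0 H
    simpa using H
  | add x y _ _ hx hy =>
    intro a0 H
    apply hx a0
    apply hy (a0 + x)
    simpa [add_assoc] using H

/-- **Colength of independent families.** -/
theorem colength_indep (n : Ideal S) (w : ℕ) [NeZero w] (g : ℤ[X]) (hg : QBPoly.{v} w g) :
    ∀ (r : ℕ) (a : Fin r → S), (∀ i, a i ∈ n ^ w) →
    ∀ (M : Type v) [AddCommGroup M] [Module S M] (A : Submodule S M) (z : Module.End S M),
      GoodZ g A z → IndepMod a A →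
      (w : ℕ∞) ^ r * Module.length S (M ⧸ (n • (⊤ : Submodule S M) ⊔ A)) ≤
        Module.length S (M ⧸ ((Ideal.span (Set.range a)) • (⊤ : Submodule S M) ⊔ A)) := by
  intro r
  induction r with
  | zero =>
    intro a _ M _ _ A z _ _
    rw [pow_zero, one_mul]
    apply length_quot_mono'
    have : Set.range a = ∅ := Set.range_eq_empty a
    rw [this, Ideal.span_empty, Submodule.bot_smul]
    exact sup_le bot_le le_sup_right
  | succ r ih =>
    intro a ha M _ _ A z hz hind
    have hw : (w : ℕ) ≠ 0 := NeZero.ne w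
    refine continuation n (Ideal.span (Set.range a)) ((w : ℕ∞) ^ (r + 1)) w g hg a (a 0) (ha 0) 0
      ?_ M A z hz hind (hasFact_zero n w hw A z)
    intro M _ _ A z hz hind hf
    rw [zero_add] at hf
    obtain ⟨D, σ, hzD, -, -, -, hD, hDn, hDA, -⟩ := hf
    have h1 := step_length (a 0) (Ideal.span (Set.range (Fin.tail a))) A D w hD hDA
      (indep_head a A hind)
    have h2 := ih (Fin.tail a) (fun i => ha i.succ) M (A ⊔ LinearMap.range D) z
      (goodZ_sup_range g A z D hz hzD) (step_indep a A hind D w (by omega) hD hDA)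
    have h3 : n • (⊤ : Submodule S M) ⊔ (A ⊔ LinearMap.range D) = n • (⊤ : Submodule S M) ⊔ A := by
      apply le_antisymm
      · refine sup_le le_sup_left (sup_le le_sup_right ?_)
        rintro _ ⟨u, rfl⟩
        exact Submodule.mem_sup_left (hDn u)
      · exact sup_le_sup_left le_sup_left _
    rw [h3] at h2
    rw [span_range_cons']
    calc (w : ℕ∞) ^ (r + 1) * Module.length S (M ⧸ (n • (⊤ : Submodule S M) ⊔ A))
        = (w : ℕ∞) * ((w : ℕ∞) ^ r * Module.length S (M ⧸ (n • (⊤ : Submodule S M) ⊔ A))) := by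
          rw [pow_succ]; ring
      _ ≤ (w : ℕ∞) * Module.length S (M ⧸ ((Ideal.span (Set.range (Fin.tail a))) •
            (⊤ : Submodule S M) ⊔ (A ⊔ LinearMap.range D))) := by gcongr
      _ ≤ _ := h1

end Vale.Agent.P202
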