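import Vale.Agent.Lib.P202.T1Basic

/-!
# P202: a root of the cyclotomic polynomial acting on a finite power of an arbitrary module
-/

namespace Vale.Agent.P202

universe u v

open Polynomial

variable {S : Type u} [CommRing S]

section Act

variable (M : Type v) [AddCommGroup M] [Module S M] (k : ℕ)

/-- matrices over `S` act on `Fin k → M` -/
def matAct (C : Matrix (Fin k) (Fin k) S) : Module.End S (Fin k → M) :=
  LinearMap.pi (fun i => ∑ j, C i j • LinearMap.proj j)

theorem matAct_apply (C : Matrix (Fin k) (Fin k) S) (m : Fin k → M) (i : Fin k) :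
    matAct M k C m i = ∑ j, C i j • m j := by
  simp [matAct, LinearMap.sum_apply]

/-- the action as a ring homomorphism -/
def matActHom : Matrix (Fin k) (Fin k) S →+* Module.End S (Fin k → M) where
  toFun := matAct M k
  map_one' := by
    ext m i
    simp [matAct_apply, Matrix.one_apply, ite_smul]
  map_mul' C C' := by
    apply LinearMap.ext
    intro m
    funext i
    rw [Module.End.mul_apply, matAct_apply, matAct_apply]
    simp only [matAct_apply, Matrix.mul_apply, Finset.sum_smul, Finset.smul_sum, smul_smul]
    exact Finset.sum_comm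
  map_zero' := by
    apply LinearMap.ext
    intro m
    funext i
    simp [matAct_apply]
  map_add' C C' := by
    apply LinearMap.ext
    intro m
    funext i
    simp [matAct_apply, add_smul, Finset.sum_add_distrib]

end Act

theorem exists_root_pi [Nontrivial S] (w : ℕ) (hw : 1 ≤ w) :
    ∃ k : ℕ, 1 ≤ k ∧ ∀ (M : Type v) [AddCommGroup M] [Module S M] (A : Submodule S M),
      ∃ z : Module.End S (Fin k → M),
        GoodZ (cyclotomic w ℤ) (Submodule.pi Set.univ (fun _ : Fin k => A)) z := by
  have hmonic : (cyclotomic w S).Monic := cyclotomic.monic w S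
  let pb := AdjoinRoot.powerBasis' hmonic
  have hdim : pb.dim = (cyclotomic w S).natDegree := AdjoinRoot.powerBasis'_dim hmonic
  refine ⟨pb.dim, ?_, ?_⟩
  · rw [hdim, natDegree_cyclotomic]
    exact Nat.totient_pos.2 (by omega)
  intro M _ _ A
  let C : Matrix (Fin pb.dim) (Fin pb.dim) S :=
    Algebra.leftMulMatrix pb.basis (AdjoinRoot.root (cyclotomic w S))
  have h0 : aeval (AdjoinRoot.root (cyclotomic w S)) (cyclotomic w ℤ) = 0 := by
    rw [← aeval_map_algebraMap S, show algebraMap ℤ S = Int.castRingHom S from rfl,
      map_cyclotomic_int, AdjoinRoot.aeval_eq, AdjoinRoot.mk_self]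
  have h1 : aeval C (cyclotomic w ℤ) = 0 := by
    have := aeval_algHom_apply ((Algebra.leftMulMatrix pb.basis).toRingHom.toIntAlgHom)
      (AdjoinRoot.root (cyclotomic w S)) (cyclotomic w ℤ)
    rw [h0, map_zero] at this
    exact this
  refine ⟨matActHom M pb.dim C, ?_, ?_⟩
  · have := aeval_algHom_apply ((matActHom (S := S) M pb.dim).toIntAlgHom) C (cyclotomic w ℤ)
    rw [h1, map_zero] at this
    exact this
  · intro m hm i _
    have : matActHom M pb.dim C m i = ∑ j, C i j • m j := matAct_apply M pb.dim C m i
    rw [this]
    exact Submodule.sum_mem _ fun j _ => Submodule.smul_mem _ _ (hm j trivial)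

end Vale.Agent.P202
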