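import Vale.Agent.Lib.P202.T1Main
import Vale.Agent.Lib.P202.T1QB
import Vale.Agent.Lib.P202.T1Root

/-!
# P202: colength of an independent family with prescribed orders
-/

namespace Vale.Agent.P202

universe u v

open Polynomial

variable {S : Type u} [CommRing S] [Nontrivial S]

/-- **Colength of independent families, mixed orders.**  If `a i ∈ n ^ (wt i)` and the family is
independent on `M` modulo `A`, then `(∏ wt i) ℓ(M/(nM + A)) ≤ ℓ(M/(aM + A))`. -/
theorem colength_indep_mixed (n : Ideal S) :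
    ∀ (r : ℕ) (a : Fin r → S) (wt : Fin r → ℕ), (∀ i, 1 ≤ wt i) → (∀ i, a i ∈ n ^ wt i) →
    ∀ (M : Type v) [AddCommGroup M] [Module S M] (A : Submodule S M), IndepMod a A →
      ((∏ i, wt i : ℕ) : ℕ∞) * Module.length S (M ⧸ (n • (⊤ : Submodule S M) ⊔ A)) ≤
        Module.length S (M ⧸ ((Ideal.span (Set.range a)) • (⊤ : Submodule S M) ⊔ A)) := by
  intro r
  induction r with
  | zero =>
    intro a wt _ _ M _ _ A _
    simp only [Finset.univ_eq_empty, Finset.prod_empty, Nat.cast_one, one_mul]
    apply length_quot_mono'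
    have : Set.range a = ∅ := Set.range_eq_empty a
    rw [this, Ideal.span_empty, Submodule.bot_smul]
    exact sup_le bot_le le_sup_right
  | succ r ih =>
    intro a wt hwt ha M _ _ A hind
    set w := wt 0 with hwdef
    have hw1 : 1 ≤ w := hwt 0
    have hw : (w : ℕ) ≠ 0 := by omega
    have : NeZero w := ⟨hw⟩
    obtain ⟨k, hk, hroot⟩ := exists_root_pi.{u, v} (S := S) w hw1
    obtain ⟨z, hz⟩ := hroot M A
    apply descend n (Ideal.span (Set.range a)) _ A k (by omega)
    refine continuation n (Ideal.span (Set.range a)) _ w (cyclotomic w ℤ)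
      (qbPoly_cyclotomic w hw1) a (a 0) (ha 0) 0
      ?_ (Fin k → M) _ z hz (indepMod_pi a A hind _) (hasFact_zero n w hw _ z)
    intro M _ _ A z hz hind hf
    rw [zero_add] at hf
    obtain ⟨D, σ, hzD, -, -, -, hD, hDn, hDA, -⟩ := hf
    have h1 := step_length (a 0) (Ideal.span (Set.range (Fin.tail a))) A D w hD hDA
      (indep_head a A hind)
    have h2 := ih (Fin.tail a) (Fin.tail wt) (fun i => hwt i.succ) (fun i => ha i.succ) M
      (A ⊔ LinearMap.range D) (step_indep a A hind D w (by omega) hD hDA)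
    have h3 : n • (⊤ : Submodule S M) ⊔ (A ⊔ LinearMap.range D) = n • (⊤ : Submodule S M) ⊔ A := by
      apply le_antisymm
      · refine sup_le le_sup_left (sup_le le_sup_right ?_)
        rintro _ ⟨u, rfl⟩
        exact Submodule.mem_sup_left (hDn u)
      · exact sup_le_sup_left le_sup_left _
    rw [h3] at h2
    rw [span_range_cons']
    have e : ((∏ i, wt i : ℕ) : ℕ∞) = (w : ℕ∞) * ((∏ i, Fin.tail wt i : ℕ) : ℕ∞) := by
      rw [Fin.prod_univ_succ]
      push_cast
      rfl
    calc ((∏ i, wt i : ℕ) : ℕ∞) * Module.length S (M ⧸ (n • (⊤ : Submodule S M) ⊔ A))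
        = (w : ℕ∞) * (((∏ i, Fin.tail wt i : ℕ) : ℕ∞) *
            Module.length S (M ⧸ (n • (⊤ : Submodule S M) ⊔ A))) := by
          rw [e]; ring
      _ ≤ (w : ℕ∞) * Module.length S (M ⧸ ((Ideal.span (Set.range (Fin.tail a))) •
            (⊤ : Submodule S M) ⊔ (A ⊔ LinearMap.range D))) := by gcongr
      _ ≤ _ := h1

end Vale.Agent.P202
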