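import Vale.Agent.Lib.P202.T1Basic

/-!
# P202: the step lemma for a `w`-th power factorisation `D ^ w = a0`
-/

namespace Vale.Agent.P202

universe u v

variable {S : Type u} [CommRing S] {M : Type v} [AddCommGroup M] [Module S M]

theorem pow_mem_of_preserve (D : Module.End S M) (A : Submodule S M) (h : ∀ m ∈ A, D m ∈ A)
    (k : ℕ) : ∀ m ∈ A, (D ^ k) m ∈ A := by
  induction k with
  | zero => intro m hm; simpa using hm
  | succ k ih =>
    intro m hm
    rw [pow_succ', Module.End.mul_apply]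
    exact h _ (ih m hm)

theorem span_range_cons' {s : ℕ} (q : Fin (s + 1) → S) :
    Ideal.span (Set.range q) = Ideal.span {q 0} ⊔ Ideal.span (Set.range (Fin.tail q)) := by
  rw [← Ideal.span_union]
  congr 1
  ext z
  constructor
  · rintro ⟨i, rfl⟩
    rcases Fin.eq_zero_or_eq_succ i with h | ⟨j, h⟩
    · left; rw [h]; rfl
    · right; exact ⟨j, by rw [h]; rfl⟩
  · rintro (h | ⟨j, rfl⟩)
    · exact ⟨0, h.symm⟩
    · exact ⟨j.succ, rfl⟩

theorem span_singleton_smul_top_le_range (a0 : S) (D : Module.End S M) (w k : ℕ) (hk : k ≤ w)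
    (hD : D ^ w = a0 • (1 : Module.End S M)) :
    (Ideal.span {a0}) • (⊤ : Submodule S M) ≤ LinearMap.range (D ^ k) := by
  rw [Submodule.smul_le]
  intro r hr x _
  obtain ⟨c, rfl⟩ := Ideal.mem_span_singleton'.1 hr
  refine ⟨(D ^ (w - k)) (c • x), ?_⟩
  rw [← Module.End.mul_apply, ← pow_add, Nat.add_sub_cancel' hk, hD, LinearMap.smul_apply,
    Module.End.one_apply, smul_smul, mul_comm]

theorem step_kernel (a0 : S) (I' : Ideal S) (A : Submodule S M) (D : Module.End S M) (w : ℕ)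
    (hD : D ^ w = a0 • (1 : Module.End S M)) (hDA : ∀ m ∈ A, D m ∈ A)
    (hind : ∀ m : M, a0 • m ∈ I' • (⊤ : Submodule S M) ⊔ A →
      m ∈ (Ideal.span {a0} ⊔ I') • (⊤ : Submodule S M) ⊔ A)
    (l : ℕ) (hl : l < w) (m : M)
    (hm : (D ^ l) m ∈ LinearMap.range (D ^ (l + 1)) ⊔ (I' • (⊤ : Submodule S M) ⊔ A)) :
    m ∈ LinearMap.range D ⊔ (I' • (⊤ : Submodule S M) ⊔ A) := by
  obtain ⟨_, ⟨u, rfl⟩, y, hy, hsum⟩ := Submodule.mem_sup.1 hm
  have hpres : ∀ y ∈ I' • (⊤ : Submodule S M) ⊔ A,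
      (D ^ (w - l)) y ∈ I' • (⊤ : Submodule S M) ⊔ A := by
    intro y hy
    obtain ⟨y1, hy1, y2, hy2, rfl⟩ := Submodule.mem_sup.1 hy
    rw [map_add]
    exact Submodule.add_mem_sup (map_mem_smul_top I' _ hy1) (pow_mem_of_preserve D A hDA _ _ hy2)
  have e1 : (D ^ (w - l)) ((D ^ l) m) = a0 • m := by
    rw [← Module.End.mul_apply, ← pow_add, Nat.sub_add_cancel hl.le, hD]
    simp
  have e2 : (D ^ (w - l)) ((D ^ (l + 1)) u) = a0 • D u := by
    rw [pow_succ, Module.End.mul_apply, ← Module.End.mul_apply, ← pow_add,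
      Nat.sub_add_cancel hl.le, hD]
    simp
  have e3 : a0 • (m - D u) = (D ^ (w - l)) y := by
    rw [smul_sub, ← e1, ← e2, ← hsum, map_add]
    abel
  have h1 := hind (m - D u) (by rw [e3]; exact hpres y hy)
  have h2 : (Ideal.span {a0} ⊔ I') • (⊤ : Submodule S M) ⊔ A ≤
      LinearMap.range D ⊔ (I' • (⊤ : Submodule S M) ⊔ A) := by
    rw [Submodule.sup_smul, sup_assoc]
    apply sup_le_sup_right
    have := span_singleton_smul_top_le_range a0 D w 1 (by omega) hD
    rwa [pow_one] at this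
  have h3 : m = D u + (m - D u) := by abel
  rw [h3]
  exact Submodule.add_mem _ (Submodule.mem_sup_left ⟨u, rfl⟩) (h2 h1)

theorem step_length (a0 : S) (I' : Ideal S) (A : Submodule S M) (D : Module.End S M) (w : ℕ)
    (hD : D ^ w = a0 • (1 : Module.End S M)) (hDA : ∀ m ∈ A, D m ∈ A)
    (hind : ∀ m : M, a0 • m ∈ I' • (⊤ : Submodule S M) ⊔ A →
      m ∈ (Ideal.span {a0} ⊔ I') • (⊤ : Submodule S M) ⊔ A) :
    (w : ℕ∞) * Module.length S (M ⧸ (I' • (⊤ : Submodule S M) ⊔ (A ⊔ LinearMap.range D))) ≤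
      Module.length S (M ⧸ ((Ideal.span {a0} ⊔ I') • (⊤ : Submodule S M) ⊔ A)) := by
  have e0 : I' • (⊤ : Submodule S M) ⊔ (A ⊔ LinearMap.range D) =
      LinearMap.range D ⊔ (I' • (⊤ : Submodule S M) ⊔ A) := by
    ac_rfl
  rw [e0]
  have key : ∀ l, l ≤ w → (l : ℕ∞) *
      Module.length S (M ⧸ (LinearMap.range D ⊔ (I' • (⊤ : Submodule S M) ⊔ A))) ≤
      Module.length S (M ⧸ (LinearMap.range (D ^ l) ⊔ (I' • (⊤ : Submodule S M) ⊔ A))) := by
    intro l
    induction l with
    | zero => intro _; simp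
    | succ l ih =>
      intro hl
      have h1 := length_quot_ge_add_range (D ^ l)
        (LinearMap.range (D ^ (l + 1)) ⊔ (I' • (⊤ : Submodule S M) ⊔ A))
        (LinearMap.range D ⊔ (I' • (⊤ : Submodule S M) ⊔ A))
        (fun m hm => step_kernel a0 I' A D w hD hDA hind l (by omega) m hm)
      have h2 : LinearMap.range (D ^ (l + 1)) ⊔ (I' • (⊤ : Submodule S M) ⊔ A) ⊔
          LinearMap.range (D ^ l) = LinearMap.range (D ^ l) ⊔ (I' • (⊤ : Submodule S M) ⊔ A) := by
        have h3 : LinearMap.range (D ^ (l + 1)) ≤ LinearMap.range (D ^ l) := by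
          rintro _ ⟨u, rfl⟩
          exact ⟨D u, by rw [pow_succ, Module.End.mul_apply]⟩
        apply le_antisymm
        · exact sup_le (sup_le (h3.trans le_sup_left) le_sup_right) le_sup_left
        · exact sup_le le_sup_right (le_sup_right.trans le_sup_left)
      rw [h2] at h1
      calc ((l + 1 : ℕ) : ℕ∞) *
            Module.length S (M ⧸ (LinearMap.range D ⊔ (I' • (⊤ : Submodule S M) ⊔ A)))
          = (l : ℕ∞) *
            Module.length S (M ⧸ (LinearMap.range D ⊔ (I' • (⊤ : Submodule S M) ⊔ A))) +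
            Module.length S (M ⧸ (LinearMap.range D ⊔ (I' • (⊤ : Submodule S M) ⊔ A))) := by
            push_cast
            ring
        _ ≤ Module.length S (M ⧸ (LinearMap.range (D ^ l) ⊔ (I' • (⊤ : Submodule S M) ⊔ A))) +
            Module.length S (M ⧸ (LinearMap.range D ⊔ (I' • (⊤ : Submodule S M) ⊔ A))) := by
            gcongr
            exact ih (by omega)
        _ ≤ _ := h1
  refine (key w le_rfl).trans (length_quot_mono' ?_)
  rw [Submodule.sup_smul, sup_assoc]
  exact sup_le_sup_right (span_singleton_smul_top_le_range a0 D w w le_rfl hD) _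

/-- the head of an independent family -/
theorem indep_head {r : ℕ} (a : Fin (r + 1) → S) (A : Submodule S M) (h : IndepMod a A) (m : M)
    (hm : a 0 • m ∈ (Ideal.span (Set.range (Fin.tail a))) • (⊤ : Submodule S M) ⊔ A) :
    m ∈ (Ideal.span {a 0} ⊔ Ideal.span (Set.range (Fin.tail a))) • (⊤ : Submodule S M) ⊔ A := by
  obtain ⟨y, hy, α, hα, hsum⟩ := Submodule.mem_sup.1 hm
  obtain ⟨v, rfl⟩ := exists_sum_of_mem_span_smul_top _ hy
  have := h (Fin.cons m (-v)) (by
    rw [Fin.sum_univ_succ]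
    simp only [Fin.cons_zero, Fin.cons_succ, Pi.neg_apply, smul_neg, Finset.sum_neg_distrib]
    have e : a 0 • m + -∑ i : Fin r, a i.succ • v i = α := by
      have e' : ∑ i : Fin r, a i.succ • v i = ∑ i, Fin.tail a i • v i := rfl
      rw [e', ← hsum]
      abel
    rw [e]
    exact hα) 0
  rw [span_range_cons'] at this
  simpa using this

theorem step_indep {r : ℕ} (a : Fin (r + 1) → S) (A : Submodule S M) (h : IndepMod a A)
    (D : Module.End S M) (w : ℕ) (hw : 1 ≤ w)
    (hD : D ^ w = a 0 • (1 : Module.End S M)) (hDA : ∀ m ∈ A, D m ∈ A) :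
    IndepMod (Fin.tail a) (A ⊔ LinearMap.range D) := by
  intro z hz i
  obtain ⟨α, hα, _, ⟨u, rfl⟩, hsum⟩ := Submodule.mem_sup.1 hz
  have e1 : (D ^ (w - 1)) (D u) = a 0 • u := by
    rw [← Module.End.mul_apply, ← pow_succ, Nat.sub_add_cancel hw, hD]
    simp
  have h1 := h (Fin.cons (-u) (fun i => (D ^ (w - 1)) (z i))) (by
    rw [Fin.sum_univ_succ]
    simp only [Fin.cons_zero, Fin.cons_succ, smul_neg]
    have e : -(a 0 • u) + ∑ i : Fin r, a i.succ • (D ^ (w - 1)) (z i) = (D ^ (w - 1)) α := by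
      have e' : ∑ i : Fin r, a i.succ • (D ^ (w - 1)) (z i) =
          (D ^ (w - 1)) (∑ i, Fin.tail a i • z i) := by
        rw [map_sum]
        apply Finset.sum_congr rfl
        intro i _
        rw [map_smul]
        rfl
      rw [e', ← hsum, map_add, e1]
      abel
    rw [e]
    exact pow_mem_of_preserve D A hDA _ _ hα) i.succ
  simp only [Fin.cons_succ] at h1
  rw [span_range_cons'] at h1
  have h2 : (D ^ (w - 1)) (z i) ∈ LinearMap.range (D ^ (w - 1 + 1)) ⊔
      ((Ideal.span (Set.range (Fin.tail a))) • (⊤ : Submodule S M) ⊔ A) := by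
    rw [Nat.sub_add_cancel hw]
    have h3 : (Ideal.span {a 0} ⊔ Ideal.span (Set.range (Fin.tail a))) • (⊤ : Submodule S M) ⊔ A ≤
        LinearMap.range (D ^ w) ⊔
          ((Ideal.span (Set.range (Fin.tail a))) • (⊤ : Submodule S M) ⊔ A) := by
      rw [Submodule.sup_smul, sup_assoc]
      exact sup_le_sup_right (span_singleton_smul_top_le_range (a 0) D w w le_rfl hD) _
    exact h3 h1
  have h4 := step_kernel (a 0) (Ideal.span (Set.range (Fin.tail a))) A D w hD hDA
    (indep_head a A h) (w - 1) (by omega) (z i) h2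
  have e0 : (Ideal.span (Set.range (Fin.tail a))) • (⊤ : Submodule S M) ⊔
      (A ⊔ LinearMap.range D) =
      LinearMap.range D ⊔ ((Ideal.span (Set.range (Fin.tail a))) • (⊤ : Submodule S M) ⊔ A) := by
    ac_rfl
  rw [e0]
  exact h4

end Vale.Agent.P202
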